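import Vale.Agent.Lib.P309.Lin.Final

namespace Vale.Agent.Lib.P309

open MeasureTheory ProbabilityTheory Metric Set
open scoped ENNReal

/-- For `0 < ε ≤ 2^(-576)`, the integer part `b` of `log₂ (1/ε)` satisfies `576 ≤ b`,
`ε ≤ 2^(-b)` and `log (1/ε) ≤ b`. -/
lemma linLog_floor (ε : ℝ) (hε0 : 0 < ε) (hε : ε ≤ (1 / 2) ^ 576) :
    ∃ b : ℕ, 576 ≤ b ∧ ε ≤ (1 / 2) ^ b ∧ Real.log (1 / ε) ≤ (b : ℝ) := by
  have hlog2 : 0 < Real.log 2 := Real.log_pos (by norm_num)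
  have hlog2lt : Real.log 2 < 0.6931471808 := Real.log_two_lt_d9
  obtain ⟨x, hx⟩ : ∃ x : ℝ, x = Real.log (1 / ε) / Real.log 2 := ⟨_, rfl⟩
  have hxe : x * Real.log 2 = Real.log (1 / ε) := by
    rw [hx, div_mul_cancel₀ _ hlog2.ne']
  have hinv : (2 : ℝ) ^ 576 ≤ 1 / ε := by
    rw [le_div_iff₀ hε0]
    have h1 : (2 : ℝ) ^ 576 * ε ≤ 2 ^ 576 * (1 / 2) ^ 576 :=
      mul_le_mul_of_nonneg_left hε (by positivity)
    have h2 : (2 : ℝ) ^ 576 * (1 / 2) ^ 576 = 1 := by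
      rw [← mul_pow]
      norm_num
    exact le_of_le_of_eq h1 h2
  have hL : (576 : ℝ) * Real.log 2 ≤ Real.log (1 / ε) := by
    have h1 : Real.log ((2 : ℝ) ^ 576) ≤ Real.log (1 / ε) :=
      Real.log_le_log (by positivity) hinv
    rw [Real.log_pow] at h1
    exact_mod_cast h1
  have hx576 : (576 : ℝ) ≤ x := by
    rw [hx, le_div_iff₀ hlog2]
    exact hL
  have hx0 : 0 ≤ x := le_trans (by norm_num) hx576
  refine ⟨⌊x⌋₊, ?_, ?_, ?_⟩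
  · exact Nat.le_floor (by exact_mod_cast hx576)
  · have hb : ((⌊x⌋₊ : ℕ) : ℝ) ≤ x := Nat.floor_le hx0
    have h1 : ((⌊x⌋₊ : ℕ) : ℝ) * Real.log 2 ≤ Real.log (1 / ε) :=
      le_of_le_of_eq (mul_le_mul_of_nonneg_right hb hlog2.le) hxe
    have h2 : Real.log ((2 : ℝ) ^ ⌊x⌋₊) ≤ Real.log (1 / ε) := by
      rw [Real.log_pow]
      exact h1
    have hpos : (0 : ℝ) < (2 : ℝ) ^ ⌊x⌋₊ := by positivity
    have h3 : (2 : ℝ) ^ ⌊x⌋₊ ≤ 1 / ε :=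
      (Real.log_le_log_iff hpos (by positivity)).mp h2
    have h4 : (1 / 2 : ℝ) ^ ⌊x⌋₊ = 1 / ((2 : ℝ) ^ ⌊x⌋₊) := by
      rw [one_div, inv_pow, one_div]
    rw [h4, le_div_iff₀ hpos]
    have h5 : (2 : ℝ) ^ ⌊x⌋₊ * ε ≤ 1 := (le_div_iff₀ hε0).mp h3
    calc ε * (2 : ℝ) ^ ⌊x⌋₊ = (2 : ℝ) ^ ⌊x⌋₊ * ε := mul_comm _ _
      _ ≤ 1 := h5
  · have hb : x - 1 < ((⌊x⌋₊ : ℕ) : ℝ) := Nat.sub_one_lt_floor x
    rw [← hxe]
    nlinarith

/-- Logarithmic form of the first-order sample rate at quadratic memory: for `d ≥ 2`,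
`4 M ≤ d^2` and `0 < ε ≤ 2^(-576)`, a learner with `M` bits and horizon `T` that succeeds with
probability at least `2/3` at accuracy `ε` has `d log (1/ε) ≤ 10000 T`. -/
theorem lin_q1_log (d M T : ℕ) (ε : ℝ) (L : Learner d M) (hd : 2 ≤ d) (hM : 4 * M ≤ d ^ 2)
    (hε0 : 0 < ε) (hε : ε ≤ (1 / 2) ^ 576)
    (hsucc : ENNReal.ofReal (2 / 3) ≤ L.successProb T ε) :
    (d : ℝ) * Real.log (1 / ε) ≤ 10000 * (T : ℝ) := by
  obtain ⟨b, hb576, hεb, hlogb⟩ := linLog_floor ε hε0 hε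
  by_contra hcon
  have hlt : 10000 * (T : ℝ) < (d : ℝ) * Real.log (1 / ε) := lt_of_not_ge hcon
  have hd0 : (0 : ℝ) ≤ (d : ℝ) := Nat.cast_nonneg d
  have h1 : 10000 * (T : ℝ) < (d : ℝ) * (b : ℝ) :=
    lt_of_lt_of_le hlt (mul_le_mul_of_nonneg_left hlogb hd0)
  have hT : 10000 * T ≤ b * d := by
    have h2 : ((10000 * T : ℕ) : ℝ) < ((b * d : ℕ) : ℝ) := by
      push_cast
      linarith
    exact (Nat.cast_lt.mp h2).le
  have hM' : M + 3 ≤ d ^ 2 := by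
    have h4 : 4 ≤ d ^ 2 := by
      have : 2 ^ 2 ≤ d ^ 2 := Nat.pow_le_pow_left hd 2
      omega
    omega
  have hfail := lin_q1 d M b T ε hd hM' hb576 hT hε0 hεb L
  exact absurd hsucc (not_le.mpr hfail)

end Vale.Agent.Lib.P309
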