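import Vale.Agent.Lib.P309.Lin.Stage
import Vale.Agent.Lib.P309.Prof.Cap
import Vale.Agent.Lib.P309.Prof.Full
import Vale.Agent.Lib.P309.Prof.RecProf
import Vale.Agent.Lib.P309.Stage.Top

namespace Vale.Agent.Lib.P309

open MeasureTheory ProbabilityTheory Metric Set
open scoped ENNReal

variable {d M : ℕ}

/-- The coefficient of the profile at stage zero. -/
lemma linRec_linA_zero (d D E : ℕ) (ε : ℝ) :
    linA d D E ε 0 = ENNReal.ofReal ((4 * ε) ^ D) := by
  unfold linA
  rw [Nat.zero_mul, pow_zero, one_mul]

/-- The coefficient of the profile is multiplied by a fixed power of two at each stage. -/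
lemma linRec_linA_succ (d D E : ℕ) (ε : ℝ) (i : ℕ) :
    (2 : ℝ≥0∞) ^ (E + 3 * d + 4 * D + 1) * linA d D E ε i = linA d D E ε (i + 1) := by
  unfold linA
  rw [← mul_assoc, ← pow_add]
  have h : E + 3 * d + 4 * D + 1 + i * (E + 3 * d + 4 * D + 1)
      = (i + 1) * (E + 3 * d + 4 * D + 1) := by ring
  rw [h]

/-- The coefficient of the profile increases with the stage. -/
lemma linRec_linA_le (d D E : ℕ) (ε : ℝ) (i : ℕ) :
    linA d D E ε i ≤ linA d D E ε (i + 1) := by
  rw [← linRec_linA_succ]
  have h1 : (1 : ℝ≥0∞) ≤ (2 : ℝ≥0∞) ^ (E + 3 * d + 4 * D + 1) :=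
    one_le_pow₀ (by norm_num)
  calc linA d D E ε i = 1 * linA d D E ε i := (one_mul _).symm
    _ ≤ (2 : ℝ≥0∞) ^ (E + 3 * d + 4 * D + 1) * linA d D E ε i := mul_le_mul' h1 le_rfl

/-- The dimension threshold is at least one. -/
lemma linRec_one_le_linK (n D N J : ℕ) : 1 ≤ linK n D N J := by
  unfold linK
  omega

/-- Recursion over the stages, two dimensions lost per stage: after at most `i` stages of at
most `n` samples the decoding probability of every memory pair has the radial profile
`linA i / ρ^D + profT i` from dimension `linK i` on. -/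
theorem lin_prof_rec (L : Learner d M) (s₀ : Sph d) (n N D E : ℕ) (hD : 1 ≤ D) {ε : ℝ}
    (hε : 0 < ε) :
    ∀ i : ℕ, ∀ b : ℕ, b ≤ i * n → ∀ (t : ℕ) (p : St M),
      ProfLe s₀ (phiBar L t b ε p) (linK n D N i)
        (profFn D (linA d D E ε i) (profT M E N i)) := by
  intro i
  induction i with
  | zero =>
    intro b hb t p
    have hb0 : b = 0 := by omega
    subst hb0
    refine profLe_mono s₀ _ (cap_profile s₀ L t hε p D hD) ?_ (fun ρ => ?_)
    · unfold linK
      omega
    · rw [linRec_linA_zero, recprof_profT_zero]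
  | succ i ih =>
    intro b hb t p
    by_cases hbi : b ≤ i * n
    · refine profLe_mono s₀ _ (ih b hbi t p) ?_ (fun ρ => ?_)
      · unfold linK
        omega
      · exact recprof_profFn_mono D (linRec_linA_le d D E ε i) (recprof_profT_le M E N i) ρ
    · have hsm : (i + 1) * n = i * n + n := Nat.succ_mul i n
      obtain ⟨a, rfl⟩ : ∃ a, b = a + i * n := ⟨b - i * n, by omega⟩
      have ha1 : 1 ≤ a := by omega
      have han : a ≤ n := by omega
      have hK₀ : 1 ≤ linK n D N i := linRec_one_le_linK n D N i
      have hst := lin_prof_stage (d := d) (a := a) (N := N) (D := D) (E := E)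
        (K₀ := linK n D N i) (P := St M) s₀ ha1 hK₀
        (fun p' X s => muT L t a p p' X s)
        (fun p' => measurable_muT L t a p p')
        (fun X s => (sum_muT L t a p X s).le)
        (fun p' X s s' h => muT_congr_labels L t a p p' X s s' h)
        (fun p' => phiBar L (t + a) (i * n) ε p')
        (fun p' => measurable_phiBar L (t + a) (i * n) ε p')
        (fun p' s => phiBar_le_one L (t + a) (i * n) ε p' s)
        (linA d D E ε i) (profT M E N i)
        (fun p' => ih (i * n) le_rfl (t + a) p')
      have hfun : phiBar L t (a + i * n) ε p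
          = fun s => ∫⁻ X, ∑ p' : St M, muT L t a p p' X s * phiBar L (t + a) (i * n) ε p' s
              ∂(Measure.pi (fun _ : Fin a => stdGaussian (Vec d))) := by
        funext s
        exact phiBar_split L t a (i * n) ε p s
      rw [hfun]
      refine profLe_mono s₀ _ hst ?_ (fun ρ => ?_)
      · unfold linK
        refine max_le ?_ ?_ <;> omega
      · exact recprof_profFn_mono D (linRec_linA_succ d D E ε i).le
          (recprof_profT_succ M E N i) ρ

/-- The success probability after at most `J` stages of `n` samples is at most the value at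
radius `1` of the radial profile after `J` stages. -/
theorem lin_successProb_le (L : Learner d M) (n N D E J T : ℕ) (hD : 1 ≤ D)
    (hT : T ≤ J * n) (hKd : linK n D N J ≤ d) {ε : ℝ} (hε : 0 < ε) :
    L.successProb T ε ≤ linA d D E ε J + profT M E N J := by
  have hd : 1 ≤ d := le_trans (linRec_one_le_linK n D N J) hKd
  have hd0 : 0 < d := hd
  let s₀ : Sph d := ⟨EuclideanSpace.single (⟨0, hd0⟩ : Fin d) (1 : ℝ), by simp⟩
  have hmain := successProb_le_of_phiBar hd L T ε 0
    (linA d D E ε J + profT M E N J) ?_
  · rwa [zero_add] at hmain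
  · intro p
    refine ⟨phiBar L 0 T ε p, measurable_phiBar L 0 T ε p, fun s => ?_, ?_⟩
    · rw [zero_add]
    · have hrec := lin_prof_rec L s₀ n N D E hD hε J T hT 0 p
      have hsub := hrec d hKd (fun l : Fin d => (EuclideanSpace.single l (1 : ℝ) : Vec d))
        0 1 (isSub_full d)
      rw [subAvg_full s₀ _ (measurable_phiBar L 0 T ε p), fullAux_profFn_one] at hsub
      exact hsub

end Vale.Agent.Lib.P309
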