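import Vale.Agent.Lib.P309.Lin.Nat
import Vale.Agent.Lib.P309.Lin.Rec
import Vale.Agent.Lib.P309.Prof.General

namespace Vale.Agent.Lib.P309

open MeasureTheory ProbabilityTheory Metric Set
open scoped ENNReal

/-- Profile recursion without loss of dimension, final form in the recursion regime: if
`16 J ≤ d` and the accuracy `ε ≤ 2^(-b)` satisfies `512 J (M + 3) + 64 J d^2 ≤ b d^2`, no
learner with `M` bits and horizon `T ≤ J ⌊d/4⌋` succeeds with probability `2/3`. -/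
theorem lin_final (d M J b T : ℕ) (ε : ℝ) (hJ : 1 ≤ J) (hd : 16 * J ≤ d)
    (hb : 512 * J * (M + 3) + 64 * J * d ^ 2 ≤ b * d ^ 2) (hT : T ≤ J * (d / 4))
    (hε0 : 0 < ε) (hε : ε ≤ (1 / 2) ^ b) (L : Learner d M) :
    L.successProb T ε < ENNReal.ofReal (2 / 3) := by
  obtain ⟨hD, hK, hb2, hE, hA⟩ := lin_nat d M J b hJ hd hb
  obtain ⟨D, hDdef⟩ : ∃ D : ℕ, D = d / 8 := ⟨_, rfl⟩
  obtain ⟨E, hEdef⟩ : ∃ E : ℕ, E = (M + 3 + J) / (D - J) + 1 := ⟨_, rfl⟩
  rw [← hDdef] at hD hK hE hA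
  rw [← hEdef] at hE hA
  have hmain := lin_successProb_le L (d / 4) D D E J T hD hT hK hε0
  refine lt_of_le_of_lt hmain ?_
  have h2 : (2 : ℝ≥0∞) = ENNReal.ofReal 2 := by simp
  -- the coefficient term
  have hAle : linA d D E ε J ≤ ENNReal.ofReal (1 / 4) := by
    unfold linA
    rw [h2, ← ENNReal.ofReal_pow (by norm_num), ← ENNReal.ofReal_mul (by positivity)]
    refine ENNReal.ofReal_le_ofReal ?_
    have h4ε : 4 * ε ≤ (1 / 2) ^ (b - 2) := by
      have e : (1 / 2 : ℝ) ^ b = (1 / 2) ^ (b - 2) * (1 / 2) ^ 2 := by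
        rw [← pow_add]
        congr 1
        omega
      rw [e] at hε
      nlinarith [pow_pos (by norm_num : (0 : ℝ) < 1 / 2) (b - 2)]
    have hpow : (4 * ε) ^ D ≤ ((1 / 2 : ℝ) ^ (b - 2)) ^ D :=
      pow_le_pow_left₀ (by positivity) h4ε D
    rw [← pow_mul] at hpow
    have hle : (1 / 2 : ℝ) ^ ((b - 2) * D) ≤ (1 / 2) ^ (J * (E + 3 * d + 4 * D + 1) + 2) :=
      pow_le_pow_of_le_one (by norm_num) (by norm_num) hA
    calc (2 : ℝ) ^ (J * (E + 3 * d + 4 * D + 1)) * (4 * ε) ^ D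
        ≤ (2 : ℝ) ^ (J * (E + 3 * d + 4 * D + 1))
            * (1 / 2) ^ (J * (E + 3 * d + 4 * D + 1) + 2) :=
          mul_le_mul_of_nonneg_left (hpow.trans hle) (by positivity)
      _ = 1 / 4 := by
          rw [pow_add, ← mul_assoc, ← mul_pow]
          norm_num
  -- the additive term
  have hTle : profT M E D J ≤ ENNReal.ofReal (1 / 4) := by
    unfold profT
    have hinv : ((2 : ℝ≥0∞) ^ (E * D))⁻¹ = ENNReal.ofReal (((2 : ℝ) ^ (E * D))⁻¹) := by
      rw [ENNReal.ofReal_inv_of_pos (by positivity), ENNReal.ofReal_pow (by norm_num)]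
      simp
    have hJc : (J : ℝ≥0∞) = ENNReal.ofReal (J : ℝ) := by simp
    rw [hinv, hJc, h2, ← ENNReal.ofReal_pow (by norm_num), ← ENNReal.ofReal_pow (by norm_num),
      ← ENNReal.ofReal_mul (by positivity), ← ENNReal.ofReal_mul (by positivity),
      ← ENNReal.ofReal_mul (by positivity)]
    refine ENNReal.ofReal_le_ofReal ?_
    have hJ2 : (J : ℝ) ≤ 2 ^ J := by
      have := Nat.lt_two_pow_self (n := J)
      exact_mod_cast this.le
    have hpowle : (2 : ℝ) ^ (J + J * E + M + 3) ≤ 2 ^ (E * D) :=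
      pow_le_pow_right₀ (by norm_num) hE
    have hpos : (0 : ℝ) < 2 ^ (E * D) := by positivity
    rw [← mul_assoc, ← div_eq_mul_inv, div_le_iff₀ hpos]
    calc (J : ℝ) * 2 ^ (J * E) * 2 ^ (M + 1)
        ≤ 2 ^ J * 2 ^ (J * E) * 2 ^ (M + 1) := by gcongr
      _ = 1 / 4 * 2 ^ (J + J * E + M + 3) := by
          rw [pow_add, pow_add, pow_add, pow_add]
          ring
      _ ≤ 1 / 4 * 2 ^ (E * D) := by gcongr
  calc linA d D E ε J + profT M E D J
      ≤ ENNReal.ofReal (1 / 4) + ENNReal.ofReal (1 / 4) := add_le_add hAle hTle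
    _ = ENNReal.ofReal (1 / 2) := by
        rw [← ENNReal.ofReal_add (by norm_num) (by norm_num)]
        norm_num
    _ < ENNReal.ofReal (2 / 3) := (ENNReal.ofReal_lt_ofReal_iff (by norm_num)).mpr (by norm_num)

/-- The output-precision bound: if `M + 2 d + 1 ≤ b (d - 1)`, no learner with `M` bits
reaches accuracy `ε ≤ 2^(-b)` with probability `2/3`, whatever its horizon. -/
theorem lin_count (d M b T : ℕ) (ε : ℝ) (hd : 2 ≤ d) (hnat : M + 2 * d + 1 ≤ b * (d - 1))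
    (hε0 : 0 < ε) (hε : ε ≤ (1 / 2) ^ b) (L : Learner d M) :
    L.successProb T ε < ENNReal.ofReal (2 / 3) := by
  have hε1 : ε ≤ 1 := hε.trans (pow_le_one₀ (by norm_num) (by norm_num))
  have hcount := profgen_count d M T (by omega) ε hε0 hε1 L
  refine lt_of_le_of_lt hcount ((ENNReal.ofReal_lt_ofReal_iff (by norm_num)).mpr ?_)
  have hdpos : (0 : ℝ) < (d : ℝ) := by
    have : 0 < d := by omega
    exact_mod_cast this
  have hd2 : (2 : ℝ) ≤ (d : ℝ) := by exact_mod_cast hd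
  have hεpow : ε ^ (d - 1) ≤ (1 / 2 : ℝ) ^ (b * (d - 1)) := by
    rw [pow_mul]
    exact pow_le_pow_left₀ hε0.le hε (d - 1)
  have h3 : (3 : ℝ) ^ d ≤ 2 ^ (2 * d) := by
    rw [pow_mul]
    exact pow_le_pow_left₀ (by norm_num) (by norm_num) d
  have hle : (1 / 2 : ℝ) ^ (b * (d - 1)) ≤ (1 / 2) ^ (M + 2 * d + 1) :=
    pow_le_pow_of_le_one (by norm_num) (by norm_num) hnat
  have hnum : (2 : ℝ) ^ M * 3 ^ d * ε ^ (d - 1) ≤ 1 / 2 := by
    calc (2 : ℝ) ^ M * 3 ^ d * ε ^ (d - 1)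
        ≤ 2 ^ M * 2 ^ (2 * d) * (1 / 2) ^ (M + 2 * d + 1) := by
          have hp : (0 : ℝ) ≤ ε ^ (d - 1) := pow_nonneg hε0.le _
          have := hεpow.trans hle
          gcongr
      _ = 1 / 2 := by
          rw [← pow_add, pow_succ, ← mul_assoc, ← mul_pow]
          norm_num
  rw [div_lt_iff₀ hdpos]
  nlinarith

/-- Memory-sample-precision tradeoff, linear in the number of stages: for `d ≥ 2` and `J ≥ 1`,
if the accuracy `ε ≤ 2^(-b)` satisfies `512 J (M + 3) + 64 J d^2 ≤ b d^2`, no learner with `M`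
bits and horizon `T ≤ J ⌊d/4⌋` succeeds with probability `2/3`. -/
theorem lin_general (d M J b T : ℕ) (ε : ℝ) (hd : 2 ≤ d) (hJ : 1 ≤ J)
    (hb : 512 * J * (M + 3) + 64 * J * d ^ 2 ≤ b * d ^ 2) (hT : T ≤ J * (d / 4))
    (hε0 : 0 < ε) (hε : ε ≤ (1 / 2) ^ b) (L : Learner d M) :
    L.successProb T ε < ENNReal.ofReal (2 / 3) := by
  by_cases h16 : 16 * J ≤ d
  · exact lin_final d M J b T ε hJ h16 hb hT hε0 hε L
  · exact lin_count d M b T ε hd (lin_count_nat d M J b hd hJ (by omega) hb) hε0 hε L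

/-- First-order sample rate at quadratic memory: for `d ≥ 2`, `M + 3 ≤ d^2` and accuracy
`ε ≤ 2^(-b)` with `b ≥ 576`, no learner with `M` bits and horizon `T ≤ b d / 10000` succeeds
with probability `2/3`. -/
theorem lin_q1 (d M b T : ℕ) (ε : ℝ) (hd : 2 ≤ d) (hM : M + 3 ≤ d ^ 2) (hb : 576 ≤ b)
    (hT : 10000 * T ≤ b * d) (hε0 : 0 < ε) (hε : ε ≤ (1 / 2) ^ b) (L : Learner d M) :
    L.successProb T ε < ENNReal.ofReal (2 / 3) := by
  by_cases h4 : 4 ≤ d
  · obtain ⟨hJ, hTJ, hbJ⟩ := lin_q1_nat d M b T h4 hM hb hT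
    exact lin_general d M (b / 576) b T ε hd hJ hbJ hTJ hε0 hε L
  · refine lin_count d M b T ε hd ?_ hε0 hε L
    have hd3 : d ≤ 3 := by omega
    have hM' : M + 3 ≤ 9 := by
      have : d ^ 2 ≤ 3 ^ 2 := Nat.pow_le_pow_left hd3 2
      omega
    have h1 : 1 ≤ d - 1 := by omega
    have h2 : b * 1 ≤ b * (d - 1) := Nat.mul_le_mul_left b h1
    omega

end Vale.Agent.Lib.P309
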