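import Vale.Agent.Lib.P309.Multi.GaussDir
import Vale.Agent.Lib.P309.Prof.Blk
import Vale.Agent.Lib.P309.Prof.FrameMix
import Vale.Agent.Lib.P309.Prof.GaussIso
import Vale.Agent.Lib.P309.Prof.Meas

namespace Vale.Agent.Lib.P309

open MeasureTheory ProbabilityTheory Metric Set
open scoped ENNReal

/-- The rotated vector is jointly measurable in the frame and the vector. -/
theorem linNormDir_meas {m : ℕ} (F : Vec m → ℝ≥0∞) (hF : Measurable F) :
    Measurable (fun p : (Fin m → Vec m) × Vec m => F (mix p.2 p.1)) :=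
  hF.comp (measurable_mix_pair.comp (measurable_snd.prodMk measurable_fst))

/-- Averaging over a random frame resamples the direction of a nonzero vector. -/
theorem linNormDir_frame {m : ℕ} (F : Vec m → ℝ≥0∞) (hF : Measurable F) (y : Vec m)
    (hy : y ≠ 0) :
    ∫⁻ O, F (mix y O) ∂(frameLaw m m)
      = ∫⁻ q, F (‖y‖ • dirV q) ∂(stdGaussian (Vec m)) := by
  have hsm : Measurable (fun u : Vec m => ‖y‖ • u) := measurable_const_smul _
  have hH : Measurable (fun u : Vec m => F (‖y‖ • u)) := hF.comp hsm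
  have hf : Orthonormal ℝ (fun _ : Fin 1 => dirV y) := by
    rw [gdir_orthonormal_iff]
    exact norm_dirV hy
  have hmap : Measurable
      (fun e : Fin m → Vec m => fun _ : Fin 1 => mix (dirV y) e) :=
    measurable_pi_lambda _
      (fun _ => measurable_mix_pair.comp (measurable_const.prodMk measurable_id))
  have hH0 : Measurable (fun b : Fin 1 → Vec m => F (‖y‖ • b 0)) :=
    hH.comp (measurable_pi_apply 0)
  have h1 : ∫⁻ O, F (mix y O) ∂(frameLaw m m)
      = ∫⁻ O, F (‖y‖ • mix (dirV y) O) ∂(frameLaw m m) := by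
    apply lintegral_congr
    intro O
    rw [← mix_smul, norm_smul_dirV]
  have h2 := lintegral_map (μ := frameLaw m m) hH0 hmap
  rw [frame_mix (fun _ : Fin 1 => dirV y) hf] at h2
  have h3 := lintegral_frameLaw_one (fun u : Vec m => F (‖y‖ • u)) hH
  exact h1.trans (h2.symm.trans h3)

/-- The norm and the direction of a standard Gaussian vector are independent: the direction may
be replaced by the direction of an independent standard Gaussian vector. -/
theorem lin_normdir {m : ℕ} (hm : 1 ≤ m) (F : Vec m → ℝ≥0∞) (hF : Measurable F) :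
    ∫⁻ y, F y ∂(stdGaussian (Vec m))
      = ∫⁻ y, ∫⁻ q, F (‖y‖ • dirV q) ∂(stdGaussian (Vec m)) ∂(stdGaussian (Vec m)) := by
  have : IsProbabilityMeasure (frameLaw m m) := lqh_frameLaw_prob
  have hB : ∫⁻ O, ∫⁻ y, F (mix y O) ∂(stdGaussian (Vec m)) ∂(frameLaw m m)
      = ∫⁻ y, F y ∂(stdGaussian (Vec m)) := by
    have h1 : ∫⁻ O, ∫⁻ y, F (mix y O) ∂(stdGaussian (Vec m)) ∂(frameLaw m m)
        = ∫⁻ _, (∫⁻ y, F y ∂(stdGaussian (Vec m))) ∂(frameLaw m m) := by
      apply lintegral_congr_ae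
      filter_upwards [frameLaw_orthonormal_le (le_refl m)] with O hO
      exact lintegral_gauss_mix O hO F hF
    rw [h1, lintegral_const, measure_univ, mul_one]
  have hC : ∫⁻ O, ∫⁻ y, F (mix y O) ∂(stdGaussian (Vec m)) ∂(frameLaw m m)
      = ∫⁻ y, ∫⁻ O, F (mix y O) ∂(frameLaw m m) ∂(stdGaussian (Vec m)) :=
    lintegral_lintegral_swap (linNormDir_meas F hF).aemeasurable
  have hD : ∫⁻ y, ∫⁻ O, F (mix y O) ∂(frameLaw m m) ∂(stdGaussian (Vec m))
      = ∫⁻ y, ∫⁻ q, F (‖y‖ • dirV q) ∂(stdGaussian (Vec m)) ∂(stdGaussian (Vec m)) := by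
    apply lintegral_congr_ae
    filter_upwards [ae_gauss_ne_zero hm] with y hy
    exact linNormDir_frame F hF y hy
  rw [← hB, hC, hD]

end Vale.Agent.Lib.P309
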