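import Vale.Agent.Lib.P309.Lin.GaussGlue
import Vale.Agent.Lib.P309.Lin.NormDir

namespace Vale.Agent.Lib.P309

open MeasureTheory ProbabilityTheory Metric Set
open scoped ENNReal

/-- Exchange of the outer and the inner variable of a triple integral. -/
theorem linChi_swap3 {A B C : Type*} [MeasurableSpace A] [MeasurableSpace B] [MeasurableSpace C]
    (μa : Measure A) (μb : Measure B) (μc : Measure C) [SFinite μa] [SFinite μb] [SFinite μc]
    (Ψ : A → B → C → ℝ≥0∞) (hΨ : Measurable (fun p : A × B × C => Ψ p.1 p.2.1 p.2.2)) :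
    ∫⁻ a, ∫⁻ b, ∫⁻ c, Ψ a b c ∂μc ∂μb ∂μa = ∫⁻ c, ∫⁻ b, ∫⁻ a, Ψ a b c ∂μa ∂μb ∂μc := by
  have h1 : ∀ a, ∫⁻ b, ∫⁻ c, Ψ a b c ∂μc ∂μb = ∫⁻ c, ∫⁻ b, Ψ a b c ∂μb ∂μc := by
    intro a
    refine lintegral_lintegral_swap ?_
    have hm : Measurable (fun p : B × C => Ψ a p.1 p.2) :=
      hΨ.comp (measurable_const.prodMk measurable_id)
    exact hm.aemeasurable
  have h2 : ∫⁻ a, ∫⁻ c, ∫⁻ b, Ψ a b c ∂μb ∂μc ∂μa
      = ∫⁻ c, ∫⁻ a, ∫⁻ b, Ψ a b c ∂μb ∂μa ∂μc := by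
    refine lintegral_lintegral_swap ?_
    have hm0 : Measurable (fun p : (A × C) × B => Ψ p.1.1 p.2 p.1.2) :=
      hΨ.comp ((measurable_fst.comp measurable_fst).prodMk
        (measurable_snd.prodMk (measurable_snd.comp measurable_fst)))
    have hm : Measurable (fun p : A × C => ∫⁻ b, Ψ p.1 b p.2 ∂μb) :=
      hm0.lintegral_prod_right'
    exact hm.aemeasurable
  have h3 : ∀ c, ∫⁻ a, ∫⁻ b, Ψ a b c ∂μb ∂μa = ∫⁻ b, ∫⁻ a, Ψ a b c ∂μa ∂μb := by
    intro c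
    refine lintegral_lintegral_swap ?_
    have hm : Measurable (fun p : A × B => Ψ p.1 p.2 c) :=
      hΨ.comp (measurable_fst.prodMk (measurable_snd.prodMk measurable_const))
    exact hm.aemeasurable
  calc ∫⁻ a, ∫⁻ b, ∫⁻ c, Ψ a b c ∂μc ∂μb ∂μa
      = ∫⁻ a, ∫⁻ c, ∫⁻ b, Ψ a b c ∂μb ∂μc ∂μa := lintegral_congr h1
    _ = ∫⁻ c, ∫⁻ a, ∫⁻ b, Ψ a b c ∂μb ∂μa ∂μc := h2
    _ = ∫⁻ c, ∫⁻ b, ∫⁻ a, Ψ a b c ∂μa ∂μb ∂μc := lintegral_congr h3

/-- The last coordinates of a multiple of a vector. -/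
theorem linChi_tlV_smul {n m : ℕ} (a : ℝ) (x : Vec (n + m)) : tlV (a • x) = a • tlV x := by
  ext i
  simp [tlV]

/-- The norm of the last coordinates of a vector with prescribed norm and direction. -/
theorem linChi_norm_tl {j k : ℕ} (y Y : Vec (j + k)) :
    ‖tlV (‖y‖ • dirV Y)‖ = ‖y‖ * (‖tlV Y‖ / ‖Y‖) := by
  unfold dirV
  rw [linChi_tlV_smul, linChi_tlV_smul, norm_smul, norm_smul, norm_norm, norm_inv, norm_norm]
  ring

/-- Comparison of the norms of Gaussian vectors of different dimensions.  A vector of `ℝ^(j+k)`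
with the direction of a standard Gaussian vector `y` and the norm of an independent standard
Gaussian vector `v` of `ℝ^k` has the law of `s • y`, where `s = ‖tlV Y‖ / ‖Y‖` is the relative
norm of the last `k` coordinates of an independent standard Gaussian vector `Y` of `ℝ^(j+k)`. -/
theorem lin_chi {j k : ℕ} (hk : 1 ≤ k) (Φ : Vec (j + k) → ℝ≥0∞) (hΦ : Measurable Φ) :
    ∫⁻ v, ∫⁻ y, Φ (‖v‖ • dirV y) ∂(stdGaussian (Vec (j + k))) ∂(stdGaussian (Vec k))
      = ∫⁻ Y, ∫⁻ y, Φ ((‖tlV Y‖ / ‖Y‖) • y) ∂(stdGaussian (Vec (j + k)))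
          ∂(stdGaussian (Vec (j + k))) := by
  have hjk : 1 ≤ j + k := by omega
  -- the common triple integral
  have hΨ : Measurable (fun p : Vec (j + k) × Vec (j + k) × Vec (j + k) =>
      Φ ((‖p.2.1‖ * (‖tlV p.2.2‖ / ‖p.2.2‖)) • dirV p.1)) := by
    have hs : Measurable (fun p : Vec (j + k) × Vec (j + k) × Vec (j + k) =>
        ‖p.2.1‖ * (‖tlV p.2.2‖ / ‖p.2.2‖)) :=
      (measurable_norm.comp (measurable_fst.comp measurable_snd)).mul
        ((measurable_norm.comp (measurable_tlV.comp (measurable_snd.comp measurable_snd))).div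
          (measurable_norm.comp (measurable_snd.comp measurable_snd)))
    have hd : Measurable (fun p : Vec (j + k) × Vec (j + k) × Vec (j + k) => dirV p.1) :=
      measurable_dirV.comp measurable_fst
    exact hΦ.comp (hs.smul hd)
  -- the left side
  have hL1 : ∫⁻ v, ∫⁻ y, Φ (‖v‖ • dirV y) ∂(stdGaussian (Vec (j + k))) ∂(stdGaussian (Vec k))
      = ∫⁻ q, ∫⁻ v, Φ (‖v‖ • dirV q) ∂(stdGaussian (Vec k)) ∂(stdGaussian (Vec (j + k))) := by
    refine lintegral_lintegral_swap ?_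
    have hs : Measurable (fun p : Vec k × Vec (j + k) => ‖p.1‖) :=
      measurable_norm.comp measurable_fst
    have hd : Measurable (fun p : Vec k × Vec (j + k) => dirV p.2) :=
      measurable_dirV.comp measurable_snd
    have hm : Measurable (fun p : Vec k × Vec (j + k) => Φ (‖p.1‖ • dirV p.2)) :=
      hΦ.comp (hs.smul hd)
    exact hm.aemeasurable
  have hL2 : ∀ q : Vec (j + k), ∫⁻ v, Φ (‖v‖ • dirV q) ∂(stdGaussian (Vec k))
      = ∫⁻ y, ∫⁻ Y, Φ ((‖y‖ * (‖tlV Y‖ / ‖Y‖)) • dirV q) ∂(stdGaussian (Vec (j + k)))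
          ∂(stdGaussian (Vec (j + k))) := by
    intro q
    have hF : Measurable (fun γ : Vec (j + k) => Φ (‖tlV γ‖ • dirV q)) :=
      hΦ.comp ((measurable_norm.comp measurable_tlV).smul_const (dirV q))
    have hg := lin_gauss_glue (n := j) (m := k) (fun γ : Vec (j + k) => Φ (‖tlV γ‖ • dirV q)) hF
    have hn := lin_normdir hjk (fun γ : Vec (j + k) => Φ (‖tlV γ‖ • dirV q)) hF
    simp only [tlV_glueV, lintegral_const, measure_univ, mul_one] at hg
    rw [← hg, hn]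
    refine lintegral_congr (fun y => lintegral_congr (fun Y => ?_))
    rw [linChi_norm_tl]
  -- the right side
  have hR : ∀ Y : Vec (j + k), ∫⁻ y, Φ ((‖tlV Y‖ / ‖Y‖) • y) ∂(stdGaussian (Vec (j + k)))
      = ∫⁻ y, ∫⁻ q, Φ ((‖y‖ * (‖tlV Y‖ / ‖Y‖)) • dirV q) ∂(stdGaussian (Vec (j + k)))
          ∂(stdGaussian (Vec (j + k))) := by
    intro Y
    have hF : Measurable (fun y : Vec (j + k) => Φ ((‖tlV Y‖ / ‖Y‖) • y)) :=
      hΦ.comp (measurable_id.const_smul (‖tlV Y‖ / ‖Y‖))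
    rw [lin_normdir hjk (fun y : Vec (j + k) => Φ ((‖tlV Y‖ / ‖Y‖) • y)) hF]
    refine lintegral_congr (fun y => lintegral_congr (fun q => ?_))
    rw [smul_smul, mul_comm]
  rw [hL1, lintegral_congr hL2, lintegral_congr hR]
  exact linChi_swap3 (stdGaussian (Vec (j + k))) (stdGaussian (Vec (j + k)))
    (stdGaussian (Vec (j + k)))
    (fun q y Y => Φ ((‖y‖ * (‖tlV Y‖ / ‖Y‖)) • dirV q)) hΨ

end Vale.Agent.Lib.P309
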