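import Vale.Agent.Lib.P309.Model

namespace Vale.Agent.Lib.P309

open MeasureTheory ProbabilityTheory Metric Set
open scoped ENNReal

/-- The law of `sqrt (1 + μ^2) • u` is the convolution of the law of `μ • ζ` and of the standard
Gaussian law (comparison of the characteristic functions). -/
theorem linConv_law {n : ℕ} (μ : ℝ) (hμ : 0 ≤ μ) :
    (stdGaussian (Vec n)).map (fun u => Real.sqrt (1 + μ ^ 2) • u)
      = ((stdGaussian (Vec n)).map (fun u => μ • u)) ∗ (stdGaussian (Vec n)) := by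
  apply Measure.ext_of_charFun
  funext t
  rw [charFun_conv, charFun_map_smul, charFun_map_smul, charFun_stdGaussian, charFun_stdGaussian,
    charFun_stdGaussian, ← Complex.exp_add]
  congr 1
  have hs : Real.sqrt (1 + μ ^ 2) ^ 2 = 1 + μ ^ 2 := Real.sq_sqrt (by positivity)
  have h : ‖Real.sqrt (1 + μ ^ 2) • t‖ ^ 2 = ‖μ • t‖ ^ 2 + ‖t‖ ^ 2 := by
    rw [norm_smul, norm_smul, Real.norm_of_nonneg hμ, Real.norm_of_nonneg (Real.sqrt_nonneg _),
      mul_pow, hs]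
    ring
  have hc : ((‖Real.sqrt (1 + μ ^ 2) • t‖ : ℝ) : ℂ) ^ 2
      = ((‖μ • t‖ : ℝ) : ℂ) ^ 2 + ((‖t‖ : ℝ) : ℂ) ^ 2 := by
    exact_mod_cast h
  rw [hc]
  ring

/-- The sum of a standard Gaussian vector `u` and of `μ` times an independent standard Gaussian
vector `ζ` has the law of `sqrt (1 + μ^2) • u`. -/
theorem lin_conv {n : ℕ} (Ξ : Vec n → ℝ≥0∞) (hΞ : Measurable Ξ) (μ : ℝ) (hμ : 0 ≤ μ) :
    ∫⁻ u, Ξ (Real.sqrt (1 + μ ^ 2) • u) ∂(stdGaussian (Vec n))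
      = ∫⁻ ζ, ∫⁻ u, Ξ (u + μ • ζ) ∂(stdGaussian (Vec n)) ∂(stdGaussian (Vec n)) := by
  have h1 : ∫⁻ u, Ξ (Real.sqrt (1 + μ ^ 2) • u) ∂(stdGaussian (Vec n))
      = ∫⁻ x, Ξ x ∂((stdGaussian (Vec n)).map (fun u => Real.sqrt (1 + μ ^ 2) • u)) := by
    rw [lintegral_map hΞ (by fun_prop)]
  have hm : Measurable (fun x : Vec n => ∫⁻ y, Ξ (x + y) ∂(stdGaussian (Vec n))) :=
    (hΞ.comp measurable_add).lintegral_prod_right'
  have h2 : ∫⁻ x, Ξ x ∂(((stdGaussian (Vec n)).map (fun u => μ • u)) ∗ (stdGaussian (Vec n)))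
      = ∫⁻ ζ, ∫⁻ u, Ξ (u + μ • ζ) ∂(stdGaussian (Vec n)) ∂(stdGaussian (Vec n)) := by
    rw [Measure.lintegral_conv hΞ, lintegral_map hm (by fun_prop)]
    refine lintegral_congr (fun ζ => lintegral_congr (fun u => ?_))
    rw [add_comm]
  rw [h1, linConv_law μ hμ, h2]

end Vale.Agent.Lib.P309
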