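import Vale.Agent.Lib.P309.Prof.FrameMix
import Vale.Agent.Lib.P309.Prof.NPoint
import Vale.Agent.Lib.P309.Prof.NPointApply

namespace Vale.Agent.Lib.P309

open MeasureTheory ProbabilityTheory Metric Set
open scoped ENNReal

/-- The integrand of the converted integral is measurable in the frame of `N + 1` vectors. -/
theorem linConvert_measurable {d K N : ℕ} (s₀ : Sph d) (c : Fin K → Vec d) (z : Vec d)
    (r : ℝ) (Γ : Sph d → ℝ≥0∞) (hΓ : Measurable Γ) (Lc : Fin N → Fin (N + 1) → ℝ) :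
    Measurable (fun e' : Fin (N + 1) → Vec K =>
      ∏ k : Fin N, Γ (subPt s₀ c z r (∑ l, Lc k l • e' l))) := by
  refine Finset.measurable_prod _ (fun k _ => ?_)
  refine hΓ.comp ((measurable_subPt s₀ c z r).comp ?_)
  exact Finset.measurable_sum _ (fun l _ => (measurable_pi_apply l).const_smul (Lc k l))

/-- The `N` resampled points in a full Gram-Schmidt Gaussian frame, expressed in the frame of
`N + 1` vectors adapted to the head direction and to the resampling vectors. -/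
theorem lin_convert {d n m N : ℕ} (s₀ : Sph d)
    (c : Fin (n + m) → Vec d) (z : Vec d) (r : ℝ)
    (Γ : Sph d → ℝ≥0∞) (hΓ : Measurable Γ)
    (γ : Vec (n + m)) (hγ1 : hdV γ ≠ 0) (hγ2 : tlV γ ≠ 0)
    (Q : Fin N → Vec m) (hQ : LinearIndependent ℝ Q) :
    ∫⁻ e, ∏ k, Γ (subPt s₀ c z r (mix (rsV γ (Q k)) e)) ∂(frameLaw (n + m) (n + m))
      = ∫⁻ e, ∏ k : Fin N, Γ (subPt s₀ c z r
          (‖hdV γ‖ • e 0 + ∑ l : Fin N, (‖tlV γ‖ * lqCoef Q k l / ‖Q k‖) • e l.succ))
          ∂(frameLaw (n + m) (N + 1)) := by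
  have _h2 := hγ2
  have hf := npApply_orthonormal γ hγ1 Q hQ
  have hmix : ∀ (e : Fin (n + m) → Vec (n + m)) (k : Fin N),
      mix (rsV γ (Q k)) e = ∑ l, npApplyL γ Q k.succ l • mix (npApplyF γ Q l) e := by
    intro e k
    rw [← npApply_row γ Q hQ k, mix_sum]
    exact Finset.sum_congr rfl (fun l _ => mix_smul _ _ _)
  have hrow : ∀ (e' : Fin (N + 1) → Vec (n + m)) (k : Fin N),
      ∑ l, npApplyL γ Q k.succ l • e' l
        = ‖hdV γ‖ • e' 0 + ∑ l : Fin N, (‖tlV γ‖ * lqCoef Q k l / ‖Q k‖) • e' l.succ := by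
    intro e' k
    rw [Fin.sum_univ_succ]
    simp only [npApplyL, Fin.cases_zero, Fin.cases_succ]
  calc ∫⁻ e, ∏ k, Γ (subPt s₀ c z r (mix (rsV γ (Q k)) e)) ∂(frameLaw (n + m) (n + m))
      = ∫⁻ e, (fun e' : Fin (N + 1) → Vec (n + m) =>
            ∏ k : Fin N, Γ (subPt s₀ c z r (∑ l, npApplyL γ Q k.succ l • e' l)))
          (fun l => mix (npApplyF γ Q l) e) ∂(frameLaw (n + m) (n + m)) := by
        refine lintegral_congr (fun e => ?_)
        refine Finset.prod_congr rfl (fun k _ => ?_)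
        rw [hmix e k]
    _ = ∫⁻ e', ∏ k : Fin N, Γ (subPt s₀ c z r (∑ l, npApplyL γ Q k.succ l • e' l))
          ∂(frameLaw (n + m) (N + 1)) := by
        rw [← frame_mix (npApplyF γ Q) hf,
          lintegral_map (linConvert_measurable s₀ c z r Γ hΓ (fun k l => npApplyL γ Q k.succ l))
            (npointAux_measurable_mix (npApplyF γ Q))]
    _ = ∫⁻ e, ∏ k : Fin N, Γ (subPt s₀ c z r
          (‖hdV γ‖ • e 0 + ∑ l : Fin N, (‖tlV γ‖ * lqCoef Q k l / ‖Q k‖) • e l.succ))
          ∂(frameLaw (n + m) (N + 1)) := by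
        refine lintegral_congr (fun e' => ?_)
        refine Finset.prod_congr rfl (fun k _ => ?_)
        rw [hrow e' k]

end Vale.Agent.Lib.P309
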