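import Vale.Agent.Lib.P309.Lin.GaussGlue
import Vale.Agent.Lib.P309.Prof.SeqStep

namespace Vale.Agent.Lib.P309

open MeasureTheory ProbabilityTheory Metric Set
open scoped ENNReal

/-- The integrand of the right-hand side, as a jointly measurable function of the coefficient
vector, the radius and the Gaussian vector of the last block. -/
theorem linCq_meas {N k' : ℕ}
    (β : OrthonormalBasis (Fin ((N + 1) + k')) ℝ (Vec ((N + 1) + k')))
    (Ψ : Vec ((N + 1) + k') → ℝ≥0∞) (hΨ : Measurable Ψ) :
    Measurable (fun p : Vec N × ℝ × Vec k' =>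
      Ψ ((∑ l : Fin N, p.1 l • β (Fin.castAdd k' l.succ))
        + p.2.1 • mix (dirV p.2.2) (fun i : Fin k' => β (Fin.natAdd (N + 1) i)))) := by
  refine hΨ.comp (Measurable.add ?_ ?_)
  · refine Finset.measurable_sum _ (fun l _ => ?_)
    have hc : Measurable (fun p : Vec N × ℝ × Vec k' => p.1 l) :=
      ((measurable_pi_apply l).comp (WithLp.measurable_ofLp 2 _)).comp measurable_fst
    exact hc.smul_const _
  · exact (measurable_fst.comp measurable_snd).smul
      (measurable_mix.comp
        ((measurable_dirV.comp (measurable_snd.comp measurable_snd)).prodMk measurable_const))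

/-- The inner integral: the direction of the part of a standard Gaussian vector orthogonal to
the first `N + 1` basis vectors is the combination of the last basis vectors with the direction
of a standard Gaussian vector. -/
theorem linCq_inner {N k' : ℕ}
    (β : OrthonormalBasis (Fin ((N + 1) + k')) ℝ (Vec ((N + 1) + k')))
    (Ψ : Vec ((N + 1) + k') → ℝ≥0∞) (hΨ : Measurable Ψ) (a : Vec ((N + 1) + k')) (s : ℝ) :
    ∫⁻ x : Vec ((N + 1) + k'),
        Ψ (a + s • dirV (x - ∑ l : Fin (N + 1),
          inner ℝ (β (Fin.castAdd k' l)) x • β (Fin.castAdd k' l)))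
        ∂(stdGaussian (Vec ((N + 1) + k')))
      = ∫⁻ y : Vec k', Ψ (a + s • mix (dirV y) (fun i : Fin k' => β (Fin.natAdd (N + 1) i)))
          ∂(stdGaussian (Vec k')) := by
  have hb : Orthonormal ℝ (fun i : Fin k' => β (Fin.natAdd (N + 1) i)) :=
    β.orthonormal.comp _ (Fin.natAdd_injective k' (N + 1))
  have hH : Measurable (fun w : Vec k' =>
      Ψ (a + s • mix (dirV w) (fun i : Fin k' => β (Fin.natAdd (N + 1) i)))) :=
    hΨ.comp (measurable_const.add
      ((measurable_mix.comp (measurable_dirV.prodMk measurable_const)).const_smul s))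
  rw [← gauss_rowCo (fun i : Fin k' => β (Fin.natAdd (N + 1) i)) hb,
    lintegral_map hH (measurable_rowCo _)]
  refine lintegral_congr (fun x => ?_)
  rw [seqStep_proj β x]
  have hd : dirV (mix (rowCo (fun j : Fin k' => β (Fin.natAdd (N + 1) j)) x)
        (fun j : Fin k' => β (Fin.natAdd (N + 1) j)))
      = mix (dirV (rowCo (fun j : Fin k' => β (Fin.natAdd (N + 1) j)) x))
        (fun j : Fin k' => β (Fin.natAdd (N + 1) j)) := dirV_mix hb _
  rw [hd]

/-- The coordinates along `g` of a combination along a basis that begins with `g`. -/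
theorem linCq_rowCo {N k : ℕ} (g : Fin N → Vec (N + k))
    (βg : OrthonormalBasis (Fin (N + k)) ℝ (Vec (N + k)))
    (hβg : ∀ s : Fin N, βg (Fin.castLE (Nat.le_add_right N k) s) = g s) (γ : Vec (N + k))
    (l : Fin N) : inner ℝ (g l) (mix γ βg) = hdV γ l := by
  rw [← hβg l]
  exact inner_frame_mix βg.orthonormal γ _

/-- The part of a combination along a basis that begins with `g` orthogonal to `g`. -/
theorem linCq_resid {N k : ℕ} (g : Fin N → Vec (N + k))
    (βg : OrthonormalBasis (Fin (N + k)) ℝ (Vec (N + k)))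
    (hβg : ∀ s : Fin N, βg (Fin.castLE (Nat.le_add_right N k) s) = g s) (γ : Vec (N + k)) :
    ‖mix γ βg - ∑ l, inner ℝ (g l) (mix γ βg) • g l‖ = ‖tlV γ‖ := by
  have hb : Orthonormal ℝ (fun j : Fin k => βg (Fin.natAdd N j)) :=
    βg.orthonormal.comp _ (Fin.natAdd_injective k N)
  have e : mix γ βg - ∑ l, inner ℝ (g l) (mix γ βg) • g l
      = mix (tlV γ) (fun j : Fin k => βg (Fin.natAdd N j)) := by
    have h1 : ∑ l, inner ℝ (g l) (mix γ βg) • g l
        = ∑ l : Fin N, γ (Fin.castAdd k l) • βg (Fin.castAdd k l) := by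
      refine Finset.sum_congr rfl (fun l _ => ?_)
      rw [linCq_rowCo g βg hβg γ l, ← hβg l]
      rfl
    rw [h1, sub_eq_iff_eq_add]
    show ∑ i, γ i • βg i = (∑ j : Fin k, (tlV γ) j • βg (Fin.natAdd N j))
      + ∑ l : Fin N, γ (Fin.castAdd k l) • βg (Fin.castAdd k l)
    rw [Fin.sum_univ_add]
    exact add_comm _ _
  rw [e, norm_mix hb]

/-- Coordinates of the new point.  Let `β` be an orthonormal basis of `ℝ^((N+1)+k')` and `g` an
orthonormal family of `N` vectors of `ℝ^(N+k)`.  For independent standard Gaussian vectors `q`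
of `ℝ^(N+k)` and `x` of `ℝ^((N+1)+k')`, the coefficients `⟨g l, q⟩` are standard Gaussian, the
norm of the part of `q` orthogonal to `g` is the norm of a standard Gaussian vector `v` of
`ℝ^k`, and the direction of the part of `x` orthogonal to the first `N+1` basis vectors is the
combination of the last `k'` basis vectors with the direction of a standard Gaussian vector
`y` of `ℝ^k'`. -/
theorem lin_coords_q {N k k' : ℕ} (hk' : 1 ≤ k')
    (β : OrthonormalBasis (Fin ((N + 1) + k')) ℝ (Vec ((N + 1) + k')))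
    (g : Fin N → Vec (N + k)) (hg : Orthonormal ℝ g)
    (Ψ : Vec ((N + 1) + k') → ℝ≥0∞) (hΨ : Measurable Ψ) :
    ∫⁻ q : Vec (N + k), ∫⁻ x : Vec ((N + 1) + k'),
        Ψ ((∑ l : Fin N, inner ℝ (g l) q • β (Fin.castAdd k' l.succ))
          + ‖q - ∑ l, inner ℝ (g l) q • g l‖
            • dirV (x - ∑ l : Fin (N + 1),
                inner ℝ (β (Fin.castAdd k' l)) x • β (Fin.castAdd k' l)))
        ∂(stdGaussian (Vec ((N + 1) + k'))) ∂(stdGaussian (Vec (N + k)))
      = ∫⁻ u : Vec N, ∫⁻ v : Vec k, ∫⁻ y : Vec k',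
          Ψ ((∑ l : Fin N, u l • β (Fin.castAdd k' l.succ))
            + ‖v‖ • mix (dirV y) (fun i : Fin k' => β (Fin.natAdd (N + 1) i)))
          ∂(stdGaussian (Vec k')) ∂(stdGaussian (Vec k)) ∂(stdGaussian (Vec N)) := by
  have _h1 := hk'
  obtain ⟨βg, hβg⟩ := frmU_exists_basis (Nat.le_add_right N k) hg
  have hG := linCq_meas β Ψ hΨ
  -- the inner integral as a function of the coefficient vector and the radius
  have hJ : Measurable (fun p : Vec N × ℝ =>
      ∫⁻ y : Vec k', Ψ ((∑ l : Fin N, p.1 l • β (Fin.castAdd k' l.succ))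
        + p.2 • mix (dirV y) (fun i : Fin k' => β (Fin.natAdd (N + 1) i)))
        ∂(stdGaussian (Vec k'))) := by
    have hj : Measurable (fun z : (Vec N × ℝ) × Vec k' =>
        Ψ ((∑ l : Fin N, z.1.1 l • β (Fin.castAdd k' l.succ))
          + z.1.2 • mix (dirV z.2) (fun i : Fin k' => β (Fin.natAdd (N + 1) i)))) :=
      Measurable.comp (f := fun z : (Vec N × ℝ) × Vec k' => (z.1.1, z.1.2, z.2)) hG
        ((measurable_fst.comp measurable_fst).prodMk
          ((measurable_snd.comp measurable_fst).prodMk measurable_snd))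
    exact hj.lintegral_prod_right'
  -- step 1: the inner integral
  have hres : Measurable (fun q : Vec (N + k) => ‖q - ∑ l, inner ℝ (g l) q • g l‖) :=
    (measurable_id.sub (Finset.measurable_sum _
      (fun l _ => (measurable_const.inner measurable_id).smul_const _))).norm
  have hΦ : Measurable (fun q : Vec (N + k) =>
      ∫⁻ y : Vec k', Ψ ((∑ l : Fin N, (rowCo g q) l • β (Fin.castAdd k' l.succ))
        + ‖q - ∑ l, inner ℝ (g l) q • g l‖
          • mix (dirV y) (fun i : Fin k' => β (Fin.natAdd (N + 1) i)))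
        ∂(stdGaussian (Vec k'))) :=
    Measurable.comp
      (f := fun q : Vec (N + k) => (rowCo g q, ‖q - ∑ l, inner ℝ (g l) q • g l‖)) hJ
      ((measurable_rowCo g).prodMk hres)
  have hF : Measurable (fun γ : Vec (N + k) =>
      ∫⁻ y : Vec k', Ψ ((∑ l : Fin N, (hdV γ) l • β (Fin.castAdd k' l.succ))
        + ‖tlV γ‖ • mix (dirV y) (fun i : Fin k' => β (Fin.natAdd (N + 1) i)))
        ∂(stdGaussian (Vec k'))) :=
    Measurable.comp (f := fun γ : Vec (N + k) => (hdV γ, ‖tlV γ‖)) hJ
      (measurable_hdV.prodMk measurable_tlV.norm)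
  calc ∫⁻ q : Vec (N + k), ∫⁻ x : Vec ((N + 1) + k'),
        Ψ ((∑ l : Fin N, inner ℝ (g l) q • β (Fin.castAdd k' l.succ))
          + ‖q - ∑ l, inner ℝ (g l) q • g l‖
            • dirV (x - ∑ l : Fin (N + 1),
                inner ℝ (β (Fin.castAdd k' l)) x • β (Fin.castAdd k' l)))
        ∂(stdGaussian (Vec ((N + 1) + k'))) ∂(stdGaussian (Vec (N + k)))
      = ∫⁻ q : Vec (N + k), ∫⁻ y : Vec k',
          Ψ ((∑ l : Fin N, (rowCo g q) l • β (Fin.castAdd k' l.succ))
            + ‖q - ∑ l, inner ℝ (g l) q • g l‖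
              • mix (dirV y) (fun i : Fin k' => β (Fin.natAdd (N + 1) i)))
          ∂(stdGaussian (Vec k')) ∂(stdGaussian (Vec (N + k))) := by
        refine lintegral_congr (fun q => ?_)
        rw [linCq_inner β Ψ hΨ]
        rfl
    _ = ∫⁻ γ : Vec (N + k), ∫⁻ y : Vec k',
          Ψ ((∑ l : Fin N, (rowCo g (mix γ βg)) l • β (Fin.castAdd k' l.succ))
            + ‖mix γ βg - ∑ l, inner ℝ (g l) (mix γ βg) • g l‖
              • mix (dirV y) (fun i : Fin k' => β (Fin.natAdd (N + 1) i)))
          ∂(stdGaussian (Vec k')) ∂(stdGaussian (Vec (N + k))) :=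
        (lintegral_gauss_mix (fun i => βg i) βg.orthonormal _ hΦ).symm
    _ = ∫⁻ γ : Vec (N + k), ∫⁻ y : Vec k',
          Ψ ((∑ l : Fin N, (hdV γ) l • β (Fin.castAdd k' l.succ))
            + ‖tlV γ‖ • mix (dirV y) (fun i : Fin k' => β (Fin.natAdd (N + 1) i)))
          ∂(stdGaussian (Vec k')) ∂(stdGaussian (Vec (N + k))) := by
        refine lintegral_congr (fun γ => ?_)
        have e1 : ∀ l : Fin N, (rowCo g (mix γ βg)) l = (hdV γ) l :=
          fun l => linCq_rowCo g βg hβg γ l
        rw [linCq_resid g βg hβg γ]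
        simp only [e1]
    _ = ∫⁻ u : Vec N, ∫⁻ v : Vec k, ∫⁻ y : Vec k',
          Ψ ((∑ l : Fin N, u l • β (Fin.castAdd k' l.succ))
            + ‖v‖ • mix (dirV y) (fun i : Fin k' => β (Fin.natAdd (N + 1) i)))
          ∂(stdGaussian (Vec k')) ∂(stdGaussian (Vec k)) ∂(stdGaussian (Vec N)) := by
        rw [lin_gauss_glue _ hF]
        refine lintegral_congr (fun u => lintegral_congr (fun v => ?_))
        rw [hdV_glueV, tlV_glueV]

end Vale.Agent.Lib.P309
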