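import Vale.Agent.Lib.P309.Lin.GaussGlue
import Vale.Agent.Lib.P309.Prof.Basic
import Vale.Agent.Lib.P309.Prof.GaussIso

namespace Vale.Agent.Lib.P309

open MeasureTheory ProbabilityTheory Metric Set
open scoped ENNReal

/-- The part of `mix γ β` orthogonal to the first basis vector, written in the head and tail
coordinates of `γ`. -/
theorem linCoordsX_decomp {N k' : ℕ}
    (β : OrthonormalBasis (Fin ((N + 1) + k')) ℝ (Vec ((N + 1) + k')))
    (γ : Vec ((N + 1) + k')) :
    mix γ (fun i => β i)
        - inner ℝ (β (Fin.castAdd k' 0)) (mix γ (fun i => β i)) • β (Fin.castAdd k' 0)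
      = (∑ l : Fin N, (hdV γ) l.succ • β (Fin.castAdd k' l.succ))
          + mix (tlV γ) (fun i : Fin k' => β (Fin.natAdd (N + 1) i)) := by
  have hin : inner ℝ (β (Fin.castAdd k' 0)) (mix γ (fun i => β i)) = γ (Fin.castAdd k' 0) := by
    unfold mix
    exact β.orthonormal.inner_right_fintype (fun i => γ i) (Fin.castAdd k' 0)
  rw [hin]
  unfold mix
  rw [Fin.sum_univ_add, Fin.sum_univ_succ]
  have h1 : ∀ l : Fin N, (hdV γ) l.succ = γ (Fin.castAdd k' l.succ) := fun l => rfl
  have h2 : ∀ j : Fin k', (tlV γ) j = γ (Fin.natAdd (N + 1) j) := fun j => rfl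
  simp only [h1, h2]
  abel

/-- The standard basis vectors `1, …, N` of `ℝ^(N+1)` form an orthonormal family. -/
theorem linCoordsX_orthonormal (N : ℕ) :
    Orthonormal ℝ (fun l : Fin N => (EuclideanSpace.single l.succ (1 : ℝ) : Vec (N + 1))) := by
  have h := (EuclideanSpace.orthonormal_single (𝕜 := ℝ) (ι := Fin (N + 1))).comp
    (Fin.succ : Fin N → Fin (N + 1)) (Fin.succ_injective N)
  exact h

/-- The coordinates along the standard basis vectors `1, …, N`. -/
theorem linCoordsX_rowCo {N : ℕ} (a : Vec (N + 1)) (l : Fin N) :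
    rowCo (fun l : Fin N => (EuclideanSpace.single l.succ (1 : ℝ) : Vec (N + 1))) a l
      = a l.succ := by
  unfold rowCo
  simp [EuclideanSpace.inner_single_left]

/-- Joint measurability of the integrand in the coefficient vectors. -/
theorem linCoordsX_measurable {N k' : ℕ}
    (β : OrthonormalBasis (Fin ((N + 1) + k')) ℝ (Vec ((N + 1) + k')))
    (Θ : Vec ((N + 1) + k') → ℝ≥0∞) (hΘ : Measurable Θ) :
    Measurable (fun p : Vec N × Vec k' =>
      Θ ((∑ l : Fin N, p.1 l • β (Fin.castAdd k' l.succ))
        + mix p.2 (fun i : Fin k' => β (Fin.natAdd (N + 1) i)))) := by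
  have hc : Continuous (fun p : Vec N × Vec k' =>
      (∑ l : Fin N, p.1 l • β (Fin.castAdd k' l.succ))
        + mix p.2 (fun i : Fin k' => β (Fin.natAdd (N + 1) i))) := by
    unfold mix
    fun_prop
  exact hΘ.comp hc.measurable

/-- Coordinates of a standard Gaussian vector `x` of `ℝ^((N+1)+k')` in an orthonormal basis `β`:
the part of `x` orthogonal to the first basis vector is the combination of the basis vectors
`1, …, N` with standard Gaussian coefficients `u` plus the combination of the last `k'` basis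
vectors with standard Gaussian coefficients `y`. -/
theorem lin_coords_x {N k' : ℕ}
    (β : OrthonormalBasis (Fin ((N + 1) + k')) ℝ (Vec ((N + 1) + k')))
    (Θ : Vec ((N + 1) + k') → ℝ≥0∞) (hΘ : Measurable Θ) :
    ∫⁻ u : Vec N, ∫⁻ y : Vec k',
        Θ ((∑ l : Fin N, u l • β (Fin.castAdd k' l.succ))
          + mix y (fun i : Fin k' => β (Fin.natAdd (N + 1) i)))
        ∂(stdGaussian (Vec k')) ∂(stdGaussian (Vec N))
      = ∫⁻ x, Θ (x - inner ℝ (β (Fin.castAdd k' 0)) x • β (Fin.castAdd k' 0))
          ∂(stdGaussian (Vec ((N + 1) + k'))) := by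
  -- the integrand on the right, as a function of `x`
  have hF : Measurable (fun x : Vec ((N + 1) + k') =>
      Θ (x - inner ℝ (β (Fin.castAdd k' 0)) x • β (Fin.castAdd k' 0))) := by
    have hc : Continuous (fun x : Vec ((N + 1) + k') =>
        x - inner ℝ (β (Fin.castAdd k' 0)) x • β (Fin.castAdd k' 0)) := by
      fun_prop
    exact hΘ.comp hc.measurable
  -- the same after the rotation to the basis `β`
  have hG : Measurable (fun γ : Vec ((N + 1) + k') =>
      Θ (mix γ (fun i => β i)
        - inner ℝ (β (Fin.castAdd k' 0)) (mix γ (fun i => β i)) • β (Fin.castAdd k' 0))) := by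
    have hm : Measurable (fun γ : Vec ((N + 1) + k') => mix γ (fun i => β i)) := by
      have h1 : Measurable (fun γ : Vec ((N + 1) + k') =>
          ((γ, fun i => β i) : Vec ((N + 1) + k') × (Fin ((N + 1) + k') → Vec ((N + 1) + k')))) :=
        measurable_id.prodMk measurable_const
      have h2 := measurable_mix_pair.comp h1
      exact h2
    have h3 := hF.comp hm
    exact h3
  -- step 1: rotation
  have h1 : ∫⁻ x, Θ (x - inner ℝ (β (Fin.castAdd k' 0)) x • β (Fin.castAdd k' 0))
        ∂(stdGaussian (Vec ((N + 1) + k')))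
      = ∫⁻ γ, Θ (mix γ (fun i => β i)
          - inner ℝ (β (Fin.castAdd k' 0)) (mix γ (fun i => β i)) • β (Fin.castAdd k' 0))
        ∂(stdGaussian (Vec ((N + 1) + k'))) :=
    (lintegral_gauss_mix (fun i => β i) β.orthonormal _ hF).symm
  -- step 2: product decomposition
  have h2 : ∫⁻ γ, Θ (mix γ (fun i => β i)
          - inner ℝ (β (Fin.castAdd k' 0)) (mix γ (fun i => β i)) • β (Fin.castAdd k' 0))
        ∂(stdGaussian (Vec ((N + 1) + k')))
      = ∫⁻ a : Vec (N + 1), ∫⁻ y : Vec k',
          Θ ((∑ l : Fin N, a l.succ • β (Fin.castAdd k' l.succ))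
            + mix y (fun i : Fin k' => β (Fin.natAdd (N + 1) i)))
          ∂(stdGaussian (Vec k')) ∂(stdGaussian (Vec (N + 1))) := by
    rw [lin_gauss_glue _ hG]
    refine lintegral_congr (fun a => lintegral_congr (fun y => ?_))
    show Θ (mix (glueV a y) (fun i => β i)
          - inner ℝ (β (Fin.castAdd k' 0)) (mix (glueV a y) (fun i => β i))
            • β (Fin.castAdd k' 0))
        = Θ ((∑ l : Fin N, a l.succ • β (Fin.castAdd k' l.succ))
          + mix y (fun i : Fin k' => β (Fin.natAdd (N + 1) i)))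
    rw [linCoordsX_decomp β (glueV a y), hdV_glueV, tlV_glueV]
  -- step 3: only the coordinates `1, …, N` of `a` matter
  have hJ : Measurable (fun u : Vec N => ∫⁻ y : Vec k',
      Θ ((∑ l : Fin N, u l • β (Fin.castAdd k' l.succ))
        + mix y (fun i : Fin k' => β (Fin.natAdd (N + 1) i))) ∂(stdGaussian (Vec k'))) :=
    (linCoordsX_measurable β Θ hΘ).lintegral_prod_right'
  have h3 : ∫⁻ a : Vec (N + 1), ∫⁻ y : Vec k',
          Θ ((∑ l : Fin N, a l.succ • β (Fin.castAdd k' l.succ))
            + mix y (fun i : Fin k' => β (Fin.natAdd (N + 1) i)))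
          ∂(stdGaussian (Vec k')) ∂(stdGaussian (Vec (N + 1)))
      = ∫⁻ u : Vec N, ∫⁻ y : Vec k',
          Θ ((∑ l : Fin N, u l • β (Fin.castAdd k' l.succ))
            + mix y (fun i : Fin k' => β (Fin.natAdd (N + 1) i)))
          ∂(stdGaussian (Vec k')) ∂(stdGaussian (Vec N)) := by
    rw [← gauss_rowCo (fun l : Fin N => (EuclideanSpace.single l.succ (1 : ℝ) : Vec (N + 1)))
      (linCoordsX_orthonormal N), lintegral_map hJ (measurable_rowCo _)]
    refine lintegral_congr (fun a => ?_)
    simp only [linCoordsX_rowCo]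
  rw [h1, h2, h3]

end Vale.Agent.Lib.P309
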