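import Vale.Agent.Lib.P309.Prof.Defs

namespace Vale.Agent.Lib.P309

open MeasureTheory ProbabilityTheory Metric Set
open scoped ENNReal

/-- The pair of directions used for slicing: the head direction `e 0` and the direction of the
combination of the remaining frame vectors with the coefficients `ζ`. -/
noncomputable def linU {K N : ℕ} (e : Fin (N + 1) → Vec K) (ζ : Vec N) : Fin 2 → Vec K :=
  ![e 0, ∑ l : Fin N, (dirV ζ) l • e l.succ]

/-- The relative radius of the slice through `x` around the direction `u 1` shifted by `t`: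
the norm of the part of `x` orthogonal to `u 0` and `u 1`, divided by the norm of the part of
`x + t • u 1` orthogonal to `u 0`. -/
noncomputable def linRatio {K : ℕ} (u : Fin 2 → Vec K) (t : ℝ) (x : Vec K) : ℝ :=
  ‖x - ∑ l, inner ℝ (u l) x • u l‖
    / Real.sqrt ((inner ℝ (u 1) x + t) ^ 2 + ‖x - ∑ l, inner ℝ (u l) x • u l‖ ^ 2)

/-- The dimension threshold after `i` stages (two dimensions are lost per stage). -/
def linK (n D N i : ℕ) : ℕ := n + D + N + 1 + 2 * i

/-- The coefficient of the radial profile after `i` stages. -/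
noncomputable def linA (d D E : ℕ) (ε : ℝ) (i : ℕ) : ℝ≥0∞ :=
  (2 : ℝ≥0∞) ^ (i * (E + 3 * d + 4 * D + 1)) * ENNReal.ofReal ((4 * ε) ^ D)

end Vale.Agent.Lib.P309
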