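import Vale.Agent.Lib.P309.Prof.Meas
import Vale.Agent.Lib.P309.Prof.PiSplit

namespace Vale.Agent.Lib.P309

open MeasureTheory ProbabilityTheory Metric Set
open scoped ENNReal

/-- Integrals against the standard Gaussian measure of `ℝ^K` in coordinates. -/
theorem linGlue_lintegral_std {K : ℕ} (G : Vec K → ℝ≥0∞) (hG : Measurable G) :
    ∫⁻ γ, G γ ∂(stdGaussian (Vec K))
      = ∫⁻ ξ : Fin K → ℝ, G (WithLp.toLp 2 ξ)
          ∂(Measure.pi (fun _ : Fin K => gaussianReal 0 1)) := by
  have hm : Measurable (WithLp.toLp 2 : (Fin K → ℝ) → Vec K) :=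
    WithLp.measurable_toLp 2 (Fin K → ℝ)
  rw [← map_pi_eq_stdGaussian, lintegral_map hG hm]

/-- Product decomposition of the standard Gaussian measure of `ℝ^(n+m)`: the first `n` and the
last `m` coordinates are independent standard Gaussian vectors. -/
theorem lin_gauss_glue {n m : ℕ} (F : Vec (n + m) → ℝ≥0∞) (hF : Measurable F) :
    ∫⁻ γ, F γ ∂(stdGaussian (Vec (n + m)))
      = ∫⁻ u, ∫⁻ v, F (glueV u v) ∂(stdGaussian (Vec m)) ∂(stdGaussian (Vec n)) := by
  have hmK : Measurable (WithLp.toLp 2 : (Fin (n + m) → ℝ) → Vec (n + m)) :=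
    WithLp.measurable_toLp 2 (Fin (n + m) → ℝ)
  have hFg : Measurable (fun p : Vec n × Vec m => F (glueV p.1 p.2)) :=
    hF.comp measurable_glueV
  -- the right-hand side in coordinates
  have hR1 : Measurable (fun u : Vec n => ∫⁻ v, F (glueV u v) ∂(stdGaussian (Vec m))) :=
    hFg.lintegral_prod_right'
  have hR : ∫⁻ u, ∫⁻ v, F (glueV u v) ∂(stdGaussian (Vec m)) ∂(stdGaussian (Vec n))
      = ∫⁻ a : Fin n → ℝ, ∫⁻ b : Fin m → ℝ, F (WithLp.toLp 2 (Fin.append a b))
          ∂(Measure.pi (fun _ : Fin m => gaussianReal 0 1))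
          ∂(Measure.pi (fun _ : Fin n => gaussianReal 0 1)) := by
    rw [linGlue_lintegral_std _ hR1]
    refine lintegral_congr (fun a => ?_)
    have hFa : Measurable (fun v : Vec m => F (glueV (WithLp.toLp 2 a : Vec n) v)) :=
      hFg.comp (measurable_const.prodMk measurable_id)
    rw [linGlue_lintegral_std _ hFa]
    rfl
  -- the left-hand side in coordinates
  have hap : Measurable (fun p : (Fin n → ℝ) × (Fin m → ℝ) =>
      (Fin.append p.1 p.2 : Fin (n + m) → ℝ)) := measurable_fin_append n m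
  have hFt : Measurable (fun ξ : Fin (n + m) → ℝ => F (WithLp.toLp 2 ξ)) := hF.comp hmK
  have hL : ∫⁻ γ, F γ ∂(stdGaussian (Vec (n + m)))
      = ∫⁻ a : Fin n → ℝ, ∫⁻ b : Fin m → ℝ, F (WithLp.toLp 2 (Fin.append a b))
          ∂(Measure.pi (fun _ : Fin m => gaussianReal 0 1))
          ∂(Measure.pi (fun _ : Fin n => gaussianReal 0 1)) := by
    rw [linGlue_lintegral_std F hF, ← pi_append_law (gaussianReal 0 1) n m,
      lintegral_map hFt hap]
    exact lintegral_prod _ (hFt.comp hap).aemeasurable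
  rw [hL, hR]

end Vale.Agent.Lib.P309
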