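import Vale.Agent.Lib.P309.Lin.Defs
import Vale.Agent.Lib.P309.Lin.GaussGlue
import Vale.Agent.Lib.P309.Prof.RatioMoment
import Vale.Agent.Lib.P309.Prof.SeqStep

namespace Vale.Agent.Lib.P309

open MeasureTheory ProbabilityTheory Metric Set
open scoped ENNReal

/-- The pair of slicing directions is orthonormal. -/
theorem linU_orthonormal {K N : ℕ} (e : Fin (N + 1) → Vec K) (he : Orthonormal ℝ e)
    (ζ : Vec N) (hζ : ζ ≠ 0) : Orthonormal ℝ (linU e ζ) := by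
  have hc : Orthonormal ℝ (fun l : Fin N => e l.succ) := he.comp _ (Fin.succ_injective N)
  have h1 : linU e ζ 1 = mix (dirV ζ) (fun l : Fin N => e l.succ) := rfl
  have h0 : linU e ζ 0 = e 0 := rfl
  have hn1 : ‖linU e ζ 1‖ = 1 := by
    rw [h1, norm_mix hc, norm_dirV hζ]
  have hn0 : ‖linU e ζ 0‖ = 1 := by
    rw [h0]
    exact he.1 0
  have h01 : inner ℝ (linU e ζ 0) (linU e ζ 1) = 0 := by
    rw [h0, h1]
    unfold mix
    rw [inner_sum]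
    refine Finset.sum_eq_zero (fun l _ => ?_)
    rw [inner_smul_right, he.2 (Fin.succ_ne_zero l).symm, mul_zero]
  have h10 : inner ℝ (linU e ζ 1) (linU e ζ 0) = 0 := by
    rw [real_inner_comm]
    exact h01
  refine ⟨Fin.forall_fin_two.2 ⟨hn0, hn1⟩, ?_⟩
  intro a b hab
  revert a b
  rw [Fin.forall_fin_two]
  refine ⟨?_, ?_⟩
  · rw [Fin.forall_fin_two]
    exact ⟨fun h => absurd rfl h, fun _ => h01⟩
  · rw [Fin.forall_fin_two]
    exact ⟨fun _ => h10, fun h => absurd rfl h⟩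

/-- Power of a sum in the extended nonnegative reals. -/
theorem linMom_add_pow (a b : ℝ≥0∞) (D : ℕ) : (a + b) ^ D ≤ 2 ^ D * (a ^ D + b ^ D) := by
  rcases le_total a b with h | h
  · have h1 : a + b ≤ 2 * b := by
      rw [two_mul]
      exact add_le_add h le_rfl
    calc (a + b) ^ D ≤ (2 * b) ^ D := pow_le_pow_left' h1 D
      _ = 2 ^ D * b ^ D := mul_pow _ _ _
      _ ≤ 2 ^ D * (a ^ D + b ^ D) := mul_le_mul' le_rfl le_add_self
  · have h1 : a + b ≤ 2 * a := by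
      rw [two_mul]
      exact add_le_add le_rfl h
    calc (a + b) ^ D ≤ (2 * a) ^ D := pow_le_pow_left' h1 D
      _ = 2 ^ D * a ^ D := mul_pow _ _ _
      _ ≤ 2 ^ D * (a ^ D + b ^ D) := mul_le_mul' le_rfl le_self_add

/-- Pointwise bound of the inverse relative radius of a slice. -/
theorem linMom_pointwise {K : ℕ} (u : Fin 2 → Vec K) (hu : Orthonormal ℝ u) {t : ℝ}
    (ht : 0 ≤ t) (x : Vec K) :
    (ENNReal.ofReal (linRatio u t x))⁻¹ ≤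
      2 * (ENNReal.ofReal (‖x - ∑ l, inner ℝ (u l) x • u l‖ / ‖x‖))⁻¹
        + ENNReal.ofReal t * (ENNReal.ofReal ‖x - ∑ l, inner ℝ (u l) x • u l‖)⁻¹ := by
  obtain ⟨ℓ, hℓ⟩ : ∃ ℓ : ℝ, ℓ = ‖x - ∑ l, inner ℝ (u l) x • u l‖ := ⟨_, rfl⟩
  have hℓ0 : 0 ≤ ℓ := by
    rw [hℓ]
    exact norm_nonneg _
  have hℓx : ℓ ≤ ‖x‖ := by
    rw [hℓ]
    exact ratioMom_resid_le u hu x
  unfold linRatio
  rw [← hℓ]
  rcases eq_or_lt_of_le hℓ0 with h0 | hpos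
  · rw [← h0]
    simp
  · have hxpos : 0 < ‖x‖ := lt_of_lt_of_le hpos hℓx
    obtain ⟨a, ha⟩ : ∃ a : ℝ, a = inner ℝ (u 1) x := ⟨_, rfl⟩
    rw [← ha]
    have ha_le : |a| ≤ ‖x‖ := by
      have h := abs_real_inner_le_norm (u 1) x
      rw [hu.1 1, one_mul] at h
      rw [ha]
      exact h
    obtain ⟨ha1, ha2⟩ := abs_le.1 ha_le
    have hsq : (a + t) ^ 2 ≤ (‖x‖ + t) ^ 2 := sq_le_sq' (by linarith) (by linarith)
    have hS : Real.sqrt ((a + t) ^ 2 + ℓ ^ 2) ≤ 2 * ‖x‖ + t := by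
      rw [Real.sqrt_le_left (by positivity)]
      nlinarith
    have hSpos : 0 < Real.sqrt ((a + t) ^ 2 + ℓ ^ 2) := Real.sqrt_pos.2 (by positivity)
    rw [← ENNReal.ofReal_inv_of_pos (div_pos hpos hSpos),
      ← ENNReal.ofReal_inv_of_pos (div_pos hpos hxpos), ← ENNReal.ofReal_inv_of_pos hpos,
      inv_div, inv_div, ← ENNReal.ofReal_mul ht]
    have h2 : (2 : ℝ≥0∞) * ENNReal.ofReal (‖x‖ / ℓ) = ENNReal.ofReal (2 * (‖x‖ / ℓ)) := by
      rw [ENNReal.ofReal_mul (by norm_num)]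
      simp
    rw [h2, ← ENNReal.ofReal_add (by positivity) (by positivity)]
    apply ENNReal.ofReal_le_ofReal
    rw [div_le_iff₀ hpos]
    have h3 : (2 * (‖x‖ / ℓ) + t * ℓ⁻¹) * ℓ = 2 * ‖x‖ + t := by
      field_simp
    rw [h3]
    exact hS

/-- The integral over the Gaussian vector `x` of the moment of the inverse relative radius. -/
theorem linMom_x {K D : ℕ} (hK : D + 3 ≤ K) (u : Fin 2 → Vec K) (hu : Orthonormal ℝ u)
    {t : ℝ} (ht : 0 ≤ t) :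
    ∫⁻ x, ((ENNReal.ofReal (linRatio u t x))⁻¹) ^ D ∂(stdGaussian (Vec K))
      ≤ (2 : ℝ≥0∞) ^ (3 * D + K + 1) + 2 ^ D * (ENNReal.ofReal t) ^ D *
          ∫⁻ x, ((ENNReal.ofReal ‖x - ∑ l, inner ℝ (u l) x • u l‖)⁻¹) ^ D
            ∂(stdGaussian (Vec K)) := by
  have hcont : Continuous (fun x : Vec K => x - ∑ l, inner ℝ (u l) x • u l) := by fun_prop
  have hm0 : Measurable (fun x : Vec K => ‖x - ∑ l, inner ℝ (u l) x • u l‖ / ‖x‖) :=
    hcont.norm.measurable.div continuous_norm.measurable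
  have hm1 : Measurable (fun x : Vec K => (2 : ℝ≥0∞) ^ (2 * D) *
      ((ENNReal.ofReal (‖x - ∑ l, inner ℝ (u l) x • u l‖ / ‖x‖))⁻¹) ^ D) :=
    ((ENNReal.measurable_ofReal.comp hm0).inv.pow_const D).const_mul _
  have hpt : ∀ x : Vec K, ((ENNReal.ofReal (linRatio u t x))⁻¹) ^ D ≤
      (2 : ℝ≥0∞) ^ (2 * D) *
          ((ENNReal.ofReal (‖x - ∑ l, inner ℝ (u l) x • u l‖ / ‖x‖))⁻¹) ^ D
        + 2 ^ D * (ENNReal.ofReal t) ^ D *
          ((ENNReal.ofReal ‖x - ∑ l, inner ℝ (u l) x • u l‖)⁻¹) ^ D := by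
    intro x
    refine le_trans (pow_le_pow_left' (linMom_pointwise u hu ht x) D) ?_
    refine le_trans (linMom_add_pow _ _ D) (le_of_eq ?_)
    rw [mul_pow, mul_pow, two_mul, pow_add]
    ring
  have hc1 : (2 : ℝ≥0∞) ^ (2 * D) ≠ ⊤ := ENNReal.pow_ne_top (by simp)
  have hc2 : (2 : ℝ≥0∞) ^ D * (ENNReal.ofReal t) ^ D ≠ ⊤ :=
    ENNReal.mul_ne_top (ENNReal.pow_ne_top (by simp)) (ENNReal.pow_ne_top ENNReal.ofReal_ne_top)
  have hrm := ratio_moment (a := K) (j := 2) (D := D) (by omega) u hu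
  have hexp : (2 : ℝ≥0∞) ^ (2 * D) * 2 ^ (K + D + 1) = 2 ^ (3 * D + K + 1) := by
    rw [← pow_add]
    congr 1
    omega
  calc ∫⁻ x, ((ENNReal.ofReal (linRatio u t x))⁻¹) ^ D ∂(stdGaussian (Vec K))
      ≤ ∫⁻ x, ((2 : ℝ≥0∞) ^ (2 * D) *
            ((ENNReal.ofReal (‖x - ∑ l, inner ℝ (u l) x • u l‖ / ‖x‖))⁻¹) ^ D
          + 2 ^ D * (ENNReal.ofReal t) ^ D *
            ((ENNReal.ofReal ‖x - ∑ l, inner ℝ (u l) x • u l‖)⁻¹) ^ D)
          ∂(stdGaussian (Vec K)) := lintegral_mono hpt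
    _ = (2 : ℝ≥0∞) ^ (2 * D) * ∫⁻ x,
            ((ENNReal.ofReal (‖x - ∑ l, inner ℝ (u l) x • u l‖ / ‖x‖))⁻¹) ^ D
              ∂(stdGaussian (Vec K))
          + 2 ^ D * (ENNReal.ofReal t) ^ D * ∫⁻ x,
            ((ENNReal.ofReal ‖x - ∑ l, inner ℝ (u l) x • u l‖)⁻¹) ^ D
              ∂(stdGaussian (Vec K)) := by
        rw [lintegral_add_left hm1, lintegral_const_mul' _ _ hc1, lintegral_const_mul' _ _ hc2]
    _ ≤ (2 : ℝ≥0∞) ^ (2 * D) * 2 ^ (K + D + 1)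
          + 2 ^ D * (ENNReal.ofReal t) ^ D * ∫⁻ x,
            ((ENNReal.ofReal ‖x - ∑ l, inner ℝ (u l) x • u l‖)⁻¹) ^ D
              ∂(stdGaussian (Vec K)) :=
        add_le_add (mul_le_mul' le_rfl hrm) le_rfl
    _ = (2 : ℝ≥0∞) ^ (3 * D + K + 1) + 2 ^ D * (ENNReal.ofReal t) ^ D * ∫⁻ x,
            ((ENNReal.ofReal ‖x - ∑ l, inner ℝ (u l) x • u l‖)⁻¹) ^ D
              ∂(stdGaussian (Vec K)) := by rw [hexp]

/-- The moment of the inverse norm of the part of a standard Gaussian vector orthogonal to an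
orthonormal pair does not depend on the pair. -/
theorem linMom_resid_integral {K' D : ℕ} (u : Fin 2 → Vec (2 + K')) (hu : Orthonormal ℝ u) :
    ∫⁻ x, ((ENNReal.ofReal ‖x - ∑ l, inner ℝ (u l) x • u l‖)⁻¹) ^ D
        ∂(stdGaussian (Vec (2 + K')))
      = ∫⁻ w, ((ENNReal.ofReal ‖w‖)⁻¹) ^ D ∂(stdGaussian (Vec K')) := by
  obtain ⟨b, hb⟩ := frmU_exists_basis (Nat.le_add_right 2 K') hu
  have hc : Orthonormal ℝ (fun j : Fin K' => b (Fin.natAdd 2 j)) :=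
    b.orthonormal.comp _ (Fin.natAdd_injective _ _)
  have hres : ∀ x : Vec (2 + K'), ‖x - ∑ l, inner ℝ (u l) x • u l‖
      = ‖rowCo (fun j : Fin K' => b (Fin.natAdd 2 j)) x‖ := by
    intro x
    have h1 := seqStep_proj b x
    have h2 : ∑ l : Fin 2, inner ℝ (u l) x • u l
        = ∑ l : Fin 2, inner ℝ (b (Fin.castAdd K' l)) x • b (Fin.castAdd K' l) := by
      refine Finset.sum_congr rfl (fun l _ => ?_)
      have h3 : b (Fin.castAdd K' l) = u l := hb l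
      rw [h3]
    rw [h2, h1, norm_mix hc]
  have hg : Measurable (fun w : Vec K' => ((ENNReal.ofReal ‖w‖)⁻¹) ^ D) :=
    (ENNReal.measurable_ofReal.comp measurable_norm).inv.pow_const D
  have hfun : (fun x : Vec (2 + K') =>
      ((ENNReal.ofReal ‖x - ∑ l, inner ℝ (u l) x • u l‖)⁻¹) ^ D)
      = fun x : Vec (2 + K') => ((ENNReal.ofReal
          ‖rowCo (fun j : Fin K' => b (Fin.natAdd 2 j)) x‖)⁻¹) ^ D := by
    funext x
    rw [hres x]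
  rw [hfun, ← gauss_rowCo (fun j : Fin K' => b (Fin.natAdd 2 j)) hc,
    lintegral_map hg (measurable_rowCo _)]

/-- The head of a vector is shorter than the vector, relative to its tail. -/
theorem linMom_ratio_le {n m : ℕ} (γ : Vec (n + m)) :
    ENNReal.ofReal ‖hdV γ‖ * (ENNReal.ofReal ‖tlV γ‖)⁻¹
      ≤ (ENNReal.ofReal (‖tlV γ‖ / ‖γ‖))⁻¹ := by
  rcases eq_or_lt_of_le (norm_nonneg (tlV γ)) with h0 | hpos
  · rw [← h0]
    simp
  · have hγ : 0 < ‖γ‖ := lt_of_lt_of_le hpos (norm_tlV_le γ)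
    have hhd : ‖hdV γ‖ ≤ ‖γ‖ := by
      have h := norm_sq_hdV_tlV γ
      by_contra hcon
      push Not at hcon
      nlinarith [norm_nonneg (hdV γ), sq_nonneg ‖tlV γ‖]
    rw [← ENNReal.ofReal_inv_of_pos hpos, ← ENNReal.ofReal_mul (norm_nonneg _),
      ← ENNReal.ofReal_inv_of_pos (div_pos hpos hγ), inv_div]
    apply ENNReal.ofReal_le_ofReal
    rw [← div_eq_mul_inv]
    exact div_le_div_of_nonneg_right hhd hpos.le

theorem linMom_mu_le {n m : ℕ} (γ : Vec (n + m)) :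
    ENNReal.ofReal (‖hdV γ‖ / ‖tlV γ‖) ≤ (ENNReal.ofReal (‖tlV γ‖ / ‖γ‖))⁻¹ := by
  rcases eq_or_lt_of_le (norm_nonneg (tlV γ)) with h0 | hpos
  · rw [← h0]
    simp
  · refine le_trans (le_of_eq ?_) (linMom_ratio_le γ)
    rw [div_eq_mul_inv, ENNReal.ofReal_mul (norm_nonneg _), ENNReal.ofReal_inv_of_pos hpos]

/-- The moment of the norm of a Gaussian vector against the inverse moment of the norm of an
independent one. -/
theorem linMom_glue {N K' D : ℕ} (hD : D + 1 ≤ K') :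
    ∫⁻ ζ, (ENNReal.ofReal ‖ζ‖) ^ D *
        ∫⁻ w, ((ENNReal.ofReal ‖w‖)⁻¹) ^ D ∂(stdGaussian (Vec K')) ∂(stdGaussian (Vec N))
      ≤ (2 : ℝ≥0∞) ^ (N + K' + D + 1) := by
  have hF : Measurable (fun γ : Vec (N + K') =>
      (ENNReal.ofReal ‖hdV γ‖) ^ D * ((ENNReal.ofReal ‖tlV γ‖)⁻¹) ^ D) :=
    ((ENNReal.measurable_ofReal.comp measurable_hdV.norm).pow_const D).mul
      ((ENNReal.measurable_ofReal.comp measurable_tlV.norm).inv.pow_const D)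
  have h1 := lin_gauss_glue (n := N) (m := K') _ hF
  have hg : Measurable (fun w : Vec K' => ((ENNReal.ofReal ‖w‖)⁻¹) ^ D) :=
    (ENNReal.measurable_ofReal.comp measurable_norm).inv.pow_const D
  have h2 : ∫⁻ ζ, (ENNReal.ofReal ‖ζ‖) ^ D *
        ∫⁻ w, ((ENNReal.ofReal ‖w‖)⁻¹) ^ D ∂(stdGaussian (Vec K')) ∂(stdGaussian (Vec N))
      = ∫⁻ a, ∫⁻ v, (ENNReal.ofReal ‖hdV (glueV a v)‖) ^ D *
          ((ENNReal.ofReal ‖tlV (glueV a v)‖)⁻¹) ^ D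
          ∂(stdGaussian (Vec K')) ∂(stdGaussian (Vec N)) := by
    refine lintegral_congr (fun ζ => ?_)
    rw [← lintegral_const_mul _ hg]
    refine lintegral_congr (fun w => ?_)
    rw [hdV_glueV, tlV_glueV]
  rw [h2, ← h1]
  refine le_trans (lintegral_mono (fun γ => ?_)) (tail_moment (n := N) (m := K') hD)
  rw [← mul_pow]
  exact pow_le_pow_left' (linMom_ratio_le γ) D

/-- The moment of the ratio of the norms of the head and the tail of a Gaussian vector. -/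
theorem linMom_Y {j k D : ℕ} (hk : D + 1 ≤ k) :
    ∫⁻ Y, (ENNReal.ofReal (‖hdV Y‖ / ‖tlV Y‖)) ^ D ∂(stdGaussian (Vec (j + k)))
      ≤ (2 : ℝ≥0∞) ^ (j + k + D + 1) := by
  refine le_trans (lintegral_mono (fun Y => ?_)) (tail_moment (n := j) (m := k) hk)
  exact pow_le_pow_left' (linMom_mu_le Y) D

/-- The moment of the inverse relative radius of the slices, averaged over the shift: the
shift is `t = (‖hdV Y‖ / ‖tlV Y‖) * ‖ζ‖` along the direction `linU e ζ 1`, for independent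
standard Gaussian vectors `Y` of `ℝ^(j+k)`, `ζ` of `ℝ^N` and `x` of `ℝ^K`. -/
theorem lin_moment {K N j k D : ℕ} (hN : 1 ≤ N) (hk : D + 1 ≤ k) (hK : D + 3 ≤ K)
    (e : Fin (N + 1) → Vec K) (he : Orthonormal ℝ e) :
    ∫⁻ Y, ∫⁻ ζ, ∫⁻ x,
        ((ENNReal.ofReal (linRatio (linU e ζ) ((‖hdV Y‖ / ‖tlV Y‖) * ‖ζ‖) x))⁻¹) ^ D
        ∂(stdGaussian (Vec K)) ∂(stdGaussian (Vec N)) ∂(stdGaussian (Vec (j + k)))
      ≤ (2 : ℝ≥0∞) ^ (3 * D + K + j + k + N + 1) := by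
  obtain ⟨K', rfl⟩ : ∃ K', K = 2 + K' := ⟨K - 2, by omega⟩
  have hK' : D + 1 ≤ K' := by omega
  obtain ⟨W, hW⟩ : ∃ W : ℝ≥0∞,
      W = ∫⁻ w, ((ENNReal.ofReal ‖w‖)⁻¹) ^ D ∂(stdGaussian (Vec K')) := ⟨_, rfl⟩
  have hin : ∀ (Y : Vec (j + k)) (ζ : Vec N), ζ ≠ 0 →
      ∫⁻ x, ((ENNReal.ofReal (linRatio (linU e ζ) ((‖hdV Y‖ / ‖tlV Y‖) * ‖ζ‖) x))⁻¹) ^ D
          ∂(stdGaussian (Vec (2 + K')))
        ≤ (2 : ℝ≥0∞) ^ (3 * D + (2 + K') + 1)
          + 2 ^ D * (ENNReal.ofReal (‖hdV Y‖ / ‖tlV Y‖)) ^ D *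
            ((ENNReal.ofReal ‖ζ‖) ^ D * W) := by
    intro Y ζ hζ
    have hu := linU_orthonormal e he ζ hζ
    have ht : 0 ≤ (‖hdV Y‖ / ‖tlV Y‖) * ‖ζ‖ := by positivity
    refine le_trans (linMom_x hK (linU e ζ) hu ht) (le_of_eq ?_)
    rw [linMom_resid_integral (linU e ζ) hu, ← hW, ENNReal.ofReal_mul (by positivity), mul_pow]
    ring
  have hc2 : ∀ Y : Vec (j + k),
      (2 : ℝ≥0∞) ^ D * (ENNReal.ofReal (‖hdV Y‖ / ‖tlV Y‖)) ^ D ≠ ⊤ := fun Y =>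
    ENNReal.mul_ne_top (ENNReal.pow_ne_top (by simp)) (ENNReal.pow_ne_top ENNReal.ofReal_ne_top)
  have hζ : ∀ Y : Vec (j + k),
      ∫⁻ ζ, ∫⁻ x,
          ((ENNReal.ofReal (linRatio (linU e ζ) ((‖hdV Y‖ / ‖tlV Y‖) * ‖ζ‖) x))⁻¹) ^ D
          ∂(stdGaussian (Vec (2 + K'))) ∂(stdGaussian (Vec N))
        ≤ (2 : ℝ≥0∞) ^ (3 * D + (2 + K') + 1)
          + 2 ^ D * 2 ^ (N + K' + D + 1) * (ENNReal.ofReal (‖hdV Y‖ / ‖tlV Y‖)) ^ D := by
    intro Y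
    have hae : ∀ᵐ ζ ∂(stdGaussian (Vec N)),
        ∫⁻ x, ((ENNReal.ofReal (linRatio (linU e ζ) ((‖hdV Y‖ / ‖tlV Y‖) * ‖ζ‖) x))⁻¹) ^ D
            ∂(stdGaussian (Vec (2 + K')))
          ≤ (2 : ℝ≥0∞) ^ (3 * D + (2 + K') + 1)
            + 2 ^ D * (ENNReal.ofReal (‖hdV Y‖ / ‖tlV Y‖)) ^ D *
              ((ENNReal.ofReal ‖ζ‖) ^ D * W) := by
      filter_upwards [ae_gauss_ne_zero hN] with ζ hζ0 using hin Y ζ hζ0
    refine le_trans (lintegral_mono_ae hae) ?_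
    rw [lintegral_add_left measurable_const, lintegral_const, measure_univ, mul_one,
      lintegral_const_mul' _ _ (hc2 Y)]
    have hgl := linMom_glue (N := N) (K' := K') (D := D) hK'
    rw [← hW] at hgl
    calc (2 : ℝ≥0∞) ^ (3 * D + (2 + K') + 1)
          + 2 ^ D * (ENNReal.ofReal (‖hdV Y‖ / ‖tlV Y‖)) ^ D *
            ∫⁻ ζ, (ENNReal.ofReal ‖ζ‖) ^ D * W ∂(stdGaussian (Vec N))
        ≤ (2 : ℝ≥0∞) ^ (3 * D + (2 + K') + 1)
          + 2 ^ D * (ENNReal.ofReal (‖hdV Y‖ / ‖tlV Y‖)) ^ D * 2 ^ (N + K' + D + 1) :=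
          add_le_add le_rfl (mul_le_mul' le_rfl hgl)
      _ = (2 : ℝ≥0∞) ^ (3 * D + (2 + K') + 1)
          + 2 ^ D * 2 ^ (N + K' + D + 1) * (ENNReal.ofReal (‖hdV Y‖ / ‖tlV Y‖)) ^ D := by
          ring
  refine le_trans (lintegral_mono hζ) ?_
  have hc3 : (2 : ℝ≥0∞) ^ D * 2 ^ (N + K' + D + 1) ≠ ⊤ :=
    ENNReal.mul_ne_top (ENNReal.pow_ne_top (by simp)) (ENNReal.pow_ne_top (by simp))
  rw [lintegral_add_left measurable_const, lintegral_const, measure_univ, mul_one,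
    lintegral_const_mul' _ _ hc3]
  have hY := linMom_Y (j := j) (k := k) (D := D) hk
  have e1 : (2 : ℝ≥0∞) ^ (3 * D + (2 + K') + 1) ≤ 2 ^ (3 * D + N + K' + j + k + 2) :=
    pow_le_pow_right' (by norm_num) (by omega)
  have e2 : (2 : ℝ≥0∞) ^ D * 2 ^ (N + K' + D + 1) * 2 ^ (j + k + D + 1)
      = 2 ^ (3 * D + N + K' + j + k + 2) := by
    rw [← pow_add, ← pow_add]
    congr 1
    omega
  have e3 : (2 : ℝ≥0∞) ^ (3 * D + N + K' + j + k + 2) + 2 ^ (3 * D + N + K' + j + k + 2)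
      = 2 ^ (3 * D + (2 + K') + j + k + N + 1) := by
    rw [← two_mul, ← pow_succ']
    congr 1
    omega
  calc (2 : ℝ≥0∞) ^ (3 * D + (2 + K') + 1)
        + 2 ^ D * 2 ^ (N + K' + D + 1) *
          ∫⁻ Y, (ENNReal.ofReal (‖hdV Y‖ / ‖tlV Y‖)) ^ D ∂(stdGaussian (Vec (j + k)))
      ≤ (2 : ℝ≥0∞) ^ (3 * D + N + K' + j + k + 2)
        + 2 ^ D * 2 ^ (N + K' + D + 1) * 2 ^ (j + k + D + 1) :=
        add_le_add e1 (mul_le_mul' le_rfl hY)
    _ = (2 : ℝ≥0∞) ^ (3 * D + (2 + K') + j + k + N + 1) := by rw [e2, e3]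

end Vale.Agent.Lib.P309
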