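import Vale.Agent.Lib.P309.Lin.Step
import Vale.Agent.Lib.P309.Prof.GsSnoc

namespace Vale.Agent.Lib.P309

open MeasureTheory ProbabilityTheory Metric Set
open scoped ENNReal

/-- Joint measurability of the integrand of the `N`-point bound, in the family and the frame. -/
lemma linNPoint_meas_F {d K m : ℕ} (N : ℕ) (s₀ : Sph d) (c : Fin K → Vec d) (z : Vec d) (r : ℝ)
    (G : Sph d → ℝ≥0∞) (hG : Measurable G) (h ρ : ℝ) :
    Measurable (fun p : (Fin N → Vec m) × (Fin (N + 1) → Vec K) =>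
      ∏ k : Fin N, G (subPt s₀ c z r
        (h • p.2 0 + ∑ l : Fin N, (ρ * lqCoef p.1 k l / ‖p.1 k‖) • p.2 l.succ))) := by
  refine Finset.measurable_prod _ (fun k _ => ?_)
  refine hG.comp ((measurable_subPt s₀ c z r).comp ?_)
  have h0 : Measurable (fun p : (Fin N → Vec m) × (Fin (N + 1) → Vec K) => h • p.2 0) :=
    ((measurable_pi_apply 0).comp measurable_snd).const_smul h
  refine h0.add (Finset.measurable_sum _ (fun l _ => ?_))
  have h1 : Measurable (fun p : (Fin N → Vec m) × (Fin (N + 1) → Vec K) => lqCoef p.1 k l) :=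
    (measurable_pi_apply l).comp
      ((measurable_pi_apply k).comp (measurable_lqCoef.comp measurable_fst))
  have h2 : Measurable (fun p : (Fin N → Vec m) × (Fin (N + 1) → Vec K) => ‖p.1 k‖) :=
    ((measurable_pi_apply k).comp measurable_fst).norm
  have h3 : Measurable (fun p : (Fin N → Vec m) × (Fin (N + 1) → Vec K) => p.2 l.succ) :=
    (measurable_pi_apply l.succ).comp measurable_snd
  exact ((h1.const_mul ρ).div h2).smul h3

/-- Joint measurability of the factor of the last point, in the frame, the last resampling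
vector and the last Gaussian vector. -/
lemma linNPoint_meas_B {d K m : ℕ} (N : ℕ) (s₀ : Sph d) (c : Fin K → Vec d) (z : Vec d) (r : ℝ)
    (G : Sph d → ℝ≥0∞) (hG : Measurable G) (g : Fin N → Vec m) (h ρ : ℝ) :
    Measurable (fun p : (Fin (N + 1) → Vec K) × Vec m × Vec K =>
      G (subPt s₀ c z r
        (h • p.1 0 + ∑ l : Fin N, (ρ * inner ℝ (g l) p.2.1 / ‖p.2.1‖) • p.1 l.succ
          + (ρ * ‖p.2.1 - ∑ l, inner ℝ (g l) p.2.1 • g l‖ / ‖p.2.1‖)
            • dirV (p.2.2 - ∑ l : Fin (N + 1), inner ℝ (p.1 l) p.2.2 • p.1 l)))) := by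
  refine hG.comp ((measurable_subPt s₀ c z r).comp ?_)
  have hq : Measurable (fun p : (Fin (N + 1) → Vec K) × Vec m × Vec K => p.2.1) :=
    measurable_fst.comp measurable_snd
  have hx : Measurable (fun p : (Fin (N + 1) → Vec K) × Vec m × Vec K => p.2.2) :=
    measurable_snd.comp measurable_snd
  have he : ∀ l : Fin (N + 1),
      Measurable (fun p : (Fin (N + 1) → Vec K) × Vec m × Vec K => p.1 l) :=
    fun l => (measurable_pi_apply l).comp measurable_fst
  have h0 : Measurable (fun p : (Fin (N + 1) → Vec K) × Vec m × Vec K => h • p.1 0) :=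
    (he 0).const_smul h
  have h1 : Measurable (fun p : (Fin (N + 1) → Vec K) × Vec m × Vec K =>
      ∑ l : Fin N, (ρ * inner ℝ (g l) p.2.1 / ‖p.2.1‖) • p.1 l.succ) :=
    Finset.measurable_sum _ (fun l _ =>
      (((measurable_const.inner hq).const_mul ρ).div hq.norm).smul (he l.succ))
  have h2 : Measurable (fun p : (Fin (N + 1) → Vec K) × Vec m × Vec K =>
      ρ * ‖p.2.1 - ∑ l, inner ℝ (g l) p.2.1 • g l‖ / ‖p.2.1‖) := by
    have h21 : Measurable (fun p : (Fin (N + 1) → Vec K) × Vec m × Vec K =>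
        p.2.1 - ∑ l, inner ℝ (g l) p.2.1 • g l) :=
      hq.sub (Finset.measurable_sum _ (fun l _ =>
        (measurable_const.inner hq).smul_const (g l)))
    exact (h21.norm.const_mul ρ).div hq.norm
  have h3 : Measurable (fun p : (Fin (N + 1) → Vec K) × Vec m × Vec K =>
      dirV (p.2.2 - ∑ l : Fin (N + 1), inner ℝ (p.1 l) p.2.2 • p.1 l)) :=
    measurable_dirV.comp (hx.sub (Finset.measurable_sum _ (fun l _ =>
      (Measurable.inner (𝕜 := ℝ) (he l) hx).smul (he l))))
  exact (h0.add h1).add (h2.smul h3)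

/-- Splitting off the last point: the integrand at a family and a Gram-Schmidt frame that are
both extended by one last vector is the integrand of the shorter family times the factor of the
last point. -/
lemma linNPoint_key {d K m N : ℕ} (s₀ : Sph d) (c : Fin K → Vec d) (z : Vec d) (r : ℝ)
    (G : Sph d → ℝ≥0∞) (h ρ : ℝ) (Q' : Fin N → Vec m) (q : Vec m)
    (w' : Fin (N + 1) → Vec K) (x : Vec K) :
    ∏ k : Fin (N + 1), G (subPt s₀ c z r
        (h • gsN (Fin.snoc w' x : Fin (N + 1 + 1) → Vec K) 0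
          + ∑ l : Fin (N + 1), (ρ * lqCoef (Fin.snoc Q' q : Fin (N + 1) → Vec m) k l
              / ‖(Fin.snoc Q' q : Fin (N + 1) → Vec m) k‖)
            • gsN (Fin.snoc w' x : Fin (N + 1 + 1) → Vec K) l.succ))
      = (∏ k : Fin N, G (subPt s₀ c z r
          (h • gsN w' 0 + ∑ l : Fin N, (ρ * lqCoef Q' k l / ‖Q' k‖) • gsN w' l.succ)))
        * G (subPt s₀ c z r
          (h • gsN w' 0 + ∑ l : Fin N, (ρ * inner ℝ (gsN Q' l) q / ‖q‖) • gsN w' l.succ
            + (ρ * ‖q - ∑ l, inner ℝ (gsN Q' l) q • gsN Q' l‖ / ‖q‖)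
              • dirV (x - ∑ l : Fin (N + 1), inner ℝ (gsN w' l) x • gsN w' l))) := by
  have e0 : gsN (Fin.snoc w' x : Fin (N + 1 + 1) → Vec K) 0 = gsN w' 0 :=
    gsN_snoc_castSucc w' x 0
  have es : ∀ l : Fin N,
      gsN (Fin.snoc w' x : Fin (N + 1 + 1) → Vec K) (Fin.castSucc l).succ = gsN w' l.succ :=
    fun l => gsN_snoc_castSucc w' x l.succ
  have el : gsN (Fin.snoc w' x : Fin (N + 1 + 1) → Vec K) (Fin.last N).succ
      = dirV (x - ∑ l : Fin (N + 1), inner ℝ (gsN w' l) x • gsN w' l) :=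
    gsN_snoc_last w' x
  rw [Fin.prod_univ_castSucc, e0]
  congr 1
  · refine Finset.prod_congr rfl (fun k _ => ?_)
    rw [Fin.sum_univ_castSucc]
    have hz : lqCoef (Fin.snoc Q' q : Fin (N + 1) → Vec m) (Fin.castSucc k) (Fin.last N)
        = 0 := by
      unfold lqCoef
      exact gsN_inner_of_lt _ (Fin.castSucc_lt_last k)
    rw [hz, mul_zero, zero_div, zero_smul, add_zero]
    have hc : ∀ l : Fin N,
        lqCoef (Fin.snoc Q' q : Fin (N + 1) → Vec m) (Fin.castSucc k) (Fin.castSucc l)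
          = lqCoef Q' k l := by
      intro l
      unfold lqCoef
      rw [gsN_snoc_castSucc, Fin.snoc_castSucc]
    simp only [hc, es, Fin.snoc_castSucc]
  · rw [Fin.sum_univ_castSucc, el, lqCoef_snoc_last, Fin.snoc_last]
    have hc : ∀ l : Fin N,
        lqCoef (Fin.snoc Q' q : Fin (N + 1) → Vec m) (Fin.last N) (Fin.castSucc l)
          = inner ℝ (gsN Q' l) q := by
      intro l
      unfold lqCoef
      rw [gsN_snoc_castSucc, Fin.snoc_last]
    simp only [hc, es]
    rw [add_assoc]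

/-- The `N`-point bound without loss of dimension.  The `N` points have the coordinate vectors
`h • e 0 + ∑ l, (ρ * lqCoef Q k l / ‖Q k‖) • e (l+1)` in a Gram-Schmidt Gaussian frame `e` of
`N + 1` vectors of `ℝ^K`, for independent standard Gaussian vectors `Q k` of `ℝ^m`. -/
theorem lin_npoint {d K m N D K₀ : ℕ} (s₀ : Sph d) (hK₀ : 1 ≤ K₀) (hK : K₀ + 2 ≤ K)
    (hmK : m + 1 ≤ K) (hm : N + D ≤ m)
    (c : Fin K → Vec d) (z : Vec d) (r : ℝ) (hsub : IsSub c z r)
    (G : Sph d → ℝ≥0∞) (hG : Measurable G) (A τ : ℝ≥0∞)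
    (hprof : ProfLe s₀ G K₀ (profFn D A τ)) (h ρ : ℝ) (hh : 0 ≤ h) (hρ : 0 < ρ) :
    ∫⁻ Q, ∫⁻ e, ∏ k : Fin N, G (subPt s₀ c z r
        (h • e 0 + ∑ l : Fin N, (ρ * lqCoef Q k l / ‖Q k‖) • e l.succ))
        ∂(frameLaw K (N + 1)) ∂(Measure.pi (fun _ : Fin N => stdGaussian (Vec m)))
      ≤ ((2 : ℝ≥0∞) ^ (3 * D + 2 * K)
          * (A * ((ENNReal.ofReal (r * (ρ / Real.sqrt (h ^ 2 + ρ ^ 2))))⁻¹) ^ D) + τ) ^ N := by
  obtain ⟨Bd, hBd⟩ : ∃ Bd : ℝ≥0∞, Bd = (2 : ℝ≥0∞) ^ (3 * D + 2 * K)
      * (A * ((ENNReal.ofReal (r * (ρ / Real.sqrt (h ^ 2 + ρ ^ 2))))⁻¹) ^ D) + τ := ⟨_, rfl⟩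
  rw [← hBd]
  induction N with
  | zero =>
    have h1 : IsProbabilityMeasure (frameLaw K 1) := lqh_frameLaw_prob
    have h2 : IsProbabilityMeasure (frameLaw K (0 + 1)) := lqh_frameLaw_prob
    simp
  | succ N ih =>
    have ihR := ih (by omega)
    have hNm : N ≤ m := by omega
    have hNK : N + 1 ≤ K := by omega
    obtain ⟨F, hFdef⟩ : ∃ F : (Fin (N + 1) → Vec m) × (Fin (N + 1 + 1) → Vec K) → ℝ≥0∞,
        F = fun p => ∏ k : Fin (N + 1), G (subPt s₀ c z r
          (h • p.2 0 + ∑ l : Fin (N + 1), (ρ * lqCoef p.1 k l / ‖p.1 k‖) • p.2 l.succ)) :=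
      ⟨_, rfl⟩
    obtain ⟨F', hF'def⟩ : ∃ F' : (Fin N → Vec m) × (Fin (N + 1) → Vec K) → ℝ≥0∞,
        F' = fun p => ∏ k : Fin N, G (subPt s₀ c z r
          (h • p.2 0 + ∑ l : Fin N, (ρ * lqCoef p.1 k l / ‖p.1 k‖) • p.2 l.succ)) :=
      ⟨_, rfl⟩
    obtain ⟨B, hBdef⟩ : ∃ B : (Fin N → Vec m) → (Fin (N + 1) → Vec K) × Vec m × Vec K → ℝ≥0∞,
        B = fun g p => G (subPt s₀ c z r
          (h • p.1 0 + ∑ l : Fin N, (ρ * inner ℝ (g l) p.2.1 / ‖p.2.1‖) • p.1 l.succ
            + (ρ * ‖p.2.1 - ∑ l, inner ℝ (g l) p.2.1 • g l‖ / ‖p.2.1‖)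
              • dirV (p.2.2 - ∑ l : Fin (N + 1), inner ℝ (p.1 l) p.2.2 • p.1 l))) :=
      ⟨_, rfl⟩
    have hF : Measurable F := by
      rw [hFdef]
      exact linNPoint_meas_F (N + 1) s₀ c z r G hG h ρ
    have hF' : Measurable F' := by
      rw [hF'def]
      exact linNPoint_meas_F N s₀ c z r G hG h ρ
    have hB : ∀ g, Measurable (B g) := by
      intro g
      rw [hBdef]
      exact linNPoint_meas_B N s₀ c z r G hG g h ρ
    have key : ∀ (Q' : Fin N → Vec m) (q : Vec m) (w' : Fin (N + 1) → Vec K) (x : Vec K),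
        F (Fin.snoc Q' q, gsN (Fin.snoc w' x : Fin (N + 1 + 1) → Vec K))
          = F' (Q', gsN w') * B (gsN Q') (gsN w', q, x) := by
      intro Q' q w' x
      rw [hFdef, hF'def, hBdef]
      exact linNPoint_key s₀ c z r G h ρ Q' q w' x
    -- the bound of the last factor
    have hstep : ∀ᵐ Q' ∂(Measure.pi (fun _ : Fin N => stdGaussian (Vec m))),
        ∀ᵐ w' ∂(Measure.pi (fun _ : Fin (N + 1) => stdGaussian (Vec K))),
          ∫⁻ q, ∫⁻ x, B (gsN Q') (gsN w', q, x) ∂(stdGaussian (Vec K))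
            ∂(stdGaussian (Vec m)) ≤ Bd := by
      filter_upwards [ae_linearIndependent_gaussian_le hNm] with Q' hQ'
      filter_upwards [ae_linearIndependent_gaussian_le hNK] with w' hw'
      rw [hBdef, hBd]
      exact lin_step s₀ hK₀ hK hmK (by omega) c z r hsub G hG A τ hprof (gsN w')
        (gsN_orthonormal hw') (gsN Q') (gsN_orthonormal hQ') h ρ hh hρ
    -- measurability of the inner integrals
    have hM2 : Measurable (fun Q : Fin (N + 1) → Vec m =>
        ∫⁻ w, F (Q, gsN w) ∂(Measure.pi (fun _ : Fin (N + 1 + 1) => stdGaussian (Vec K)))) :=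
      Measurable.lintegral_prod_right'
        (f := fun p : (Fin (N + 1) → Vec m) × (Fin (N + 1 + 1) → Vec K) => F (p.1, gsN p.2))
        (hF.comp (measurable_fst.prodMk (measurable_gsN.comp measurable_snd)))
    have hM5 : ∀ Q' : Fin N → Vec m, Measurable (Function.uncurry
        (fun (q : Vec m) (w' : Fin (N + 1) → Vec K) =>
          F' (Q', gsN w') * ∫⁻ x, B (gsN Q') (gsN w', q, x) ∂(stdGaussian (Vec K)))) := by
      intro Q'
      have h1 : Measurable (fun p : Vec m × (Fin (N + 1) → Vec K) => F' (Q', gsN p.2)) :=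
        (hF'.comp measurable_prodMk_left).comp (measurable_gsN.comp measurable_snd)
      have h2 : Measurable (fun p : Vec m × (Fin (N + 1) → Vec K) =>
          ∫⁻ x, B (gsN Q') (gsN p.2, p.1, x) ∂(stdGaussian (Vec K))) :=
        Measurable.lintegral_prod_right'
          (f := fun t : (Vec m × (Fin (N + 1) → Vec K)) × Vec K =>
            B (gsN Q') (gsN t.1.2, t.1.1, t.2))
          ((hB _).comp ((measurable_gsN.comp (measurable_snd.comp measurable_fst)).prodMk
            ((measurable_fst.comp measurable_fst).prodMk measurable_snd)))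
      exact h1.mul h2
    have hM6 : ∀ (g : Fin N → Vec m) (e' : Fin (N + 1) → Vec K), Measurable (fun q : Vec m =>
        ∫⁻ x, B g (e', q, x) ∂(stdGaussian (Vec K))) := by
      intro g e'
      exact Measurable.lintegral_prod_right'
        (f := fun t : Vec m × Vec K => B g (e', t.1, t.2))
        ((hB g).comp (measurable_const.prodMk (measurable_fst.prodMk measurable_snd)))
    have hM8 : Measurable (fun Q' : Fin N → Vec m =>
        ∫⁻ w', F' (Q', gsN w') ∂(Measure.pi (fun _ : Fin (N + 1) => stdGaussian (Vec K)))) :=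
      Measurable.lintegral_prod_right'
        (f := fun p : (Fin N → Vec m) × (Fin (N + 1) → Vec K) => F' (p.1, gsN p.2))
        (hF'.comp (measurable_fst.prodMk (measurable_gsN.comp measurable_snd)))
    have ihR' : ∫⁻ Q', ∫⁻ e', F' (Q', e') ∂(frameLaw K (N + 1))
        ∂(Measure.pi (fun _ : Fin N => stdGaussian (Vec m))) ≤ Bd ^ N := by
      rw [hF'def]
      exact ihR
    calc ∫⁻ Q, ∫⁻ e, ∏ k : Fin (N + 1), G (subPt s₀ c z r
            (h • e 0 + ∑ l : Fin (N + 1), (ρ * lqCoef Q k l / ‖Q k‖) • e l.succ))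
            ∂(frameLaw K (N + 1 + 1))
            ∂(Measure.pi (fun _ : Fin (N + 1) => stdGaussian (Vec m)))
        = ∫⁻ Q, ∫⁻ e, F (Q, e) ∂(frameLaw K (N + 1 + 1))
            ∂(Measure.pi (fun _ : Fin (N + 1) => stdGaussian (Vec m))) := by rw [hFdef]
      _ = ∫⁻ Q, ∫⁻ w, F (Q, gsN w)
            ∂(Measure.pi (fun _ : Fin (N + 1 + 1) => stdGaussian (Vec K)))
            ∂(Measure.pi (fun _ : Fin (N + 1) => stdGaussian (Vec m))) := by
          refine lintegral_congr (fun Q => ?_)
          have hFQ : Measurable (fun e : Fin (N + 1 + 1) → Vec K => F (Q, e)) :=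
            hF.comp measurable_prodMk_left
          unfold frameLaw
          rw [lintegral_map hFQ measurable_gsN]
      _ = ∫⁻ Q', ∫⁻ q, ∫⁻ w, F (Fin.snoc Q' q, gsN w)
            ∂(Measure.pi (fun _ : Fin (N + 1 + 1) => stdGaussian (Vec K)))
            ∂(stdGaussian (Vec m)) ∂(Measure.pi (fun _ : Fin N => stdGaussian (Vec m))) :=
          lintegral_pi_snoc _ N (fun Q : Fin (N + 1) → Vec m =>
            ∫⁻ w, F (Q, gsN w) ∂(Measure.pi (fun _ : Fin (N + 1 + 1) => stdGaussian (Vec K))))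
            hM2
      _ = ∫⁻ Q', ∫⁻ q, ∫⁻ w', ∫⁻ x,
            F (Fin.snoc Q' q, gsN (Fin.snoc w' x : Fin (N + 1 + 1) → Vec K))
            ∂(stdGaussian (Vec K)) ∂(Measure.pi (fun _ : Fin (N + 1) => stdGaussian (Vec K)))
            ∂(stdGaussian (Vec m)) ∂(Measure.pi (fun _ : Fin N => stdGaussian (Vec m))) := by
          refine lintegral_congr (fun Q' => lintegral_congr (fun q => ?_))
          exact lintegral_pi_snoc _ (N + 1)
            (fun w : Fin (N + 1 + 1) → Vec K => F (Fin.snoc Q' q, gsN w))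
            ((hF.comp measurable_prodMk_left).comp measurable_gsN)
      _ = ∫⁻ Q', ∫⁻ q, ∫⁻ w', F' (Q', gsN w')
              * ∫⁻ x, B (gsN Q') (gsN w', q, x) ∂(stdGaussian (Vec K))
            ∂(Measure.pi (fun _ : Fin (N + 1) => stdGaussian (Vec K)))
            ∂(stdGaussian (Vec m)) ∂(Measure.pi (fun _ : Fin N => stdGaussian (Vec m))) := by
          refine lintegral_congr (fun Q' => lintegral_congr (fun q =>
            lintegral_congr (fun w' => ?_)))
          have hBx : Measurable (fun x : Vec K => B (gsN Q') (gsN w', q, x)) :=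
            (hB _).comp (measurable_prodMk_left.comp measurable_prodMk_left)
          simp only [key]
          rw [lintegral_const_mul _ hBx]
      _ = ∫⁻ Q', ∫⁻ w', ∫⁻ q, F' (Q', gsN w')
              * ∫⁻ x, B (gsN Q') (gsN w', q, x) ∂(stdGaussian (Vec K))
            ∂(stdGaussian (Vec m)) ∂(Measure.pi (fun _ : Fin (N + 1) => stdGaussian (Vec K)))
            ∂(Measure.pi (fun _ : Fin N => stdGaussian (Vec m))) := by
          refine lintegral_congr (fun Q' => ?_)
          exact lintegral_lintegral_swap (hM5 Q').aemeasurable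
      _ = ∫⁻ Q', ∫⁻ w', F' (Q', gsN w')
              * ∫⁻ q, ∫⁻ x, B (gsN Q') (gsN w', q, x) ∂(stdGaussian (Vec K))
                ∂(stdGaussian (Vec m))
            ∂(Measure.pi (fun _ : Fin (N + 1) => stdGaussian (Vec K)))
            ∂(Measure.pi (fun _ : Fin N => stdGaussian (Vec m))) := by
          refine lintegral_congr (fun Q' => lintegral_congr (fun w' => ?_))
          rw [lintegral_const_mul _ (hM6 (gsN Q') (gsN w'))]
      _ ≤ ∫⁻ Q', ∫⁻ w', F' (Q', gsN w') * Bd
            ∂(Measure.pi (fun _ : Fin (N + 1) => stdGaussian (Vec K)))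
            ∂(Measure.pi (fun _ : Fin N => stdGaussian (Vec m))) := by
          refine lintegral_mono_ae ?_
          filter_upwards [hstep] with Q' hQ'
          refine lintegral_mono_ae ?_
          filter_upwards [hQ'] with w' hw'
          exact mul_le_mul_right hw' _
      _ = (∫⁻ Q', ∫⁻ w', F' (Q', gsN w')
            ∂(Measure.pi (fun _ : Fin (N + 1) => stdGaussian (Vec K)))
            ∂(Measure.pi (fun _ : Fin N => stdGaussian (Vec m)))) * Bd := by
          rw [← lintegral_mul_const _ hM8]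
          refine lintegral_congr (fun Q' => ?_)
          have hFQ : Measurable (fun w' : Fin (N + 1) → Vec K => F' (Q', gsN w')) :=
            (hF'.comp measurable_prodMk_left).comp measurable_gsN
          rw [lintegral_mul_const _ hFQ]
      _ = (∫⁻ Q', ∫⁻ e', F' (Q', e') ∂(frameLaw K (N + 1))
            ∂(Measure.pi (fun _ : Fin N => stdGaussian (Vec m)))) * Bd := by
          congr 1
          refine lintegral_congr (fun Q' => ?_)
          have hFQ : Measurable (fun e' : Fin (N + 1) → Vec K => F' (Q', e')) :=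
            hF'.comp measurable_prodMk_left
          unfold frameLaw
          rw [lintegral_map hFQ measurable_gsN]
      _ ≤ Bd ^ N * Bd := mul_le_mul_left ihR' _
      _ = Bd ^ (N + 1) := (pow_succ Bd N).symm

end Vale.Agent.Lib.P309
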