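import Vale.Agent.Lib.P309.Lin.Defs

namespace Vale.Agent.Lib.P309

/-- Integer bookkeeping for the choice of the parameters in the recursion regime `16 J ≤ d`:
stages of `⌊d/4⌋` rows, `D = N = ⌊d/8⌋`, `E = ⌊(M + 3 + J) / (N - J)⌋ + 1`. -/
lemma lin_nat (d M J b : ℕ) (hJ : 1 ≤ J) (hd : 16 * J ≤ d)
    (hb : 512 * J * (M + 3) + 64 * J * d ^ 2 ≤ b * d ^ 2) :
    1 ≤ d / 8 ∧ linK (d / 4) (d / 8) (d / 8) J ≤ d ∧ 2 ≤ b ∧
      J + J * ((M + 3 + J) / (d / 8 - J) + 1) + M + 3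
        ≤ ((M + 3 + J) / (d / 8 - J) + 1) * (d / 8) ∧
      J * (((M + 3 + J) / (d / 8 - J) + 1) + 3 * d + 4 * (d / 8) + 1) + 2
        ≤ (b - 2) * (d / 8) := by
  have hd16 : 16 ≤ d := by omega
  obtain ⟨N, hN⟩ : ∃ N : ℕ, N = d / 8 := ⟨_, rfl⟩
  rw [← hN]
  have hN1 : 8 * N ≤ d := by
    rw [hN]
    exact Nat.mul_div_le d 8
  have hN2 : d < 8 * N + 8 := by
    rw [hN]
    have := Nat.lt_mul_div_succ d (by norm_num : 0 < 8)
    linarith
  have hNJ : 2 * J ≤ N := by omega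
  obtain ⟨x, hx⟩ : ∃ x : ℕ, x = N - J := ⟨_, rfl⟩
  have hxN : x + J = N := by omega
  have hx1 : 1 ≤ x := by omega
  rw [← hx]
  have hxd : d ≤ 24 * x := by omega
  obtain ⟨q, hq⟩ : ∃ q : ℕ, q = (M + 3 + J) / x := ⟨_, rfl⟩
  rw [← hq]
  have hq1 : q * x ≤ M + 3 + J := by
    rw [hq]
    exact Nat.div_mul_le_self _ _
  have hq2 : M + 3 + J < x * (q + 1) := by
    rw [hq]
    exact Nat.lt_mul_div_succ _ (by omega)
  have hb64 : 64 ≤ b := by
    by_contra hcon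
    have h1 : b ≤ 63 := by omega
    have h2 : b * d ^ 2 ≤ 63 * d ^ 2 := Nat.mul_le_mul_right _ h1
    have h3 : 64 * d ^ 2 ≤ 64 * J * d ^ 2 := by nlinarith
    have h4 : 0 < d ^ 2 := by positivity
    have h5 : 64 * J * d ^ 2 ≤ b * d ^ 2 := le_trans (Nat.le_add_left _ _) hb
    linarith
  refine ⟨by omega, ?_, by omega, ?_, ?_⟩
  · unfold linK
    omega
  · have h1 : (q + 1) * N = x * (q + 1) + J * (q + 1) := by
      rw [← hxN]
      ring
    rw [h1]
    omega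
  · have hqd : q * d ≤ 24 * (M + 3 + J) := by
      calc q * d ≤ q * (24 * x) := Nat.mul_le_mul_left _ hxd
        _ = 24 * (q * x) := by ring
        _ ≤ 24 * (M + 3 + J) := Nat.mul_le_mul_left _ hq1
    have h16N : d ≤ 16 * N := by omega
    obtain ⟨b', rfl⟩ : ∃ b' : ℕ, b = b' + 2 := ⟨b - 2, by omega⟩
    rw [Nat.add_sub_cancel]
    have hpos : 0 < 16 * d := by omega
    refine Nat.le_of_mul_le_mul_left ?_ hpos
    have hL : 16 * d * (J * (q + 1 + 3 * d + 4 * N + 1) + 2)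
        ≤ 384 * J * (M + 3) + 384 * J ^ 2 + 56 * J * d ^ 2 + 32 * J * d + 32 * d := by
      have e2 : 16 * J * (q * d) ≤ 16 * J * (24 * (M + 3 + J)) := Nat.mul_le_mul_left _ hqd
      have e3 : 8 * J * d * (8 * N) ≤ 8 * J * d * d := Nat.mul_le_mul_left _ hN1
      have e4 : 16 * d * (J * (q + 1 + 3 * d + 4 * N + 1) + 2)
          = 16 * J * (q * d) + 8 * J * d * (8 * N)
            + (48 * J * d ^ 2 + 32 * J * d + 32 * d) := by
        ring
      have e5 : 16 * J * (24 * (M + 3 + J)) + 8 * J * d * d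
            + (48 * J * d ^ 2 + 32 * J * d + 32 * d)
          = 384 * J * (M + 3) + 384 * J ^ 2 + 56 * J * d ^ 2 + 32 * J * d + 32 * d := by ring
      rw [e4, ← e5]
      exact Nat.add_le_add_right (Nat.add_le_add e2 e3) _
    have hR : b' * d ^ 2 ≤ 16 * d * (b' * N) := by
      calc b' * d ^ 2 = b' * d * d := by ring
        _ ≤ b' * d * (16 * N) := Nat.mul_le_mul_left _ h16N
        _ = 16 * d * (b' * N) := by ring
    have hb' : 512 * J * (M + 3) + 64 * J * d ^ 2 ≤ b' * d ^ 2 + 2 * d ^ 2 := by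
      have h : (b' + 2) * d ^ 2 = b' * d ^ 2 + 2 * d ^ 2 := by ring
      rw [h] at hb
      exact hb
    have hmid : 384 * J ^ 2 + 32 * J * d + 32 * d + 2 * d ^ 2 ≤ 8 * J * d ^ 2 := by
      have g1 : 384 * J ^ 2 ≤ 24 * (J * d) := by
        calc 384 * J ^ 2 = 24 * (J * (16 * J)) := by ring
          _ ≤ 24 * (J * d) := Nat.mul_le_mul_left _ (Nat.mul_le_mul_left _ hd)
      have g2 : 16 * (J * d) ≤ J * d * d := by
        calc 16 * (J * d) = J * d * 16 := by ring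
          _ ≤ J * d * d := Nat.mul_le_mul_left _ hd16
      have g3 : 16 * d ≤ d * d := Nat.mul_le_mul_right d hd16
      have g4 : d * d ≤ J * d * d := by
        calc d * d = 1 * (d * d) := by ring
          _ ≤ J * (d * d) := Nat.mul_le_mul_right _ hJ
          _ = J * d * d := by ring
      have g5 : 8 * J * d ^ 2 = 8 * (J * d * d) := by ring
      have g6 : 2 * d ^ 2 = 2 * (d * d) := by ring
      have g7 : 32 * J * d = 32 * (J * d) := by ring
      rw [g5, g6, g7]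
      omega
    have h384 : 384 * J * (M + 3) ≤ 512 * J * (M + 3) :=
      Nat.mul_le_mul_right _ (by omega)
    have hJd2 : 64 * J * d ^ 2 = 56 * J * d ^ 2 + 8 * J * d ^ 2 := by ring
    rw [hJd2] at hb'
    omega

/-- Integer bookkeeping for the output-precision regime `d < 16 J`. -/
lemma lin_count_nat (d M J b : ℕ) (hd : 2 ≤ d) (hJ : 1 ≤ J) (h16 : d < 16 * J)
    (hb : 512 * J * (M + 3) + 64 * J * d ^ 2 ≤ b * d ^ 2) :
    M + 2 * d + 1 ≤ b * (d - 1) := by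
  have hd2 : 0 < d ^ 2 := by positivity
  have h1 : 64 * J ≤ b := by
    have h5 : 64 * J * d ^ 2 ≤ b * d ^ 2 := le_trans (Nat.le_add_left _ _) hb
    exact Nat.le_of_mul_le_mul_right h5 hd2
  have h2 : 4 * d < b := by omega
  have h3 : 32 * (M + 3) ≤ b * d := by
    have h6 : 32 * (M + 3) * d ≤ b * d * d := by
      calc 32 * (M + 3) * d = 32 * d * (M + 3) := by ring
        _ ≤ 512 * J * (M + 3) := Nat.mul_le_mul_right _ (by omega)
        _ ≤ b * d ^ 2 := le_trans (Nat.le_add_right _ _) hb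
        _ = b * d * d := by ring
    exact Nat.le_of_mul_le_mul_right h6 (by omega)
  obtain ⟨e, rfl⟩ : ∃ e : ℕ, d = e + 1 := ⟨d - 1, by omega⟩
  rw [Nat.add_sub_cancel]
  have he : 1 ≤ e := by omega
  have hbe : b ≤ b * e := Nat.le_mul_of_pos_right b (by omega)
  have h4 : b * (e + 1) = b * e + b := by ring
  rw [h4] at h3
  have h5 : (4 * (e + 1) + 1) * e ≤ b * e := Nat.mul_le_mul_right e (by omega)
  have h6 : 4 * (e + 1) + 1 ≤ (4 * (e + 1) + 1) * e := Nat.le_mul_of_pos_right _ (by omega)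
  have h7 : 64 ≤ b := le_trans (Nat.mul_le_mul_left 64 hJ) h1
  omega

/-- Integer bookkeeping for the first-order corollary. -/
lemma lin_q1_nat (d M b T : ℕ) (hd : 4 ≤ d) (hM : M + 3 ≤ d ^ 2) (hb : 576 ≤ b)
    (hT : 10000 * T ≤ b * d) :
    1 ≤ b / 576 ∧ T ≤ b / 576 * (d / 4) ∧
      512 * (b / 576) * (M + 3) + 64 * (b / 576) * d ^ 2 ≤ b * d ^ 2 := by
  obtain ⟨J, hJ⟩ : ∃ J : ℕ, J = b / 576 := ⟨_, rfl⟩
  rw [← hJ]
  have hJ1 : 576 * J ≤ b := by
    rw [hJ]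
    exact Nat.mul_div_le b 576
  have hJ2 : b < 576 * J + 576 := by
    rw [hJ]
    have := Nat.lt_mul_div_succ b (by norm_num : 0 < 576)
    linarith
  obtain ⟨n, hn⟩ : ∃ n : ℕ, n = d / 4 := ⟨_, rfl⟩
  rw [← hn]
  have hn1 : 4 * n ≤ d := by
    rw [hn]
    exact Nat.mul_div_le d 4
  have hn2 : d < 4 * n + 4 := by
    rw [hn]
    have := Nat.lt_mul_div_succ d (by norm_num : 0 < 4)
    linarith
  refine ⟨by omega, ?_, ?_⟩
  · by_contra hcon
    have h1 : J * n + 1 ≤ T := by omega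
    have h2 : b * d ≤ 1152 * J * (8 * n) := Nat.mul_le_mul (by omega) (by omega)
    have h3 : 1152 * J * (8 * n) = 9216 * (J * n) := by ring
    rw [h3] at h2
    omega
  · have h1 : 512 * J * (M + 3) ≤ 512 * J * d ^ 2 := Nat.mul_le_mul_left _ hM
    have h2 : 576 * J * d ^ 2 ≤ b * d ^ 2 := Nat.mul_le_mul_right _ hJ1
    have h3 : 512 * J * d ^ 2 + 64 * J * d ^ 2 = 576 * J * d ^ 2 := by ring
    omega

end Vale.Agent.Lib.P309
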