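import Vale.Agent.Lib.P309.Prof.Resample
import Vale.Agent.Lib.P309.Prof.SeqStep

namespace Vale.Agent.Lib.P309

open MeasureTheory ProbabilityTheory Metric Set
open scoped ENNReal

/-- The combination of a frame of `ℝ^(N+K')` with a glued coefficient vector splits into the
combinations of the first `N` and of the last `K'` frame vectors. -/
theorem linRes_mix_glue {d N K' : ℕ} (e : Fin (N + K') → Vec d) (a : Vec N) (c : Vec K') :
    mix (glueV a c) e
      = (∑ l : Fin N, a l • e (Fin.castAdd K' l)) + mix c (fun j => e (Fin.natAdd N j)) := by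
  unfold mix
  rw [Fin.sum_univ_add]
  congr 1
  · refine Finset.sum_congr rfl fun l _ => ?_
    rw [blkAux_glueV_castAdd]
  · refine Finset.sum_congr rfl fun j _ => ?_
    rw [blkAux_glueV_natAdd]

/-- Resampling in invariant form, for a family which is the beginning of an orthonormal
basis. -/
theorem linRes_main {N K' : ℕ} (hK' : 1 ≤ K')
    (β : OrthonormalBasis (Fin (N + K')) ℝ (Vec (N + K')))
    (u : Fin N → Vec (N + K')) (hu : ∀ l, u l = β (Fin.castAdd K' l))
    (Θ : Vec (N + K') → ℝ≥0∞) (hΘ : Measurable Θ) :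
    ∫⁻ x, Θ x ∂(stdGaussian (Vec (N + K')))
      = ∫⁻ x, ∫⁻ x', Θ ((∑ l, inner ℝ (u l) x • u l)
          + ‖x - ∑ l, inner ℝ (u l) x • u l‖ • dirV (x' - ∑ l, inner ℝ (u l) x' • u l))
          ∂(stdGaussian (Vec (N + K'))) ∂(stdGaussian (Vec (N + K'))) := by
  obtain ⟨e, he⟩ : ∃ e : Fin (N + K') → Vec (N + K'), e = fun i => β i := ⟨_, rfl⟩
  have heo : Orthonormal ℝ e := by
    rw [he]
    exact β.orthonormal
  obtain ⟨b, hb_def⟩ : ∃ b : Fin K' → Vec (N + K'), b = fun j => β (Fin.natAdd N j) :=
    ⟨_, rfl⟩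
  have hb : Orthonormal ℝ b := by
    rw [hb_def]
    exact β.orthonormal.comp _ (Fin.natAdd_injective K' N)
  have hue : ∀ l, u l = e (Fin.castAdd K' l) := fun l => by rw [hu l, he]
  have hbe : ∀ j, b j = e (Fin.natAdd N j) := fun j => by rw [hb_def, he]
  have hproj : ∀ x : Vec (N + K'), x - ∑ l, inner ℝ (u l) x • u l = mix (rowCo b x) b := by
    intro x
    have h := seqStep_proj β x
    simp only [← hu] at h
    rw [hb_def]
    exact h
  have hP : ∀ γ : Vec (N + K'),
      ∑ l, inner ℝ (u l) (mix γ e) • u l = ∑ l, (hdV γ) l • u l := by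
    intro γ
    refine Finset.sum_congr rfl fun l _ => ?_
    rw [hue l, inner_frame_mix heo γ (Fin.castAdd K' l)]
    rfl
  have hrow : ∀ γ : Vec (N + K'), rowCo b (mix γ e) = tlV γ := by
    intro γ
    unfold rowCo tlV
    congr 1
    funext j
    rw [hbe j]
    exact inner_frame_mix heo γ (Fin.natAdd N j)
  have hglue : ∀ (a : Vec N) (c : Vec K'),
      mix (glueV a c) e = (∑ l, a l • u l) + mix c b := by
    intro a c
    rw [linRes_mix_glue]
    congr 1
    · exact Finset.sum_congr rfl fun l _ => by rw [hue l]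
    · rw [hb_def, he]
  have hPm : Measurable (fun x : Vec (N + K') => ∑ l, inner ℝ (u l) x • u l) := by
    have hc : Continuous (fun x : Vec (N + K') => ∑ l, inner ℝ (u l) x • u l) := by fun_prop
    exact hc.measurable
  have hR : Measurable (fun p : Vec (N + K') × Vec (N + K') =>
      Θ ((∑ l, inner ℝ (u l) p.1 • u l) + ‖p.1 - ∑ l, inner ℝ (u l) p.1 • u l‖
        • dirV (p.2 - ∑ l, inner ℝ (u l) p.2 • u l))) :=
    hΘ.comp ((hPm.comp measurable_fst).add
      (((measurable_fst.sub (hPm.comp measurable_fst)).norm).smul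
        (measurable_dirV.comp (measurable_snd.sub (hPm.comp measurable_snd)))))
  have hG : Measurable (fun x : Vec (N + K') =>
      ∫⁻ x', Θ ((∑ l, inner ℝ (u l) x • u l) + ‖x - ∑ l, inner ℝ (u l) x • u l‖
        • dirV (x' - ∑ l, inner ℝ (u l) x' • u l)) ∂(stdGaussian (Vec (N + K')))) :=
    hR.lintegral_prod_right'
  have hmixe : Measurable (fun γ : Vec (N + K') => mix γ e) :=
    measurable_mix_pair.comp (measurable_id.prodMk measurable_const)
  have hF : Measurable (fun γ : Vec (N + K') => Θ (mix γ e)) := hΘ.comp hmixe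
  have s1 : ∫⁻ x, Θ x ∂(stdGaussian (Vec (N + K')))
      = ∫⁻ γ, Θ (mix γ e) ∂(stdGaussian (Vec (N + K'))) :=
    (lintegral_gauss_mix e heo Θ hΘ).symm
  have s2 := lintegral_resample hK' (fun γ : Vec (N + K') => Θ (mix γ e)) hF
  have s5 := lintegral_gauss_mix e heo _ hG
  rw [s1, s2, ← s5]
  refine lintegral_congr fun γ => ?_
  have h0 : Measurable (fun q : Vec K' => ((γ, q) : Vec (N + K') × Vec K')) :=
    Measurable.prodMk measurable_const measurable_id
  have h0' := (measurable_rsV (n := N) (m := K')).comp h0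
  have hFq : Measurable (fun q : Vec K' => Θ (mix (rsV γ q) e)) := hF.comp h0'
  beta_reduce
  rw [← gauss_rowCo b hb, lintegral_map hFq (measurable_rowCo b)]
  refine lintegral_congr fun x' => ?_
  congr 1
  have hd : dirV (mix (rowCo b x') b) = mix (dirV (rowCo b x')) b := dirV_mix hb _
  rw [hproj (mix γ e), hrow γ, norm_mix hb, hproj x', hd, hP γ]
  unfold rsV
  rw [hglue, mix_smul]

/-- Resampling in invariant form.  For a standard Gaussian vector `x` of `ℝ^K` and an
orthonormal family `u` of `N < K` vectors, the direction of the part of `x` orthogonal to `u`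
is independent of the coordinates of `x` along `u` and of the norm of that part: it may be
replaced by the direction of the orthogonal part of an independent standard Gaussian vector. -/
theorem lin_resample_inv {K N : ℕ} (hNK : N + 1 ≤ K) (u : Fin N → Vec K) (hu : Orthonormal ℝ u)
    (Θ : Vec K → ℝ≥0∞) (hΘ : Measurable Θ) :
    ∫⁻ x, Θ x ∂(stdGaussian (Vec K))
      = ∫⁻ x, ∫⁻ x', Θ ((∑ l, inner ℝ (u l) x • u l)
          + ‖x - ∑ l, inner ℝ (u l) x • u l‖ • dirV (x' - ∑ l, inner ℝ (u l) x' • u l))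
          ∂(stdGaussian (Vec K)) ∂(stdGaussian (Vec K)) := by
  have hNK' : N ≤ K := by omega
  obtain ⟨K', rfl⟩ := Nat.exists_eq_add_of_le hNK'
  have hK'1 : 1 ≤ K' := by omega
  obtain ⟨β, hβ⟩ := frmU_exists_basis (Nat.le_add_right N K') hu
  exact linRes_main hK'1 β u (fun l => (hβ l).symm) Θ hΘ

end Vale.Agent.Lib.P309
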