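import Vale.Agent.Lib.P309.Lin.Chi
import Vale.Agent.Lib.P309.Lin.Conv

namespace Vale.Agent.Lib.P309

open MeasureTheory ProbabilityTheory Metric Set
open scoped ENNReal

/-- Joint measurability of the integrand with the second argument scaled by the relative norm
of the last coordinates. -/
theorem linShift_meas_scaled {n j k : ℕ} (Ψ : Vec n × Vec (j + k) → ℝ≥0∞) (hΨ : Measurable Ψ) :
    Measurable (fun p : (Vec n × Vec (j + k)) × Vec (j + k) =>
      Ψ (p.1.1, (‖tlV (n := j) (m := k) p.1.2‖ / ‖p.1.2‖) • p.2)) := by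
  have hs : Measurable (fun p : (Vec n × Vec (j + k)) × Vec (j + k) =>
      ‖tlV (n := j) (m := k) p.1.2‖ / ‖p.1.2‖) :=
    ((measurable_tlV.comp (measurable_snd.comp measurable_fst)).norm).div
      (measurable_snd.comp measurable_fst).norm
  have hy : Measurable (fun p : (Vec n × Vec (j + k)) × Vec (j + k) => p.2) := measurable_snd
  exact hΨ.comp (Measurable.prodMk (measurable_fst.comp measurable_fst) (hs.smul hy))

/-- The reciprocal of the relative norm of the last coordinates, in terms of the ratio of the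
norms of the first and of the last coordinates. -/
theorem linShift_inv_ratio {j k : ℕ} (Y : Vec (j + k)) (hY : tlV (n := j) (m := k) Y ≠ 0) :
    0 < ‖tlV (n := j) (m := k) Y‖ / ‖Y‖ ∧
      (‖tlV (n := j) (m := k) Y‖ / ‖Y‖)⁻¹
        = Real.sqrt (1 + (‖hdV (n := j) (m := k) Y‖ / ‖tlV (n := j) (m := k) Y‖) ^ 2) := by
  have hpos : 0 < ‖tlV (n := j) (m := k) Y‖ := norm_pos_iff.mpr hY
  have hsq := norm_sq_hdV_tlV (n := j) (m := k) Y
  have hYpos : 0 < ‖Y‖ := by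
    have h2 : 0 < ‖Y‖ ^ 2 := by
      rw [hsq]
      exact add_pos_of_nonneg_of_pos (sq_nonneg _) (pow_pos hpos 2)
    by_contra hcon
    have h0 : ‖Y‖ = 0 := le_antisymm (not_lt.mp hcon) (norm_nonneg Y)
    rw [h0] at h2
    norm_num at h2
  have hspos : 0 < ‖tlV (n := j) (m := k) Y‖ / ‖Y‖ := div_pos hpos hYpos
  refine ⟨hspos, ?_⟩
  have h2 : ((‖tlV (n := j) (m := k) Y‖ / ‖Y‖)⁻¹) ^ 2
      = 1 + (‖hdV (n := j) (m := k) Y‖ / ‖tlV (n := j) (m := k) Y‖) ^ 2 := by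
    rw [inv_div, div_pow, div_pow, hsq]
    field_simp
    ring
  rw [← h2, Real.sqrt_sq (inv_nonneg.mpr hspos.le)]

/-- Shift representation.  Let `Ψ (u, y)` be positively homogeneous of degree `0` jointly in
the pair `u`, `y`.  If `u` is a standard Gaussian vector of `ℝ^n`, and the second argument has the
direction of a standard Gaussian vector `y` of `ℝ^(j+k)` and the norm of a standard Gaussian
vector `v` of `ℝ^k`, then the law of `Ψ` is that of `Ψ (u + μ • ζ, y)`, where `ζ` is a further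
standard Gaussian vector of `ℝ^n` and `μ = ‖hdV Y‖ / ‖tlV Y‖` for a further standard Gaussian
vector `Y` of `ℝ^(j+k)`, all independent. -/
theorem lin_shift {n j k : ℕ} (hk : 1 ≤ k) (Ψ : Vec n × Vec (j + k) → ℝ≥0∞) (hΨ : Measurable Ψ)
    (hom : ∀ t : ℝ, 0 < t → ∀ (u : Vec n) (y : Vec (j + k)), Ψ (t • u, t • y) = Ψ (u, y)) :
    ∫⁻ u, ∫⁻ v, ∫⁻ y, Ψ (u, ‖v‖ • dirV y) ∂(stdGaussian (Vec (j + k))) ∂(stdGaussian (Vec k))
        ∂(stdGaussian (Vec n))
      = ∫⁻ Y, ∫⁻ ζ, ∫⁻ u, ∫⁻ y, Ψ (u + (‖hdV Y‖ / ‖tlV Y‖) • ζ, y)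
          ∂(stdGaussian (Vec (j + k))) ∂(stdGaussian (Vec n)) ∂(stdGaussian (Vec n))
          ∂(stdGaussian (Vec (j + k))) := by
  have h1 : ∀ u : Vec n,
      ∫⁻ v, ∫⁻ y, Ψ (u, ‖v‖ • dirV y) ∂(stdGaussian (Vec (j + k))) ∂(stdGaussian (Vec k))
        = ∫⁻ Y, ∫⁻ y, Ψ (u, (‖tlV (n := j) (m := k) Y‖ / ‖Y‖) • y)
            ∂(stdGaussian (Vec (j + k))) ∂(stdGaussian (Vec (j + k))) := by
    intro u
    exact lin_chi hk (fun y => Ψ (u, y)) (hΨ.comp measurable_prodMk_left)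
  have hmeas : Measurable (fun p : Vec n × Vec (j + k) =>
      ∫⁻ y, Ψ (p.1, (‖tlV (n := j) (m := k) p.2‖ / ‖p.2‖) • y) ∂(stdGaussian (Vec (j + k)))) :=
    (linShift_meas_scaled Ψ hΨ).lintegral_prod_right'
  have hΞ : Measurable (fun u : Vec n => ∫⁻ y, Ψ (u, y) ∂(stdGaussian (Vec (j + k)))) :=
    hΨ.lintegral_prod_right'
  calc ∫⁻ u, ∫⁻ v, ∫⁻ y, Ψ (u, ‖v‖ • dirV y) ∂(stdGaussian (Vec (j + k)))
          ∂(stdGaussian (Vec k)) ∂(stdGaussian (Vec n))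
      = ∫⁻ u, ∫⁻ Y, ∫⁻ y, Ψ (u, (‖tlV (n := j) (m := k) Y‖ / ‖Y‖) • y)
          ∂(stdGaussian (Vec (j + k))) ∂(stdGaussian (Vec (j + k))) ∂(stdGaussian (Vec n)) :=
        lintegral_congr h1
    _ = ∫⁻ Y, ∫⁻ u, ∫⁻ y, Ψ (u, (‖tlV (n := j) (m := k) Y‖ / ‖Y‖) • y)
          ∂(stdGaussian (Vec (j + k))) ∂(stdGaussian (Vec n)) ∂(stdGaussian (Vec (j + k))) :=
        lintegral_lintegral_swap hmeas.aemeasurable
    _ = ∫⁻ Y, ∫⁻ ζ, ∫⁻ u, ∫⁻ y, Ψ (u + (‖hdV Y‖ / ‖tlV Y‖) • ζ, y)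
          ∂(stdGaussian (Vec (j + k))) ∂(stdGaussian (Vec n)) ∂(stdGaussian (Vec n))
          ∂(stdGaussian (Vec (j + k))) := by
        refine lintegral_congr_ae ?_
        filter_upwards [ae_tlV_ne_zero (n := j) hk] with Y hY
        obtain ⟨hspos, hsinv⟩ := linShift_inv_ratio Y hY
        have hμ0 : 0 ≤ ‖hdV (n := j) (m := k) Y‖ / ‖tlV (n := j) (m := k) Y‖ :=
          div_nonneg (norm_nonneg _) (norm_nonneg _)
        have hhom : ∀ (u : Vec n) (y : Vec (j + k)),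
            Ψ (u, (‖tlV (n := j) (m := k) Y‖ / ‖Y‖) • y)
              = Ψ (Real.sqrt (1 + (‖hdV (n := j) (m := k) Y‖ / ‖tlV (n := j) (m := k) Y‖) ^ 2)
                  • u, y) := by
          intro u y
          have h := hom (‖tlV (n := j) (m := k) Y‖ / ‖Y‖)⁻¹ (inv_pos.mpr hspos) u
            ((‖tlV (n := j) (m := k) Y‖ / ‖Y‖) • y)
          rw [smul_smul, inv_mul_cancel₀ hspos.ne', one_smul] at h
          rw [← hsinv]
          exact h.symm
        have h3 : ∫⁻ u, ∫⁻ y, Ψ (u, (‖tlV (n := j) (m := k) Y‖ / ‖Y‖) • y)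
              ∂(stdGaussian (Vec (j + k))) ∂(stdGaussian (Vec n))
            = ∫⁻ u, ∫⁻ y,
                Ψ (Real.sqrt (1 + (‖hdV (n := j) (m := k) Y‖ / ‖tlV (n := j) (m := k) Y‖) ^ 2)
                  • u, y) ∂(stdGaussian (Vec (j + k))) ∂(stdGaussian (Vec n)) :=
          lintegral_congr (fun u => lintegral_congr (fun y => hhom u y))
        rw [h3]
        exact lin_conv (fun u => ∫⁻ y, Ψ (u, y) ∂(stdGaussian (Vec (j + k)))) hΞ
          (‖hdV (n := j) (m := k) Y‖ / ‖tlV (n := j) (m := k) Y‖) hμ0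

end Vale.Agent.Lib.P309
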