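import Vale.Agent.Lib.P309.Lin.Defs
import Vale.Agent.Lib.P309.Lin.ResampleInv
import Vale.Agent.Lib.P309.Prof.StageC

namespace Vale.Agent.Lib.P309

open MeasureTheory ProbabilityTheory Metric Set
open scoped ENNReal

/-- Almost surely the part of a standard Gaussian vector of `ℝ^K` orthogonal to an orthonormal
family of fewer than `K` vectors does not vanish. -/
theorem linSlice_ae_ne_zero {K N : ℕ} (hNK : N + 1 ≤ K) (u : Fin N → Vec K)
    (hu : Orthonormal ℝ u) :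
    ∀ᵐ x ∂(stdGaussian (Vec K)), x - ∑ l, inner ℝ (u l) x • u l ≠ 0 := by
  have hNK' : N ≤ K := by omega
  obtain ⟨K', rfl⟩ := Nat.exists_eq_add_of_le hNK'
  have hK'1 : 1 ≤ K' := by omega
  obtain ⟨β, hβ⟩ := frmU_exists_basis (Nat.le_add_right N K') hu
  have he' : ∀ l, u l = β (Fin.castAdd K' l) := fun l => (hβ l).symm
  set b : Fin K' → Vec (N + K') := fun j => β (Fin.natAdd N j) with hb_def
  have hb : Orthonormal ℝ b := β.orthonormal.comp _ (Fin.natAdd_injective K' N)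
  have h1 : ∀ᵐ x ∂(stdGaussian (Vec (N + K'))), rowCo b x ≠ 0 := by
    have h2 : ∀ᵐ g ∂((stdGaussian (Vec (N + K'))).map (rowCo b)), g ≠ 0 := by
      rw [gauss_rowCo b hb]
      exact ae_gauss_ne_zero hK'1
    exact ae_of_ae_map (measurable_rowCo b).aemeasurable h2
  filter_upwards [h1] with x hx
  have hx' : x - ∑ l, inner ℝ (u l) x • u l = mix (rowCo b x) b := by
    have := seqStep_proj β x
    simp only [← he'] at this
    exact this
  rw [hx']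
  intro h0
  apply hx
  have hn : ‖mix (rowCo b x) b‖ = ‖rowCo b x‖ := norm_mix hb _
  rw [h0, norm_zero] at hn
  exact norm_eq_zero.mp hn.symm

/-- The direction of the part of `x` orthogonal to an orthonormal family is orthogonal to the
members of the family. -/
theorem linSlice_inner_dirV {K N : ℕ} (u : Fin N → Vec K) (hu : Orthonormal ℝ u) (x : Vec K)
    (l : Fin N) : inner ℝ (u l) (dirV (x - ∑ j, inner ℝ (u j) x • u j)) = 0 := by
  unfold dirV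
  rw [real_inner_smul_right, inner_sub_right,
    hu.inner_right_fintype (fun j => inner ℝ (u j) x) l, sub_self, mul_zero]

/-- The geometric identity behind the slicing: the point `h • u 0 + ρ • dir (…)` formed from
the vector `∑ l, α l • u l + ℓ • q`, with `q` a unit vector orthogonal to `u 0`, `u 1`, is a combination
of `u 0`, `u 1` plus a positive multiple of `q`. -/
theorem linSlice_geom {K : ℕ} (u : Fin 2 → Vec K) (hu : Orthonormal ℝ u) (q : Vec K)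
    (hq0 : inner ℝ (u 0) q = 0) (hq1 : inner ℝ (u 1) q = 0) (hqn : ‖q‖ = 1)
    (α : Fin 2 → ℝ) (ℓ : ℝ) (hℓ : 0 < ℓ) (h ρ t : ℝ) :
    h • u 0 + ρ • dirV ((((∑ l, α l • u l) + ℓ • q)
        - inner ℝ (u 0) ((∑ l, α l • u l) + ℓ • q) • u 0) + t • u 1)
      = (∑ l, (![h, ρ * (α 1 + t) / Real.sqrt ((α 1 + t) ^ 2 + ℓ ^ 2)] : Fin 2 → ℝ) l • u l)
        + (ρ * ℓ / Real.sqrt ((α 1 + t) ^ 2 + ℓ ^ 2)) • q := by
  have h11 : ‖u 1‖ = 1 := hu.1 1
  have hpos : 0 < (α 1 + t) ^ 2 + ℓ ^ 2 := by positivity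
  have hν0 : 0 < Real.sqrt ((α 1 + t) ^ 2 + ℓ ^ 2) := Real.sqrt_pos.mpr hpos
  have hν2 : Real.sqrt ((α 1 + t) ^ 2 + ℓ ^ 2) ^ 2 = (α 1 + t) ^ 2 + ℓ ^ 2 :=
    Real.sq_sqrt hpos.le
  have hin : inner ℝ (u 0) ((∑ l, α l • u l) + ℓ • q) = α 0 := by
    rw [inner_add_right, hu.inner_right_fintype α 0, real_inner_smul_right, hq0, mul_zero,
      add_zero]
  have hw : ((∑ l, α l • u l) + ℓ • q) - α 0 • u 0 + t • u 1 = (α 1 + t) • u 1 + ℓ • q := by
    rw [Fin.sum_univ_two]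
    module
  have hwn : ‖(α 1 + t) • u 1 + ℓ • q‖ = Real.sqrt ((α 1 + t) ^ 2 + ℓ ^ 2) := by
    have h2 : ‖(α 1 + t) • u 1 + ℓ • q‖ ^ 2 = Real.sqrt ((α 1 + t) ^ 2 + ℓ ^ 2) ^ 2 := by
      rw [norm_add_sq_real, real_inner_smul_left, real_inner_smul_right, hq1, norm_smul,
        norm_smul, h11, hqn, Real.norm_eq_abs, Real.norm_eq_abs, mul_one, mul_one, sq_abs,
        sq_abs, hν2]
      ring
    exact (sq_eq_sq₀ (norm_nonneg _) hν0.le).mp h2
  have hdir : dirV ((α 1 + t) • u 1 + ℓ • q)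
      = (Real.sqrt ((α 1 + t) ^ 2 + ℓ ^ 2))⁻¹ • ((α 1 + t) • u 1 + ℓ • q) := by
    show ‖(α 1 + t) • u 1 + ℓ • q‖⁻¹ • ((α 1 + t) • u 1 + ℓ • q) = _
    rw [hwn]
  rw [hin, hw, hdir, Fin.sum_univ_two]
  show h • u 0 + ρ • (Real.sqrt ((α 1 + t) ^ 2 + ℓ ^ 2))⁻¹ • ((α 1 + t) • u 1 + ℓ • q)
    = h • u 0 + (ρ * (α 1 + t) / Real.sqrt ((α 1 + t) ^ 2 + ℓ ^ 2)) • u 1
      + (ρ * ℓ / Real.sqrt ((α 1 + t) ^ 2 + ℓ ^ 2)) • q
  module

/-- The squared norm of the coefficients produced by `linSlice_geom`. -/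
theorem linSlice_sq (a1 ℓ h ρ : ℝ) (hℓ : 0 < ℓ) :
    (∑ l : Fin 2, (![h, ρ * a1 / Real.sqrt (a1 ^ 2 + ℓ ^ 2)] : Fin 2 → ℝ) l ^ 2)
      + (ρ * ℓ / Real.sqrt (a1 ^ 2 + ℓ ^ 2)) ^ 2 = h ^ 2 + ρ ^ 2 := by
  have hpos : 0 < a1 ^ 2 + ℓ ^ 2 := by positivity
  have hν2 : Real.sqrt (a1 ^ 2 + ℓ ^ 2) ^ 2 = a1 ^ 2 + ℓ ^ 2 := Real.sq_sqrt hpos.le
  rw [Fin.sum_univ_two]
  show h ^ 2 + (ρ * a1 / Real.sqrt (a1 ^ 2 + ℓ ^ 2)) ^ 2
    + (ρ * ℓ / Real.sqrt (a1 ^ 2 + ℓ ^ 2)) ^ 2 = h ^ 2 + ρ ^ 2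
  rw [div_pow, div_pow, hν2]
  have h3 : (ρ * a1) ^ 2 / (a1 ^ 2 + ℓ ^ 2) + (ρ * ℓ) ^ 2 / (a1 ^ 2 + ℓ ^ 2) = ρ ^ 2 := by
    rw [← add_div, div_eq_iff hpos.ne']
    ring
  linarith

/-- The function `x ↦ (1 / linRatio u t x)^D` is measurable. -/
theorem linSlice_measurable_ratio {K : ℕ} (u : Fin 2 → Vec K) (t : ℝ) (D : ℕ) :
    Measurable (fun x : Vec K => ((ENNReal.ofReal (linRatio u t x))⁻¹) ^ D) := by
  have hin : ∀ l : Fin 2, Measurable (fun x : Vec K => inner ℝ (u l) x) :=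
    fun l => measurable_const.inner measurable_id
  have hsm : ∀ l : Fin 2, Measurable (fun x : Vec K => inner ℝ (u l) x • u l) :=
    fun l => (hin l).smul_const (u l)
  have hP : Measurable (fun x : Vec K => x - ∑ l, inner ℝ (u l) x • u l) :=
    measurable_id.sub (Finset.measurable_sum _ (fun l _ => hsm l))
  have hden : Measurable (fun x : Vec K =>
      Real.sqrt ((inner ℝ (u 1) x + t) ^ 2 + ‖x - ∑ l, inner ℝ (u l) x • u l‖ ^ 2)) :=
    ((((hin 1).add measurable_const).pow_const 2).add (hP.norm.pow_const 2)).sqrt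
  have hr : Measurable (linRatio u t) := hP.norm.div hden
  exact (hr.ennreal_ofReal.inv).pow_const D

/-- Slicing around a shifted direction.  Let `G` have the radial profile `A / ρ^D + τ` from
dimension `K₀ ≤ K - 2` on, and let `u 0`, `u 1` be orthonormal in `ℝ^K`.  For a standard Gaussian
vector `x`, the point with coordinate vector `h • u 0 + ρ • dir (x - ⟨u 0, x⟩ u 0 + t • u 1)`
lies on the round subsphere around the direction `u 1` through it, on which it is uniformly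
distributed given `⟨u 1, x⟩` and the norm of the part of `x` orthogonal to `u 0`, `u 1`; the
average of `G` is bounded by the profile at the radius of that subsphere. -/
theorem lin_slice {d K D K₀ : ℕ} (s₀ : Sph d) (hK₀ : 1 ≤ K₀) (hK : K₀ + 2 ≤ K)
    (c : Fin K → Vec d) (z : Vec d) (r : ℝ) (hsub : IsSub c z r)
    (G : Sph d → ℝ≥0∞) (hG : Measurable G) (A τ : ℝ≥0∞)
    (hprof : ProfLe s₀ G K₀ (profFn D A τ))
    (u : Fin 2 → Vec K) (hu : Orthonormal ℝ u) (h ρ t : ℝ) (hh : 0 ≤ h) (hρ : 0 < ρ)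
    (ht : 0 ≤ t) :
    ∫⁻ x, G (subPt s₀ c z r
        (h • u 0 + ρ • dirV ((x - inner ℝ (u 0) x • u 0) + t • u 1)))
        ∂(stdGaussian (Vec K))
      ≤ A * ((ENNReal.ofReal (r * (ρ / Real.sqrt (h ^ 2 + ρ ^ 2))))⁻¹) ^ D
          * ∫⁻ x, ((ENNReal.ofReal (linRatio u t x))⁻¹) ^ D ∂(stdGaussian (Vec K))
        + τ := by
  have _hht : 0 ≤ h ∧ 0 ≤ t := ⟨hh, ht⟩
  have hNK : 2 + 1 ≤ K := by omega
  have hin0 : Measurable (fun x : Vec K => inner ℝ (u 0) x) :=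
    measurable_const.inner measurable_id
  have hm1 : Measurable (fun x : Vec K => (x - inner ℝ (u 0) x • u 0) + t • u 1) :=
    (measurable_id.sub (hin0.smul_const (u 0))).add measurable_const
  have hm2 : Measurable (fun x : Vec K =>
      h • u 0 + ρ • dirV ((x - inner ℝ (u 0) x • u 0) + t • u 1)) :=
    measurable_const.add ((measurable_dirV.comp hm1).const_smul ρ)
  have hΘ : Measurable (fun x : Vec K => G (subPt s₀ c z r
      (h • u 0 + ρ • dirV ((x - inner ℝ (u 0) x • u 0) + t • u 1)))) :=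
    hG.comp ((measurable_subPt s₀ c z r).comp hm2)
  have hae := linSlice_ae_ne_zero hNK u hu
  have hρ'0 : 0 ≤ r * (ρ / Real.sqrt (h ^ 2 + ρ ^ 2)) :=
    mul_nonneg hsub.pos.le (div_nonneg hρ.le (Real.sqrt_nonneg _))
  have key := lin_resample_inv hNK u hu (fun x : Vec K => G (subPt s₀ c z r
      (h • u 0 + ρ • dirV ((x - inner ℝ (u 0) x • u 0) + t • u 1)))) hΘ
  refine le_of_eq_of_le key ?_
  refine le_trans (lintegral_mono_ae (g := fun x : Vec K =>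
    A * ((ENNReal.ofReal (r * (ρ / Real.sqrt (h ^ 2 + ρ ^ 2))))⁻¹) ^ D
      * ((ENNReal.ofReal (linRatio u t x))⁻¹) ^ D + τ) ?_) (le_of_eq ?_)
  · filter_upwards [hae] with x hx
    have hℓ : 0 < ‖x - ∑ l, inner ℝ (u l) x • u l‖ := norm_pos_iff.mpr hx
    have hpos : 0 < (inner ℝ (u 1) x + t) ^ 2 + ‖x - ∑ l, inner ℝ (u l) x • u l‖ ^ 2 := by
      positivity
    have hν0 : 0 < Real.sqrt ((inner ℝ (u 1) x + t) ^ 2
        + ‖x - ∑ l, inner ℝ (u l) x • u l‖ ^ 2) := Real.sqrt_pos.mpr hpos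
    have hlam : 0 < ρ * ‖x - ∑ l, inner ℝ (u l) x • u l‖
        / Real.sqrt ((inner ℝ (u 1) x + t) ^ 2 + ‖x - ∑ l, inner ℝ (u l) x • u l‖ ^ 2) :=
      div_pos (mul_pos hρ hℓ) hν0
    have hstep := seq_step s₀ hK₀ hK c z r hsub G hG (profFn D A τ) hprof u hu
      (![h, ρ * (inner ℝ (u 1) x + t) / Real.sqrt ((inner ℝ (u 1) x + t) ^ 2
        + ‖x - ∑ l, inner ℝ (u l) x • u l‖ ^ 2)])
      (ρ * ‖x - ∑ l, inner ℝ (u l) x • u l‖
        / Real.sqrt ((inner ℝ (u 1) x + t) ^ 2 + ‖x - ∑ l, inner ℝ (u l) x • u l‖ ^ 2)) hlam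
    rw [linSlice_sq (inner ℝ (u 1) x + t) ‖x - ∑ l, inner ℝ (u l) x • u l‖ h ρ hℓ] at hstep
    have hrad : r * (ρ * ‖x - ∑ l, inner ℝ (u l) x • u l‖
        / Real.sqrt ((inner ℝ (u 1) x + t) ^ 2 + ‖x - ∑ l, inner ℝ (u l) x • u l‖ ^ 2))
        / Real.sqrt (h ^ 2 + ρ ^ 2)
        = (r * (ρ / Real.sqrt (h ^ 2 + ρ ^ 2))) * linRatio u t x := by
      unfold linRatio
      ring
    rw [hrad, stgC_profFn_mul D A τ _ _ hρ'0] at hstep
    refine le_of_eq_of_le (lintegral_congr_ae ?_) hstep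
    filter_upwards [hae] with x' hx'
    exact congrArg (fun γ => G (subPt s₀ c z r γ))
      (linSlice_geom u hu (dirV (x' - ∑ l, inner ℝ (u l) x' • u l))
        (linSlice_inner_dirV u hu x' 0) (linSlice_inner_dirV u hu x' 1) (norm_dirV hx')
        (fun l => inner ℝ (u l) x) ‖x - ∑ l, inner ℝ (u l) x • u l‖ hℓ h ρ t)
  · rw [lintegral_add_right _ measurable_const,
      lintegral_const_mul _ (linSlice_measurable_ratio u t D), lintegral_const, measure_univ,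
      mul_one]

end Vale.Agent.Lib.P309
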