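import Vale.Agent.Lib.P309.Lin.StageMoment
import Vale.Agent.Lib.P309.Prof.Stage
import Vale.Agent.Lib.P309.Prof.StageD

namespace Vale.Agent.Lib.P309

open MeasureTheory ProbabilityTheory Metric Set
open scoped ENNReal

/-- The stage theorem for radial profiles, without loss of dimension.  If every `Γ p` has the
radial profile `A / ρ^D + τ` from dimension `K₀` on, then the function obtained by reading `a`
further rows with weights `μ` (which depend on the signal only through the labels of the rows)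
has the radial profile `2^(E + 3d + 4D + 1) A / ρ^D + 2^E τ + card P / 2^(E N)` from dimension
`max (K₀ + 2) (a + N + D + 1)` on. -/
theorem lin_prof_stage {d a N D E K₀ : ℕ} {P : Type} [Fintype P] (s₀ : Sph d) (ha : 1 ≤ a)
    (hK₀ : 1 ≤ K₀)
    (μ : P → (Fin a → Vec d) → Sph d → ℝ≥0∞)
    (hμm : ∀ p, Measurable (fun q : (Fin a → Vec d) × Sph d => μ p q.1 q.2))
    (hμ1 : ∀ X s, ∑ p, μ p X s ≤ 1)
    (hμlab : ∀ p X (s s' : Sph d),
      (∀ j, inner ℝ (X j) (s : Vec d) = inner ℝ (X j) (s' : Vec d)) → μ p X s = μ p X s')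
    (Γ : P → Sph d → ℝ≥0∞) (hΓm : ∀ p, Measurable (Γ p)) (hΓ1 : ∀ p s, Γ p s ≤ 1)
    (A τ : ℝ≥0∞) (hprof : ∀ p, ProfLe s₀ (Γ p) K₀ (profFn D A τ)) :
    ProfLe s₀ (fun s => ∫⁻ X, ∑ p, μ p X s * Γ p s
        ∂(Measure.pi (fun _ : Fin a => stdGaussian (Vec d))))
      (max (K₀ + 2) (a + N + D + 1))
      (profFn D ((2 : ℝ≥0∞) ^ (E + 3 * d + 4 * D + 1) * A)
        ((2 : ℝ≥0∞) ^ E * τ + (Fintype.card P : ℝ≥0∞) * ((2 : ℝ≥0∞) ^ (E * N))⁻¹)) := by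
  intro K hK c z r hsub
  have hK1 : K₀ + 2 ≤ K := le_trans (le_max_left _ _) hK
  have hK2 : a + N + D + 1 ≤ K := le_trans (le_max_right _ _) hK
  obtain ⟨m, rfl⟩ : ∃ m, K = a + m := Nat.exists_eq_add_of_le (by omega)
  have hm : N + D + 1 ≤ m := by omega
  have hKd : a + m ≤ d := by
    have h := hsub.on.linearIndependent.fintype_card_le_finrank
    simpa [finrank_euclideanSpace] using h
  let ρ : Vec (a + m) → ℝ := fun γ => ‖tlV γ‖ / ‖γ‖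
  have hρm : Measurable ρ := (measurable_tlV.norm).div measurable_norm
  let f : Vec (a + m) → ℝ≥0∞ := fun γ => ((ENNReal.ofReal (ρ γ))⁻¹) ^ D
  have hfm : Measurable f := ((ENNReal.measurable_ofReal.comp hρm).inv).pow_const D
  let B : Vec (a + m) → ℝ≥0∞ := fun γ =>
    (2 : ℝ≥0∞) ^ (3 * D + 2 * (a + m)) * (A * ((ENNReal.ofReal (r * (‖tlV γ‖ / ‖γ‖)))⁻¹) ^ D) + τ
  let θ : Vec (a + m) → ℝ≥0∞ := fun γ => (2 : ℝ≥0∞) ^ E * B γ
  have hBeq : ∀ γ, B γ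
      = (2 : ℝ≥0∞) ^ (3 * D + 2 * (a + m)) * (A * ((ENNReal.ofReal r)⁻¹) ^ D) * f γ + τ := by
    intro γ
    have h1 : ENNReal.ofReal (r * (‖tlV γ‖ / ‖γ‖))
        = ENNReal.ofReal r * ENNReal.ofReal (ρ γ) := ENNReal.ofReal_mul hsub.pos.le
    have h2 : (ENNReal.ofReal r * ENNReal.ofReal (ρ γ))⁻¹
        = (ENNReal.ofReal r)⁻¹ * (ENNReal.ofReal (ρ γ))⁻¹ :=
      ENNReal.mul_inv (Or.inl (by simpa using hsub.pos)) (Or.inl ENNReal.ofReal_ne_top)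
    simp only [B, f, h1, h2, mul_pow]
    ring
  have hBm : Measurable B := by
    have hB : B = fun γ =>
        (2 : ℝ≥0∞) ^ (3 * D + 2 * (a + m)) * (A * ((ENNReal.ofReal r)⁻¹) ^ D) * f γ + τ := funext hBeq
    rw [hB]
    exact (hfm.const_mul _).add_const _
  have hθm : Measurable θ := hBm.const_mul _
  have hup := stage_upper (N := N) s₀ (by omega : 1 ≤ m) c z r hsub μ hμm hμ1 hμlab Γ hΓm hΓ1
    θ hθm
  have hfirst : ∫⁻ γ, θ γ ∂(stdGaussian (Vec (a + m)))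
      ≤ (2 : ℝ≥0∞) ^ (E + 3 * d + 4 * D + 1) * A * ((ENNReal.ofReal r)⁻¹) ^ D
        + (2 : ℝ≥0∞) ^ E * τ := by
    have htm := tail_moment (n := a) (m := m) (D := D) (by omega)
    have hθeq : ∀ γ, θ γ
        = ((2 : ℝ≥0∞) ^ E * ((2 : ℝ≥0∞) ^ (3 * D + 2 * (a + m)) * (A * ((ENNReal.ofReal r)⁻¹) ^ D)))
            * f γ + (2 : ℝ≥0∞) ^ E * τ := by
      intro γ
      simp only [θ, hBeq]
      ring
    calc ∫⁻ γ, θ γ ∂(stdGaussian (Vec (a + m)))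
        = ∫⁻ γ, (((2 : ℝ≥0∞) ^ E * ((2 : ℝ≥0∞) ^ (3 * D + 2 * (a + m))
              * (A * ((ENNReal.ofReal r)⁻¹) ^ D))) * f γ + (2 : ℝ≥0∞) ^ E * τ)
            ∂(stdGaussian (Vec (a + m))) := lintegral_congr hθeq
      _ = ((2 : ℝ≥0∞) ^ E * ((2 : ℝ≥0∞) ^ (3 * D + 2 * (a + m)) * (A * ((ENNReal.ofReal r)⁻¹) ^ D)))
            * ∫⁻ γ, f γ ∂(stdGaussian (Vec (a + m))) + (2 : ℝ≥0∞) ^ E * τ := by
          rw [lintegral_add_right _ measurable_const, lintegral_const_mul _ hfm, lintegral_const,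
            measure_univ, mul_one]
      _ ≤ ((2 : ℝ≥0∞) ^ E * ((2 : ℝ≥0∞) ^ (3 * D + 2 * (a + m)) * (A * ((ENNReal.ofReal r)⁻¹) ^ D)))
            * (2 : ℝ≥0∞) ^ (a + m + D + 1) + (2 : ℝ≥0∞) ^ E * τ := by
          gcongr
      _ = (2 : ℝ≥0∞) ^ (E + (3 * D + 2 * (a + m)) + (a + m + D + 1)) * A * ((ENNReal.ofReal r)⁻¹) ^ D
            + (2 : ℝ≥0∞) ^ E * τ := by
          rw [pow_add, pow_add]
          ring
      _ ≤ (2 : ℝ≥0∞) ^ (E + 3 * d + 4 * D + 1) * A * ((ENNReal.ofReal r)⁻¹) ^ D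
            + (2 : ℝ≥0∞) ^ E * τ := by
          have hpow : (2 : ℝ≥0∞) ^ (E + (3 * D + 2 * (a + m)) + (a + m + D + 1))
              ≤ (2 : ℝ≥0∞) ^ (E + 3 * d + 4 * D + 1) :=
            pow_le_pow_right₀ (by norm_num) (by omega)
          gcongr
  have hsecond : ∀ p, ∫⁻ γ, ((θ γ)⁻¹) ^ N * ∫⁻ X, ∫⁻ h, (rsAvg s₀ c z r (Γ p) X h γ) ^ N
        ∂(Measure.pi (fun _ : Fin m => stdGaussian (Vec (a + m))))
        ∂(Measure.pi (fun _ : Fin a => stdGaussian (Vec d)))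
        ∂(stdGaussian (Vec (a + m))) ≤ ((2 : ℝ≥0∞) ^ (E * N))⁻¹ := by
    intro p
    calc ∫⁻ γ, ((θ γ)⁻¹) ^ N * ∫⁻ X, ∫⁻ h, (rsAvg s₀ c z r (Γ p) X h γ) ^ N
          ∂(Measure.pi (fun _ : Fin m => stdGaussian (Vec (a + m))))
          ∂(Measure.pi (fun _ : Fin a => stdGaussian (Vec d)))
          ∂(stdGaussian (Vec (a + m)))
        ≤ ∫⁻ _γ, ((2 : ℝ≥0∞) ^ (E * N))⁻¹ ∂(stdGaussian (Vec (a + m))) := by
          apply lintegral_mono_ae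
          filter_upwards [ae_hdV_ne_zero (m := m) ha,
            ae_tlV_ne_zero (n := a) (by omega : 1 ≤ m)] with γ h1 h2
          have hmom := lin_stage_moment (N := N) (D := D) s₀ ha hK₀ hK1 (by omega) c z r hsub (Γ p)
            (hΓm p) A τ (hprof p) γ h1 h2
          calc ((θ γ)⁻¹) ^ N * ∫⁻ X, ∫⁻ h, (rsAvg s₀ c z r (Γ p) X h γ) ^ N
                ∂(Measure.pi (fun _ : Fin m => stdGaussian (Vec (a + m))))
                ∂(Measure.pi (fun _ : Fin a => stdGaussian (Vec d)))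
              ≤ ((θ γ)⁻¹) ^ N * (B γ) ^ N := by gcongr
            _ ≤ ((2 : ℝ≥0∞) ^ (E * N))⁻¹ := profStage_inv_pow E N (B γ)
      _ = ((2 : ℝ≥0∞) ^ (E * N))⁻¹ := by rw [lintegral_const, measure_univ, mul_one]
  calc subAvg s₀ (fun s => ∫⁻ X, ∑ p, μ p X s * Γ p s
          ∂(Measure.pi (fun _ : Fin a => stdGaussian (Vec d)))) c z r
      ≤ ∫⁻ γ, θ γ ∂(stdGaussian (Vec (a + m)))
        + ∑ p, ∫⁻ γ, ((θ γ)⁻¹) ^ N * ∫⁻ X, ∫⁻ h, (rsAvg s₀ c z r (Γ p) X h γ) ^ N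
            ∂(Measure.pi (fun _ : Fin m => stdGaussian (Vec (a + m))))
            ∂(Measure.pi (fun _ : Fin a => stdGaussian (Vec d)))
            ∂(stdGaussian (Vec (a + m))) := hup
    _ ≤ ((2 : ℝ≥0∞) ^ (E + 3 * d + 4 * D + 1) * A * ((ENNReal.ofReal r)⁻¹) ^ D
          + (2 : ℝ≥0∞) ^ E * τ) + ∑ _p : P, ((2 : ℝ≥0∞) ^ (E * N))⁻¹ :=
        add_le_add hfirst (Finset.sum_le_sum (fun p _ => hsecond p))
    _ = profFn D ((2 : ℝ≥0∞) ^ (E + 3 * d + 4 * D + 1) * A)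
          ((2 : ℝ≥0∞) ^ E * τ + (Fintype.card P : ℝ≥0∞) * ((2 : ℝ≥0∞) ^ (E * N))⁻¹) r := by
        simp only [profFn, Finset.sum_const, Finset.card_univ, nsmul_eq_mul]
        ring

end Vale.Agent.Lib.P309
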