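import Vale.Agent.Lib.P309.Lin.Convert
import Vale.Agent.Lib.P309.Lin.NPoint
import Vale.Agent.Lib.P309.Prof.RowsFrame
import Vale.Agent.Lib.P309.Stage.Moment

namespace Vale.Agent.Lib.P309

open MeasureTheory ProbabilityTheory Metric Set
open scoped ENNReal

/-- The `N`-th moment of the resampling average, over the rows and the auxiliary vectors, for a
fixed coordinate vector `γ` with nonzero first and last parts: no loss of dimension. -/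
theorem lin_stage_moment {d n m N D K₀ : ℕ} (s₀ : Sph d) (hn : 1 ≤ n) (hK₀ : 1 ≤ K₀)
    (hK : K₀ + 2 ≤ n + m) (hm : N + D ≤ m)
    (c : Fin (n + m) → Vec d) (z : Vec d) (r : ℝ) (hsub : IsSub c z r)
    (Γ : Sph d → ℝ≥0∞) (hΓ : Measurable Γ) (A τ : ℝ≥0∞)
    (hprof : ProfLe s₀ Γ K₀ (profFn D A τ))
    (γ : Vec (n + m)) (hγ1 : hdV γ ≠ 0) (hγ2 : tlV γ ≠ 0) :
    ∫⁻ X, ∫⁻ h, (rsAvg s₀ c z r Γ X h γ) ^ N
        ∂(Measure.pi (fun _ : Fin m => stdGaussian (Vec (n + m))))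
        ∂(Measure.pi (fun _ : Fin n => stdGaussian (Vec d)))
      ≤ ((2 : ℝ≥0∞) ^ (3 * D + 2 * (n + m))
          * (A * ((ENNReal.ofReal (r * (‖tlV γ‖ / ‖γ‖)))⁻¹) ^ D) + τ) ^ N := by
  have hNm : N ≤ m := by omega
  have hmK : m + 1 ≤ n + m := by omega
  have hprob : IsProbabilityMeasure (frameLaw (n + m) (n + m)) := lqh_frameLaw_prob
  -- the moment as a function of the frame
  have hGm : Measurable (fun e : Fin (n + m) → Vec (n + m) =>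
      (∫⁻ q, Γ (subPt s₀ c z r (mix (rsV γ q) e)) ∂(stdGaussian (Vec m))) ^ N) :=
    Measurable.pow_const (Measurable.lintegral_prod_right' (stgC_meas_pt s₀ c z r Γ hΓ γ)) N
  have h1 : ∫⁻ X, ∫⁻ h, (rsAvg s₀ c z r Γ X h γ) ^ N
        ∂(Measure.pi (fun _ : Fin m => stdGaussian (Vec (n + m))))
        ∂(Measure.pi (fun _ : Fin n => stdGaussian (Vec d)))
      = ∫⁻ e, (∫⁻ q, Γ (subPt s₀ c z r (mix (rsV γ q) e)) ∂(stdGaussian (Vec m))) ^ N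
          ∂(frameLaw (n + m) (n + m)) :=
    lintegral_rowFr c hsub.on _ hGm
  have h2 : ∀ e : Fin (n + m) → Vec (n + m),
      (∫⁻ q, Γ (subPt s₀ c z r (mix (rsV γ q) e)) ∂(stdGaussian (Vec m))) ^ N
        = ∫⁻ Q, ∏ k : Fin N, Γ (subPt s₀ c z r (mix (rsV γ (Q k)) e))
            ∂(Measure.pi (fun _ : Fin N => stdGaussian (Vec m))) :=
    fun e => momt_pow_eq _ (stgC_meas_pt_right s₀ c z r Γ hΓ γ e)
  have hnorm : Real.sqrt (‖hdV γ‖ ^ 2 + ‖tlV γ‖ ^ 2) = ‖γ‖ := by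
    rw [← norm_sq_hdV_tlV γ]
    exact Real.sqrt_sq (norm_nonneg γ)
  rw [h1, lintegral_congr h2,
    lintegral_lintegral_swap (stgC_meas_prod s₀ c z r Γ hΓ γ).aemeasurable]
  calc ∫⁻ Q, ∫⁻ e, ∏ k : Fin N, Γ (subPt s₀ c z r (mix (rsV γ (Q k)) e))
          ∂(frameLaw (n + m) (n + m)) ∂(Measure.pi (fun _ : Fin N => stdGaussian (Vec m)))
      = ∫⁻ Q, ∫⁻ e, ∏ k : Fin N, Γ (subPt s₀ c z r
          (‖hdV γ‖ • e 0 + ∑ l : Fin N, (‖tlV γ‖ * lqCoef Q k l / ‖Q k‖) • e l.succ))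
          ∂(frameLaw (n + m) (N + 1))
          ∂(Measure.pi (fun _ : Fin N => stdGaussian (Vec m))) := by
        refine lintegral_congr_ae ?_
        filter_upwards [ae_linearIndependent_gaussian_le (d := m) (n := N) hNm] with Q hQ
        exact lin_convert s₀ c z r Γ hΓ γ hγ1 hγ2 Q hQ
    _ ≤ ((2 : ℝ≥0∞) ^ (3 * D + 2 * (n + m))
          * (A * ((ENNReal.ofReal
              (r * (‖tlV γ‖ / Real.sqrt (‖hdV γ‖ ^ 2 + ‖tlV γ‖ ^ 2))))⁻¹) ^ D) + τ) ^ N :=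
        lin_npoint s₀ hK₀ hK hmK hm c z r hsub Γ hΓ A τ hprof ‖hdV γ‖ ‖tlV γ‖
          (norm_nonneg _) (norm_pos_iff.mpr hγ2)
    _ = ((2 : ℝ≥0∞) ^ (3 * D + 2 * (n + m))
          * (A * ((ENNReal.ofReal (r * (‖tlV γ‖ / ‖γ‖)))⁻¹) ^ D) + τ) ^ N := by
        rw [hnorm]

end Vale.Agent.Lib.P309
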