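import Vale.Agent.Lib.P309.Lin.StepSum

namespace Vale.Agent.Lib.P309

open MeasureTheory ProbabilityTheory Metric Set
open scoped ENNReal

/-- The step without previous points: the new point is sampled on the subsphere orthogonal to
the head direction, and the profile hypothesis applies directly. -/
theorem linStep_zero {d K m D K₀ : ℕ} (s₀ : Sph d) (hK₀ : 1 ≤ K₀) (hK : K₀ + 2 ≤ K)
    (hm : 1 ≤ m)
    (c : Fin K → Vec d) (z : Vec d) (r : ℝ) (hsub : IsSub c z r)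
    (G : Sph d → ℝ≥0∞) (hG : Measurable G) (A τ : ℝ≥0∞)
    (hprof : ProfLe s₀ G K₀ (profFn D A τ))
    (e : Fin (0 + 1) → Vec K) (he : Orthonormal ℝ e)
    (g : Fin 0 → Vec m) (h ρ : ℝ) (hρ : 0 < ρ) :
    ∫⁻ q, ∫⁻ x, G (subPt s₀ c z r
        (h • e 0 + ∑ l : Fin 0, (ρ * inner ℝ (g l) q / ‖q‖) • e l.succ
          + (ρ * ‖q - ∑ l, inner ℝ (g l) q • g l‖ / ‖q‖)
            • dirV (x - ∑ l : Fin (0 + 1), inner ℝ (e l) x • e l)))
        ∂(stdGaussian (Vec K)) ∂(stdGaussian (Vec m))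
      ≤ (2 : ℝ≥0∞) ^ (3 * D + 2 * K)
          * (A * ((ENNReal.ofReal (r * (ρ / Real.sqrt (h ^ 2 + ρ ^ 2))))⁻¹) ^ D) + τ := by
  obtain ⟨B, hB⟩ : ∃ B : ℝ≥0∞, B = (2 : ℝ≥0∞) ^ (3 * D + 2 * K)
      * (A * ((ENNReal.ofReal (r * (ρ / Real.sqrt (h ^ 2 + ρ ^ 2))))⁻¹) ^ D) + τ := ⟨_, rfl⟩
  rw [← hB]
  have hstep := seq_step (N := 1) s₀ hK₀ (by omega : K₀ + 1 ≤ K) c z r hsub G hG
    (profFn D A τ) hprof e he (fun _ => h) ρ hρ
  have e3 : ∑ l : Fin 1, h • e l = h • e 0 := Fin.sum_univ_one _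
  have e4 : ∑ _l : Fin 1, h ^ 2 = h ^ 2 := Fin.sum_univ_one _
  rw [e3, e4] at hstep
  have hb : profFn D A τ (r * ρ / Real.sqrt (h ^ 2 + ρ ^ 2)) ≤ B := by
    rw [hB]
    unfold profFn
    rw [mul_div_assoc]
    have h2 : (1 : ℝ≥0∞) ≤ (2 : ℝ≥0∞) ^ (3 * D + 2 * K) := one_le_pow₀ (by norm_num)
    exact add_le_add (le_mul_of_one_le_left' h2) le_rfl
  refine (lintegral_mono_ae (g := fun _ => B) ?_).trans (le_of_eq ?_)
  · filter_upwards [ae_gauss_ne_zero hm] with q hq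
    have hq' : ‖q‖ ≠ 0 := norm_ne_zero_iff.mpr hq
    have e1 : ρ * ‖q - ∑ l : Fin 0, inner ℝ (g l) q • g l‖ / ‖q‖ = ρ := by
      rw [Finset.univ_eq_empty, Finset.sum_empty, sub_zero, mul_div_assoc, div_self hq',
        mul_one]
    have e2 : ∑ l : Fin 0, (ρ * inner ℝ (g l) q / ‖q‖) • e l.succ = 0 := by
      rw [Finset.univ_eq_empty, Finset.sum_empty]
    rw [e1, e2, add_zero]
    exact hstep.trans hb
  · rw [lintegral_const, measure_univ, mul_one]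

/-- The step of the sequential `N`-point bound without loss of dimension.  Let `G` have the
radial profile `A / ρ^D + τ` from dimension `K₀ ≤ K - 2` on.  Let `e` be an orthonormal family
of `N + 1` vectors of `ℝ^K` (the head direction and the frame of the `N` previous points) and
`g` an orthonormal family of `N` vectors of `ℝ^m` (the frame of the previous resampling
vectors).  The new point has the coordinate vector
`h • e 0 + ρ • (∑ l, ⟨g l, q⟩ / ‖q‖ • e (l+1) + ‖q^⊥‖ / ‖q‖ • dir (x^⊥))`, for independent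
standard Gaussian vectors `q` of `ℝ^m` and `x` of `ℝ^K`.  The average of `G` at the new point
is at most `2^(3D + 2K) A / (r ρ / sqrt (h^2 + ρ^2))^D + τ`, whatever `e` and `g` are. -/
theorem lin_step {d K m N D K₀ : ℕ} (s₀ : Sph d) (hK₀ : 1 ≤ K₀) (hK : K₀ + 2 ≤ K)
    (hmK : m + 1 ≤ K) (hm : N + D + 1 ≤ m)
    (c : Fin K → Vec d) (z : Vec d) (r : ℝ) (hsub : IsSub c z r)
    (G : Sph d → ℝ≥0∞) (hG : Measurable G) (A τ : ℝ≥0∞)
    (hprof : ProfLe s₀ G K₀ (profFn D A τ))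
    (e : Fin (N + 1) → Vec K) (he : Orthonormal ℝ e)
    (g : Fin N → Vec m) (hg : Orthonormal ℝ g) (h ρ : ℝ) (hh : 0 ≤ h) (hρ : 0 < ρ) :
    ∫⁻ q, ∫⁻ x, G (subPt s₀ c z r
        (h • e 0 + ∑ l : Fin N, (ρ * inner ℝ (g l) q / ‖q‖) • e l.succ
          + (ρ * ‖q - ∑ l, inner ℝ (g l) q • g l‖ / ‖q‖)
            • dirV (x - ∑ l : Fin (N + 1), inner ℝ (e l) x • e l)))
        ∂(stdGaussian (Vec K)) ∂(stdGaussian (Vec m))
      ≤ (2 : ℝ≥0∞) ^ (3 * D + 2 * K)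
          * (A * ((ENNReal.ofReal (r * (ρ / Real.sqrt (h ^ 2 + ρ ^ 2))))⁻¹) ^ D) + τ := by
  rcases Nat.eq_zero_or_pos N with hN0 | hNpos
  · subst hN0
    exact linStep_zero s₀ hK₀ hK (by omega) c z r hsub G hG A τ hprof e he g h ρ hρ
  · obtain ⟨k, rfl⟩ : ∃ k, m = N + k := ⟨m - N, by omega⟩
    obtain ⟨j, rfl⟩ : ∃ j, K = (N + 1) + (j + k) := ⟨K - (N + 1) - k, by omega⟩
    exact lin_step_sum s₀ hNpos hK₀ hK (by omega) c z r hsub G hG A τ hprof e he g hg h ρ hh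
      hρ

end Vale.Agent.Lib.P309
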