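import Vale.Agent.Lib.P309.Lin.CoordsQ
import Vale.Agent.Lib.P309.Lin.CoordsX
import Vale.Agent.Lib.P309.Lin.Moment
import Vale.Agent.Lib.P309.Lin.Shift
import Vale.Agent.Lib.P309.Lin.Slice

namespace Vale.Agent.Lib.P309

open MeasureTheory ProbabilityTheory Metric Set
open scoped ENNReal

/-- The coordinate vector of the step, rewritten through the direction of a vector whose norm
is the norm of `q`: here `n` is a unit vector orthogonal to the frame `e`. -/
theorem linStepSum_point {K N m : ℕ} (e : Fin (N + 1) → Vec K) (he : Orthonormal ℝ e)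
    (g : Fin N → Vec m) (hg : Orthonormal ℝ g) (h ρ : ℝ) (q : Vec m) (n : Vec K)
    (hn : ‖n‖ = 1) (hort : ∀ l, inner ℝ (e l) n = 0) :
    h • e 0 + ∑ l : Fin N, (ρ * inner ℝ (g l) q / ‖q‖) • e l.succ
        + (ρ * ‖q - ∑ l, inner ℝ (g l) q • g l‖ / ‖q‖) • n
      = h • e 0 + ρ • dirV ((∑ l : Fin N, inner ℝ (g l) q • e l.succ)
          + ‖q - ∑ l, inner ℝ (g l) q • g l‖ • n) := by
  set a : Fin N → ℝ := fun l => inner ℝ (g l) q with ha
  have hb0 : 0 ≤ ‖q - ∑ l, a l • g l‖ := norm_nonneg _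
  have hP : ‖∑ l, a l • e l.succ‖ ^ 2 = ∑ l, a l ^ 2 :=
    seqStep_norm_sum_sq (fun l : Fin N => e l.succ) (he.comp _ (Fin.succ_injective _)) a
  have hg2 : ‖∑ l, a l • g l‖ ^ 2 = ∑ l, a l ^ 2 := seqStep_norm_sum_sq g hg a
  have hqp : inner ℝ q (∑ l, a l • g l) = ∑ l, a l ^ 2 := by
    rw [inner_sum]
    refine Finset.sum_congr rfl fun l _ => ?_
    rw [inner_smul_right, real_inner_comm]
    simp only [ha]
    ring
  have hb2 : ‖q - ∑ l, a l • g l‖ ^ 2 = ‖q‖ ^ 2 - ∑ l, a l ^ 2 := by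
    rw [norm_sub_sq_real, hqp, hg2]
    ring
  have hPn : inner ℝ (∑ l, a l • e l.succ) n = 0 := by
    rw [sum_inner]
    refine Finset.sum_eq_zero fun l _ => ?_
    rw [inner_smul_left, hort l.succ, mul_zero]
  have hw : ‖(∑ l, a l • e l.succ) + ‖q - ∑ l, a l • g l‖ • n‖ = ‖q‖ := by
    have h2 : ‖(∑ l, a l • e l.succ) + ‖q - ∑ l, a l • g l‖ • n‖ ^ 2 = ‖q‖ ^ 2 := by
      rw [norm_add_sq_real, inner_smul_right, hPn, norm_smul, hn, hP, Real.norm_eq_abs,
        abs_of_nonneg hb0, mul_one, hb2]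
      ring
    exact (sq_eq_sq₀ (norm_nonneg _) (norm_nonneg _)).mp h2
  have e1 : ∀ l : Fin N, (ρ * a l / ‖q‖) • e l.succ = (ρ * ‖q‖⁻¹) • (a l • e l.succ) := by
    intro l
    rw [smul_smul]
    congr 1
    ring
  have e2 : (ρ * ‖q - ∑ l, a l • g l‖ / ‖q‖) • n
      = (ρ * ‖q‖⁻¹) • (‖q - ∑ l, a l • g l‖ • n) := by
    rw [smul_smul]
    congr 1
    ring
  unfold dirV
  rw [hw, add_assoc, smul_smul, smul_add, Finset.smul_sum, e2]
  congr 2
  exact Finset.sum_congr rfl fun l _ => e1 l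

/-- A combination with shifted coefficients: the shift `μ • ζ` of the coefficients moves the
combination by `μ * ‖ζ‖` along the combination with the coefficients `dirV ζ`. -/
theorem linStepSum_comb {K N : ℕ} (E : Fin N → Vec K) (u ζ : Vec N) (μ : ℝ) :
    ∑ l, (u + μ • ζ) l • E l
      = (∑ l, u l • E l) + (μ * ‖ζ‖) • ∑ l, (dirV ζ) l • E l := by
  have hζ : ∀ l, ζ l = ‖ζ‖ * (dirV ζ) l := by
    intro l
    have h1 : (‖ζ‖ • dirV ζ) l = ζ l := by rw [norm_smul_dirV ζ]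
    rw [← h1]
    simp
  rw [Finset.smul_sum, ← Finset.sum_add_distrib]
  refine Finset.sum_congr rfl fun l _ => ?_
  have h2 : (u + μ • ζ) l = u l + μ * ζ l := by simp
  rw [h2, add_smul, smul_smul]
  congr 2
  rw [mul_assoc, ← hζ l]

/-- The step of the sequential `N`-point bound without loss of dimension, with the dimensions
in sum form: `N ≥ 1` previous points, `m = N + k` and `K = (N + 1) + (j + k)`. -/
theorem lin_step_sum {d N j k D K₀ : ℕ} (s₀ : Sph d) (hN : 1 ≤ N) (hK₀ : 1 ≤ K₀)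
    (hK : K₀ + 2 ≤ (N + 1) + (j + k)) (hk : D + 1 ≤ k)
    (c : Fin ((N + 1) + (j + k)) → Vec d) (z : Vec d) (r : ℝ) (hsub : IsSub c z r)
    (G : Sph d → ℝ≥0∞) (hG : Measurable G) (A τ : ℝ≥0∞)
    (hprof : ProfLe s₀ G K₀ (profFn D A τ))
    (e : Fin (N + 1) → Vec ((N + 1) + (j + k))) (he : Orthonormal ℝ e)
    (g : Fin N → Vec (N + k)) (hg : Orthonormal ℝ g) (h ρ : ℝ) (hh : 0 ≤ h) (hρ : 0 < ρ) :
    ∫⁻ q, ∫⁻ x, G (subPt s₀ c z r
        (h • e 0 + ∑ l : Fin N, (ρ * inner ℝ (g l) q / ‖q‖) • e l.succ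
          + (ρ * ‖q - ∑ l, inner ℝ (g l) q • g l‖ / ‖q‖)
            • dirV (x - ∑ l : Fin (N + 1), inner ℝ (e l) x • e l)))
        ∂(stdGaussian (Vec ((N + 1) + (j + k)))) ∂(stdGaussian (Vec (N + k)))
      ≤ (2 : ℝ≥0∞) ^ (3 * D + 2 * ((N + 1) + (j + k)))
          * (A * ((ENNReal.ofReal (r * (ρ / Real.sqrt (h ^ 2 + ρ ^ 2))))⁻¹) ^ D) + τ := by
  have hk1 : 1 ≤ k := by omega
  have hk' : 1 ≤ j + k := by omega
  obtain ⟨β, hβ⟩ := frmU_exists_basis (Nat.le_add_right (N + 1) (j + k)) he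
  have he' : ∀ l, e l = β (Fin.castAdd (j + k) l) := fun l => (hβ l).symm
  set f : Fin (j + k) → Vec ((N + 1) + (j + k)) := fun i => β (Fin.natAdd (N + 1) i)
    with hf_def
  have hf : Orthonormal ℝ f := β.orthonormal.comp _ (Fin.natAdd_injective (j + k) (N + 1))
  -- the integrand as a function of the coordinate vector before normalisation
  set Ψ : Vec ((N + 1) + (j + k)) → ℝ≥0∞ :=
    fun w => G (subPt s₀ c z r (h • e 0 + ρ • dirV w)) with hΨ_def
  have hΨ : Measurable Ψ :=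
    hG.comp ((measurable_subPt s₀ c z r).comp
      (measurable_const.add (measurable_dirV.const_smul ρ)))
  have hΨhom : ∀ t : ℝ, 0 < t → ∀ w, Ψ (t • w) = Ψ w := by
    intro t ht w
    show G (subPt s₀ c z r (h • e 0 + ρ • dirV (t • w)))
      = G (subPt s₀ c z r (h • e 0 + ρ • dirV w))
    rw [dirV_smul_pos ht]
  -- almost surely the part of `x` orthogonal to the frame does not vanish
  have hxae : ∀ᵐ x ∂(stdGaussian (Vec ((N + 1) + (j + k)))),
      x - ∑ l : Fin (N + 1), inner ℝ (e l) x • e l ≠ 0 := by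
    have h1 : ∀ᵐ y ∂((stdGaussian (Vec ((N + 1) + (j + k)))).map (rowCo f)), y ≠ 0 := by
      rw [gauss_rowCo f hf]
      exact ae_gauss_ne_zero hk'
    have h2 := ae_of_ae_map (measurable_rowCo f).aemeasurable h1
    filter_upwards [h2] with x hx
    have hproj : x - ∑ l : Fin (N + 1), inner ℝ (e l) x • e l = mix (rowCo f x) f := by
      have := seqStep_proj β x
      simp only [← he'] at this
      exact this
    rw [hproj]
    intro h0
    apply hx
    have h3 := norm_mix hf (rowCo f x)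
    rw [h0, norm_zero] at h3
    exact norm_eq_zero.mp h3.symm
  -- step (a): the integrand through `Ψ`
  have hA : ∫⁻ q, ∫⁻ x, G (subPt s₀ c z r
        (h • e 0 + ∑ l : Fin N, (ρ * inner ℝ (g l) q / ‖q‖) • e l.succ
          + (ρ * ‖q - ∑ l, inner ℝ (g l) q • g l‖ / ‖q‖)
            • dirV (x - ∑ l : Fin (N + 1), inner ℝ (e l) x • e l)))
        ∂(stdGaussian (Vec ((N + 1) + (j + k)))) ∂(stdGaussian (Vec (N + k)))
      = ∫⁻ q, ∫⁻ x, Ψ ((∑ l : Fin N, inner ℝ (g l) q • e l.succ)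
          + ‖q - ∑ l, inner ℝ (g l) q • g l‖
            • dirV (x - ∑ l : Fin (N + 1), inner ℝ (e l) x • e l))
        ∂(stdGaussian (Vec ((N + 1) + (j + k)))) ∂(stdGaussian (Vec (N + k))) := by
    refine lintegral_congr fun q => lintegral_congr_ae ?_
    filter_upwards [hxae] with x hx
    have hn : ‖dirV (x - ∑ l : Fin (N + 1), inner ℝ (e l) x • e l)‖ = 1 := norm_dirV hx
    have hno : ∀ l, inner ℝ (e l) (dirV (x - ∑ l : Fin (N + 1), inner ℝ (e l) x • e l)) = 0 := by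
      intro l
      unfold dirV
      rw [inner_smul_right, inner_sub_right, he.inner_right_fintype, sub_self, mul_zero]
    show G (subPt s₀ c z r _) = G (subPt s₀ c z r _)
    rw [linStepSum_point e he g hg h ρ q _ hn hno]
  -- step (b): coordinates of `q`
  have hB := lin_coords_q hk' β g hg Ψ hΨ
  simp only [← he'] at hB
  -- step (c): the shift
  set Ψt : Vec N × Vec (j + k) → ℝ≥0∞ :=
    fun p => Ψ ((∑ l : Fin N, p.1 l • e l.succ) + mix p.2 f) with hΨt_def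
  have hΨt : Measurable Ψt := by
    refine hΨ.comp (Measurable.add ?_ ?_)
    · refine Finset.measurable_sum _ fun l _ => ?_
      have hcoord : Measurable fun p : Vec N × Vec (j + k) => p.1 l :=
        ((EuclideanSpace.proj l).continuous.measurable).comp measurable_fst
      exact hcoord.smul_const _
    · exact measurable_mix_pair.comp (measurable_snd.prodMk measurable_const)
  have hΨthom : ∀ t : ℝ, 0 < t → ∀ (u : Vec N) (y : Vec (j + k)),
      Ψt (t • u, t • y) = Ψt (u, y) := by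
    intro t ht u y
    show Ψ ((∑ l : Fin N, (t • u) l • e l.succ) + mix (t • y) f)
      = Ψ ((∑ l : Fin N, u l • e l.succ) + mix y f)
    rw [← hΨhom t ht ((∑ l : Fin N, u l • e l.succ) + mix y f), smul_add, mix_smul,
      Finset.smul_sum]
    congr 2
    refine Finset.sum_congr rfl fun l _ => ?_
    rw [smul_smul]
    rfl
  have hC := lin_shift (n := N) (j := j) (k := k) hk1 Ψt hΨt hΨthom
  have hBC : ∫⁻ u : Vec N, ∫⁻ v : Vec k, ∫⁻ y : Vec (j + k),
        Ψ ((∑ l : Fin N, u l • e l.succ) + ‖v‖ • mix (dirV y) f)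
        ∂(stdGaussian (Vec (j + k))) ∂(stdGaussian (Vec k)) ∂(stdGaussian (Vec N))
      = ∫⁻ u : Vec N, ∫⁻ v : Vec k, ∫⁻ y : Vec (j + k), Ψt (u, ‖v‖ • dirV y)
        ∂(stdGaussian (Vec (j + k))) ∂(stdGaussian (Vec k)) ∂(stdGaussian (Vec N)) := by
    refine lintegral_congr fun u => lintegral_congr fun v => lintegral_congr fun y => ?_
    show Ψ ((∑ l : Fin N, u l • e l.succ) + ‖v‖ • mix (dirV y) f)
      = Ψ ((∑ l : Fin N, u l • e l.succ) + mix (‖v‖ • dirV y) f)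
    rw [mix_smul]
  -- steps (d) and (e): coordinates of `x` and the slice bound
  set A' : ℝ≥0∞ := A * ((ENNReal.ofReal (r * (ρ / Real.sqrt (h ^ 2 + ρ ^ 2))))⁻¹) ^ D
    with hA'_def
  have hstep : ∀ (Y : Vec (j + k)) (ζ : Vec N), ζ ≠ 0 →
      ∫⁻ u, ∫⁻ y, Ψt (u + (‖hdV Y‖ / ‖tlV Y‖) • ζ, y)
          ∂(stdGaussian (Vec (j + k))) ∂(stdGaussian (Vec N))
        ≤ A' * ∫⁻ x, ((ENNReal.ofReal
            (linRatio (linU e ζ) ((‖hdV Y‖ / ‖tlV Y‖) * ‖ζ‖) x))⁻¹) ^ D
            ∂(stdGaussian (Vec ((N + 1) + (j + k)))) + τ := by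
    intro Y ζ hζ
    have hμ : 0 ≤ ‖hdV Y‖ / ‖tlV Y‖ := div_nonneg (norm_nonneg _) (norm_nonneg _)
    set μ : ℝ := ‖hdV Y‖ / ‖tlV Y‖ with hμ_def
    set Θ : Vec ((N + 1) + (j + k)) → ℝ≥0∞ :=
      fun w => Ψ (w + (μ * ‖ζ‖) • linU e ζ 1) with hΘ_def
    have hΘ : Measurable Θ := hΨ.comp (measurable_id.add measurable_const)
    have h1 : ∫⁻ u, ∫⁻ y, Ψt (u + μ • ζ, y)
          ∂(stdGaussian (Vec (j + k))) ∂(stdGaussian (Vec N))
        = ∫⁻ u : Vec N, ∫⁻ y : Vec (j + k), Θ ((∑ l : Fin N, u l • e l.succ) + mix y f)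
          ∂(stdGaussian (Vec (j + k))) ∂(stdGaussian (Vec N)) := by
      refine lintegral_congr fun u => lintegral_congr fun y => ?_
      show Ψ ((∑ l : Fin N, (u + μ • ζ) l • e l.succ) + mix y f)
        = Ψ ((∑ l : Fin N, u l • e l.succ) + mix y f
            + (μ * ‖ζ‖) • ∑ l : Fin N, (dirV ζ) l • e l.succ)
      rw [linStepSum_comb (fun l : Fin N => e l.succ) u ζ μ, add_right_comm]
    have h2 := lin_coords_x β Θ hΘ
    simp only [← he'] at h2
    rw [h1]
    refine (le_of_eq h2).trans ?_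
    exact lin_slice s₀ hK₀ hK c z r hsub G hG A τ hprof (linU e ζ)
      (linU_orthonormal e he ζ hζ) h ρ (μ * ‖ζ‖) hh hρ (mul_nonneg hμ (norm_nonneg _))
  -- step (f): integration of the slice bound and the moment bound
  have hmom := lin_moment (K := (N + 1) + (j + k)) (j := j) (k := k) (D := D) hN hk
    (by omega) e he
  by_cases hAtop : A' = ⊤
  · rw [hAtop, ENNReal.mul_top (by positivity), top_add]
    exact le_top
  calc ∫⁻ q, ∫⁻ x, G (subPt s₀ c z r
          (h • e 0 + ∑ l : Fin N, (ρ * inner ℝ (g l) q / ‖q‖) • e l.succ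
            + (ρ * ‖q - ∑ l, inner ℝ (g l) q • g l‖ / ‖q‖)
              • dirV (x - ∑ l : Fin (N + 1), inner ℝ (e l) x • e l)))
          ∂(stdGaussian (Vec ((N + 1) + (j + k)))) ∂(stdGaussian (Vec (N + k)))
      = ∫⁻ Y, ∫⁻ ζ, ∫⁻ u, ∫⁻ y, Ψt (u + (‖hdV Y‖ / ‖tlV Y‖) • ζ, y)
          ∂(stdGaussian (Vec (j + k))) ∂(stdGaussian (Vec N)) ∂(stdGaussian (Vec N))
          ∂(stdGaussian (Vec (j + k))) := by
        rw [hA, ← hC, ← hBC]
        exact hB
    _ ≤ ∫⁻ Y : Vec (j + k), ∫⁻ ζ : Vec N, (A' * ∫⁻ x, ((ENNReal.ofReal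
            (linRatio (linU e ζ) ((‖hdV Y‖ / ‖tlV Y‖) * ‖ζ‖) x))⁻¹) ^ D
            ∂(stdGaussian (Vec ((N + 1) + (j + k)))) + τ)
          ∂(stdGaussian (Vec N)) ∂(stdGaussian (Vec (j + k))) := by
        refine lintegral_mono fun Y => lintegral_mono_ae ?_
        filter_upwards [ae_gauss_ne_zero hN] with ζ hζ
        exact hstep Y ζ hζ
    _ = A' * ∫⁻ Y : Vec (j + k), ∫⁻ ζ : Vec N, ∫⁻ x, ((ENNReal.ofReal
            (linRatio (linU e ζ) ((‖hdV Y‖ / ‖tlV Y‖) * ‖ζ‖) x))⁻¹) ^ D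
            ∂(stdGaussian (Vec ((N + 1) + (j + k))))
          ∂(stdGaussian (Vec N)) ∂(stdGaussian (Vec (j + k))) + τ := by
        simp only [lintegral_add_right _ measurable_const, lintegral_const_mul' _ _ hAtop,
          lintegral_const, measure_univ, mul_one]
    _ ≤ A' * (2 : ℝ≥0∞) ^ (3 * D + 2 * ((N + 1) + (j + k))) + τ := by
        gcongr
        refine hmom.trans (le_of_eq ?_)
        congr 1
        omega
    _ = (2 : ℝ≥0∞) ^ (3 * D + 2 * ((N + 1) + (j + k))) * A' + τ := by rw [mul_comm]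

end Vale.Agent.Lib.P309
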